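import Mathlib

set_option autoImplicit false
set_option linter.unusedSectionVars false
open Finset

namespace Crest.Agent.SW

variable {α : Type*} [Fintype α] [DecidableEq α]

lemma dirichlet {Ω : Finset α} {K : α → α → ℝ} (hs : ∀ x y, K x y = K y x)
    (hr : ∀ x ∈ Ω, ∑ y ∈ Ω, K x y = 1) (f : α → ℝ) :
    2 * ∑ x ∈ Ω, f x * (f x - ∑ y ∈ Ω, K x y * f y) = ∑ x ∈ Ω, ∑ y ∈ Ω, K x y * (f x - f y) ^ 2 := by
  have e1 : ∑ x ∈ Ω, ∑ y ∈ Ω, K x y * f x ^ 2 = ∑ x ∈ Ω, f x ^ 2 :=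
    sum_congr rfl fun x hx => by rw [← sum_mul, hr x hx, one_mul]
  have e2 : ∑ x ∈ Ω, ∑ y ∈ Ω, K x y * f y ^ 2 = ∑ x ∈ Ω, f x ^ 2 := by
    rw [sum_comm, ← e1]; simp only [hs]
  have e3 : ∀ x y, K x y * (f x - f y) ^ 2 =
      K x y * f x ^ 2 + K x y * f y ^ 2 - 2 * (f x * (K x y * f y)) := fun x y => by ring
  simp only [e3, sum_sub_distrib, sum_add_distrib, e1, e2, ← mul_sum, mul_sub, ← sq]
  ring

lemma contract {Ω : Finset α} {K : α → α → ℝ} (hs : ∀ x y, K x y = K y x)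
    (hn : ∀ x y, 0 ≤ K x y) (hd : ∀ x, 1 / 2 ≤ K x x) (hr : ∀ x ∈ Ω, ∑ y ∈ Ω, K x y = 1)
    (h : α → ℝ) :
    ∑ x ∈ Ω, (∑ y ∈ Ω, K x y * h y) ^ 2 ≤ ∑ x ∈ Ω, h x * ∑ y ∈ Ω, K x y * h y := by
  set k : α → α → ℝ := fun x y => 2 * K x y - if x = y then 1 else 0 with hk
  have k0 : ∀ x y, 0 ≤ k x y := fun x y => by
    simp only [hk]; split_ifs with e
    · subst e; linarith [hd x]
    · linarith [hn x y]
  have k1 : ∀ x ∈ Ω, ∑ y ∈ Ω, k x y = 1 := fun x hx => by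
    simp only [hk, sum_sub_distrib, ← mul_sum, hr x hx, sum_ite_eq, hx, if_true]; norm_num
  have ks : ∀ x y, k x y = k y x := fun x y => by simp only [hk, hs x y, eq_comm]
  have k2 : ∀ x ∈ Ω, ∑ y ∈ Ω, k x y * h y = 2 * ∑ y ∈ Ω, K x y * h y - h x := fun x hx => by
    simp only [hk, sub_mul, sum_sub_distrib, ite_mul, one_mul, zero_mul, sum_ite_eq, hx, if_true,
      mul_sum, mul_assoc]
  have j : ∑ x ∈ Ω, (2 * ∑ y ∈ Ω, K x y * h y - h x) ^ 2 ≤ ∑ x ∈ Ω, h x ^ 2 := by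
    calc _ ≤ ∑ x ∈ Ω, ∑ y ∈ Ω, k x y * h y ^ 2 := sum_le_sum fun x hx => by
          have := sum_sq_le_sum_mul_sum_of_sq_eq_mul Ω (r := fun y => k x y * h y) (f := k x)
            (g := fun y => k x y * h y ^ 2) (fun y _ => k0 x y)
            (fun y _ => mul_nonneg (k0 x y) (sq_nonneg _)) fun y _ => by ring
          rwa [k1 x hx, one_mul, k2 x hx] at this
      _ = _ := by
          rw [sum_comm]
          exact sum_congr rfl fun y hy => by rw [← sum_mul]; simp only [ks _ y, k1 y hy, one_mul]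
  have e : ∀ x, (2 * ∑ y ∈ Ω, K x y * h y - h x) ^ 2 = 4 * (∑ y ∈ Ω, K x y * h y) ^ 2 -
      4 * (h x * ∑ y ∈ Ω, K x y * h y) + h x ^ 2 := fun x => by ring
  simp only [e, sum_add_distrib, sum_sub_distrib] at j
  rw [← mul_sum, ← mul_sum] at j
  linarith

lemma mix {Ω : Finset α} {K : Matrix α α ℝ} (hs : ∀ x y, K x y = K y x)
    (hn : ∀ x y, 0 ≤ K x y) (hd : ∀ x, 1 / 2 ≤ K x x) (hr : ∀ x ∈ Ω, ∑ y ∈ Ω, K x y = 1)
    (hc : ∀ x ∈ Ω, ∀ y ∉ Ω, K x y = 0) {γ : ℝ} (hγ : γ ≤ 1)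
    (gap : ∀ f : α → ℝ, ∑ x ∈ Ω, f x = 0 →
      γ * ∑ x ∈ Ω, f x ^ 2 ≤ ∑ x ∈ Ω, f x * (f x - ∑ y ∈ Ω, K x y * f y))
    {x : α} (hx : x ∈ Ω) (t : ℕ) :
    (∀ y ∉ Ω, (K ^ t) x y = 0) ∧ ∑ y ∈ Ω, (K ^ t) x y = 1 ∧
      ∑ y ∈ Ω, ((K ^ t) x y - 1 / #Ω) ^ 2 ≤ (1 - γ) ^ t := by
  have hN : (0 : ℝ) < #Ω := by exact_mod_cast card_pos.2 ⟨x, hx⟩
  induction t with
  | zero =>
    refine ⟨fun y hy => ?_, ?_, ?_⟩
    · rw [pow_zero, Matrix.one_apply_ne fun e : x = y => hy (e ▸ hx)]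
    · simp [Matrix.one_apply, hx]
    · have : ∀ y, ((1 : Matrix α α ℝ) x y - 1 / #Ω) ^ 2 =
          (if x = y then 1 - 2 / (#Ω : ℝ) else 0) + (1 / #Ω) ^ 2 := fun y => by
        rw [Matrix.one_apply]; split_ifs <;> ring
      simp only [pow_zero, this, sum_add_distrib, sum_ite_eq, hx, if_true, sum_const, nsmul_eq_mul]
      have : (#Ω : ℝ) * (1 / #Ω) ^ 2 = 1 / #Ω := by field_simp
      have h2 : (0 : ℝ) < 1 / #Ω := by positivity
      rw [this, show 2 / (#Ω : ℝ) = 2 * (1 / #Ω) by ring]; linarith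
  | succ t ih =>
    obtain ⟨i1, i2, i3⟩ := ih
    have st : ∀ y, (K ^ (t + 1)) x y = ∑ z ∈ Ω, (K ^ t) x z * K z y := fun y => by
      rw [pow_succ, Matrix.mul_apply]
      exact (sum_subset (subset_univ _) fun z _ hz => by rw [i1 z hz, zero_mul]).symm
    refine ⟨fun y hy => ?_, ?_, ?_⟩
    · rw [st]; exact sum_eq_zero fun z hz => by rw [hc z hz y hy, mul_zero]
    · simp only [st]
      rw [sum_comm, ← i2]
      exact sum_congr rfl fun z hz => by rw [← mul_sum, hr z hz, mul_one]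
    set h : α → ℝ := fun y => (K ^ t) x y - 1 / #Ω with hh
    have h0 : ∑ y ∈ Ω, h y = 0 := by
      simp only [hh, sum_sub_distrib, i2, sum_const, nsmul_eq_mul]; field_simp; ring
    have e : ∀ y ∈ Ω, (K ^ (t + 1)) x y - 1 / #Ω = ∑ z ∈ Ω, K y z * h z := fun y hy => by
      simp only [st, hh, mul_sub, sum_sub_distrib, ← sum_mul, hr y hy, one_mul]
      simp only [hs y, mul_comm]
    rw [sum_congr rfl fun y hy => by rw [e y hy]]
    have c := contract hs hn hd hr h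
    have g := gap h h0
    simp only [mul_sub, sum_sub_distrib, ← sq] at g
    have := mul_le_mul_of_nonneg_left i3 (sub_nonneg.2 hγ)
    rw [pow_succ]
    nlinarith

lemma var_eq (Ω : Finset α) (hΩ : Ω.Nonempty) (f : α → ℝ) :
    (#Ω : ℝ) * ∑ x ∈ Ω, f x ^ 2 - (∑ x ∈ Ω, f x) ^ 2 =
      #Ω * ∑ x ∈ Ω, (f x - (∑ x ∈ Ω, f x) / #Ω) ^ 2 := by
  have hN : (0 : ℝ) < #Ω := by exact_mod_cast hΩ.card_pos
  simp only [sub_sq, sum_add_distrib, sum_sub_distrib, ← sum_mul, ← mul_sum, sum_const,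
    nsmul_eq_mul]
  field_simp
  ring

end Crest.Agent.SW
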