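import Crest.Agent.SW.Gap
import Crest.Agent.SW.Mix
import Crest.Prelude.Def_SwitchChain

set_option autoImplicit false
set_option linter.unusedSectionVars false
open Finset
open Crest.SwitchChain

namespace Crest.Agent.SW

variable {n : ℕ}

/-- the edge between two distinct vertices -/
def ed {a b : Fin n} (h : a ≠ b) : Edge n := ⟨s(a, b), by simpa using h⟩

lemma mem_ed {a b v : Fin n} (h : a ≠ b) : v ∈ (ed h).1 ↔ v = a ∨ v = b := Sym2.mem_iff

lemma ed_eq {a b c e : Fin n} (h : a ≠ b) (h' : c ≠ e) :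
    ed h = ed h' ↔ (a = c ∧ b = e) ∨ (a = e ∧ b = c) := by
  simp [ed, Subtype.ext_iff]

lemma exists_ed (e : Edge n) {a : Fin n} (ha : a ∈ e.1) : ∃ b, ∃ h : a ≠ b, e = ed h := by
  obtain ⟨b, hb⟩ := Sym2.mem_iff_exists.1 ha
  have := e.2
  rw [hb] at this
  exact ⟨b, by simpa using this, Subtype.ext hb⟩

lemma exists_ed' (e : Edge n) : ∃ a b, ∃ h : a ≠ b, e = ed h := by
  obtain ⟨e, he⟩ := e
  induction e using Sym2.ind with
  | _ a b => exact ⟨a, b, by simpa using he, rfl⟩

lemma mem_pm {S : Finset (Fin n)} {F : Finset (Edge n)} : F ∈ pmSet S ↔ #F = 2 ∧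
    (∀ e ∈ F, ∀ v : Fin n, v ∈ e.1 → v ∈ S) ∧ ∀ v ∈ S, #(F.filter fun e => v ∈ e.1) = 1 := by
  simp [pmSet]

lemma pm_mem {a b c e : Fin n} (ab : a ≠ b) (ac : a ≠ c) (ae : a ≠ e) (bc : b ≠ c) (be : b ≠ e)
    (ce : c ≠ e) {S : Finset (Fin n)} (hS : ∀ v, v ∈ S ↔ v = a ∨ v = b ∨ v = c ∨ v = e) :
    ({ed ab, ed ce} : Finset (Edge n)) ∈ pmSet S := by
  have ne : ed ab ≠ ed ce := by simp [ed_eq, ac, ae]
  refine mem_pm.2 ⟨card_pair ne, fun f hf v hv => ?_, fun v hv => ?_⟩
  · rw [hS]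
    rcases mem_insert.1 hf with rfl | hf
    · rw [mem_ed] at hv; tauto
    · rw [mem_singleton.1 hf, mem_ed] at hv; tauto
  · rw [card_filter, sum_pair ne]
    simp only [mem_ed]
    rcases (hS v).1 hv with rfl | rfl | rfl | rfl <;>
      simp [ab, ac, ae, bc, be, ce, ab.symm, ac.symm, ae.symm, bc.symm, be.symm, ce.symm]

lemma pm_eq {a b c e : Fin n} (ab : a ≠ b) (ac : a ≠ c) (ae : a ≠ e) (bc : b ≠ c) (be : b ≠ e)
    (ce : c ≠ e) {S : Finset (Fin n)} (hc : c ∈ S) (he : e ∈ S) {F : Finset (Edge n)}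
    (hF : F ∈ pmSet S) (h : ed ab ∈ F) : F = {ed ab, ed ce} := by
  obtain ⟨h1, -, h3⟩ := mem_pm.1 hF
  obtain ⟨f, hf⟩ : ∃ f, F = {ed ab, f} := by
    obtain ⟨x, y, -, rfl⟩ := card_eq_two.1 h1
    rcases mem_insert.1 h with rfl | h
    · exact ⟨y, rfl⟩
    · exact ⟨x, by rw [← mem_singleton.1 h, pair_comm]⟩
  have m : ∀ v ∈ S, v ≠ a → v ≠ b → v ∈ f.1 := by
    intro v hv va vb
    obtain ⟨g, hg⟩ := card_pos.1 ((h3 v hv).symm ▸ Nat.one_pos)
    obtain ⟨g1, g2⟩ := mem_filter.1 hg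
    rw [hf] at g1
    rcases mem_insert.1 g1 with rfl | g1
    · rw [mem_ed] at g2; tauto
    · rwa [← mem_singleton.1 g1]
  rw [hf, show f = ed ce from Subtype.ext ((Sym2.mem_and_mem_iff ce).1
    ⟨m c hc ac.symm bc.symm, m e he ae.symm be.symm⟩)]

lemma card_pm {S : Finset (Fin n)} (hS : #S = 4) : #(pmSet S) = 3 := by
  obtain ⟨a, b, c, e, ab, ac, ae, bc, be, ce, rfl⟩ := card_eq_four.1 hS
  have : pmSet {a, b, c, e} = {{ed ab, ed ce}, {ed ac, ed be}, {ed ae, ed bc}} := by
    ext F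
    simp only [mem_insert, mem_singleton]
    constructor
    · intro hF
      obtain ⟨-, h2, h3⟩ := mem_pm.1 hF
      obtain ⟨g, hg⟩ := card_pos.1 ((h3 a (by simp)).symm ▸ Nat.one_pos)
      obtain ⟨g1, g2⟩ := mem_filter.1 hg
      obtain ⟨y, hy, rfl⟩ := exists_ed g g2
      have := h2 _ g1 y ((mem_ed hy).2 (Or.inr rfl))
      simp only [mem_insert, mem_singleton] at this
      rcases this with rfl | rfl | rfl | rfl
      · exact absurd rfl hy
      · exact Or.inl (pm_eq ab ac ae bc be ce (by simp) (by simp) hF g1)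
      · exact Or.inr (Or.inl (pm_eq ac ab ae bc.symm ce be (by simp) (by simp) hF g1))
      · exact Or.inr (Or.inr (pm_eq ae ab ac be.symm ce.symm bc (by simp) (by simp) hF g1))
    · rintro (rfl | rfl | rfl)
      · exact pm_mem ab ac ae bc be ce (by simp)
      · exact pm_mem ac ab ae bc.symm ce be fun v => by simp; tauto
      · exact pm_mem ae ab ac be.symm ce.symm bc fun v => by simp; tauto
  rw [this]
  refine card_eq_three.2 ⟨_, _, _, fun h => ?_, fun h => ?_, fun h => ?_, rfl⟩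
  · have := congrArg (ed ab ∈ ·) h
    simp [ed_eq, ab, ac, ae, bc, be] at this
  · have := congrArg (ed ab ∈ ·) h
    simp [ed_eq, ab, ac, ae, bc, be] at this
  · have := congrArg (ed ac ∈ ·) h
    simp [ed_eq, ab, ac, ae, ce] at this

lemma sr_mem {d : Fin n → ℕ} {S : Finset (Fin n)} {E F F' : Finset (Edge n)}
    (hE : E ∈ realizations d) (hF : F ∈ pmSet S) (hF' : F' ∈ pmSet S) :
    switchResult E F F' ∈ realizations d := by
  unfold switchResult
  split_ifs with h
  swap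
  · exact hE
  simp only [realizations, mem_filter, mem_univ, true_and, deg] at hE ⊢
  intro v
  have e : #(F.filter fun e => v ∈ e.1) = #(F'.filter fun e => v ∈ e.1) := by
    by_cases hv : v ∈ S
    · rw [(mem_pm.1 hF).2.2 v hv, (mem_pm.1 hF').2.2 v hv]
    · rw [filter_false_of_mem fun e he c => hv ((mem_pm.1 hF).2.1 e he v c),
        filter_false_of_mem fun e he c => hv ((mem_pm.1 hF').2.1 e he v c)]
  rw [filter_union, card_union_of_disjoint (disjoint_filter_filter
    (h.2.symm.mono_left sdiff_subset)), ← e, ← hE v, ← card_union_of_disjoint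
    (disjoint_filter_filter sdiff_disjoint), ← filter_union, sdiff_union_of_subset h.1]

lemma sr_symm {E E' F F' : Finset (Edge n)} (hne : E ≠ E') (h : switchResult E F F' = E') :
    switchResult E' F' F = E := by
  unfold switchResult at h ⊢
  split_ifs at h with c
  swap
  · exact absurd h hne
  obtain ⟨c1, c2⟩ := c
  subst h
  rw [if_pos ⟨subset_union_right, disjoint_union_right.2 ⟨disjoint_sdiff,
    (c2.mono_right c1).symm⟩⟩, union_sdiff_cancel_right (c2.symm.mono_left sdiff_subset),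
    sdiff_union_of_subset c1]

lemma pc_symm (E E' : Finset (Edge n)) : proposalCount E E' = proposalCount E' E := by
  by_cases hne : E = E'
  · rw [hne]
  unfold proposalCount
  refine sum_congr rfl fun S _ => ?_
  rw [sum_comm' (t' := pmSet S) (s' := fun F' => (pmSet S).erase F') fun F F' => by
    simp only [mem_erase]; tauto]
  refine sum_congr rfl fun F _ => sum_congr rfl fun F' _ => if_congr ⟨sr_symm hne, sr_symm (Ne.symm hne)⟩ rfl rfl

lemma pc_row {d : Fin n → ℕ} {E : Finset (Edge n)} (hE : E ∈ realizations d) :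
    ∑ E' ∈ realizations d, proposalCount E E' = 6 * n.choose 4 := by
  unfold proposalCount
  rw [sum_comm, sum_congr rfl (g := fun _ => 6) fun S hS => ?_]
  · simp [mul_comm]
  have h3 := card_pm (mem_powersetCard.1 hS).2
  rw [sum_comm, sum_congr rfl (g := fun _ => 2) fun F hF => ?_]
  · simp [h3]
  rw [sum_comm, sum_congr rfl (g := fun _ => 1) fun F' hF' => ?_]
  · simp [card_erase_of_mem hF, h3]
  rw [sum_ite_eq, if_pos (sr_mem hE hF (mem_of_mem_erase hF'))]

lemma pc_out {d : Fin n → ℕ} {E E' : Finset (Edge n)} (hE : E ∈ realizations d)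
    (hE' : E' ∉ realizations d) : proposalCount E E' = 0 :=
  sum_eq_zero fun _ _ => sum_eq_zero fun _ hF => sum_eq_zero fun _ hF' =>
    if_neg fun e => hE' (by rw [← e]; exact sr_mem hE hF (mem_of_mem_erase hF'))

/-- adjacency matrix -/
def adj (G : Finset (Edge n)) : Fin n → Fin n → Bool := fun a b => decide (∃ h : a ≠ b, ed h ∈ G)

/-- graph of an adjacency matrix -/
def toG (A : Fin n → Fin n → Bool) : Finset (Edge n) :=
  univ.filter fun e => ∃ a b, e.1 = s(a, b) ∧ A a b = true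

lemma ed_mem_toG {A : Fin n → Fin n → Bool} (hA : ∀ a b, A a b = A b a) {a b : Fin n}
    (h : a ≠ b) : ed h ∈ toG A ↔ A a b = true := by
  simp only [toG, mem_filter, mem_univ, true_and, ed, Sym2.eq_iff]
  constructor
  · rintro ⟨c, e, ⟨rfl, rfl⟩ | ⟨rfl, rfl⟩, h2⟩
    · exact h2
    · rwa [hA]
  · exact fun h2 => ⟨a, b, Or.inl ⟨rfl, rfl⟩, h2⟩

lemma adj_symm (G : Finset (Edge n)) (a b : Fin n) : adj G a b = adj G b a := by
  have : ∀ {a b : Fin n} (h : a ≠ b), ed h = ed h.symm := fun h => by simp [ed_eq]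
  simp only [adj, decide_eq_decide]
  exact ⟨fun ⟨h, m⟩ => ⟨h.symm, this h ▸ m⟩, fun ⟨h, m⟩ => ⟨h.symm, this h ▸ m⟩⟩

lemma toG_adj (G : Finset (Edge n)) : toG (adj G) = G := by
  ext e
  obtain ⟨a, b, h, rfl⟩ := exists_ed' e
  rw [ed_mem_toG (adj_symm G)]
  simp [adj, h]

lemma adj_toG {d : Fin n → ℕ} {A : Fin n → Fin n → Bool} (hA : A ∈ Om d) : adj (toG A) = A := by
  obtain ⟨s1, s2, -⟩ := mem_Om.1 hA
  funext a b
  by_cases h : a = b
  · simp [adj, h, s2]
  · simp [adj, h, ed_mem_toG s1]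

lemma deg_adj (G : Finset (Edge n)) (v : Fin n) : ∑ b, (adj G v b).toNat = deg G v := by
  rw [← toNat_sum, deg]
  refine card_bij (fun b hb => ed (of_decide_eq_true (mem_filter.1 hb).2).1) (fun b hb => ?_)
    (fun b hb b' hb' e => ?_) fun e he => ?_
  · exact mem_filter.2 ⟨(of_decide_eq_true (mem_filter.1 hb).2).2, (mem_ed _).2 (Or.inl rfl)⟩
  · rcases (ed_eq _ _).1 e with h | h
    · exact h.2
    · exact h.2.trans h.1
  · obtain ⟨b, h, rfl⟩ := exists_ed e (mem_filter.1 he).2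
    exact ⟨b, mem_filter.2 ⟨mem_univ _, decide_eq_true ⟨h, (mem_filter.1 he).1⟩⟩, rfl⟩

lemma adj_mem {d : Fin n → ℕ} {G : Finset (Edge n)} : adj G ∈ Om d ↔ G ∈ realizations d := by
  simp only [mem_Om, deg_adj, realizations, mem_filter, mem_univ, true_and]
  exact ⟨fun h => h.2.2, fun h => ⟨adj_symm G, fun a => by simp [adj], h⟩⟩

lemma toG_mem {d : Fin n → ℕ} {A : Fin n → Fin n → Bool} (hA : A ∈ Om d) :
    toG A ∈ realizations d := adj_mem.1 (by rwa [adj_toG hA])

lemma sum_toG {d : Fin n → ℕ} (f : Finset (Edge n) → ℝ) :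
    ∑ A ∈ Om d, f (toG A) = ∑ G ∈ realizations d, f G :=
  sum_nbij' toG adj (fun _ => toG_mem) (fun _ => adj_mem.2) (fun _ => adj_toG)
    (fun G _ => toG_adj G) fun _ _ => rfl

lemma pc_pos' {A : Fin n → Fin n → Bool} (hA : ∀ a b, A a b = A b a) {u v w x : Fin n}
    (h : PT u v w x A) (h1 : A u w = true) : 1 ≤ proposalCount (toG A) (toG (sw u v w x A)) := by
  obtain ⟨uv, wx, wu, wv, xu, xv⟩ := h.dj
  have h2 : A v w = false := by have := h.2.2.2.2.1; rw [h1] at this; simpa using this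
  have h3 : A u x = false := by have := h.2.2.2.2.2.2; rw [h1] at this; simpa using this
  have h4 : A v x = true := by have := h.2.2.2.2.2.1; rw [h3] at this; simpa using this
  have m1 := pm_mem (S := {u, v, w, x}) wu.symm uv xu.symm wv wx xv.symm fun v => by simp; tauto
  have m2 := pm_mem (S := {u, v, w, x}) xu.symm uv wu.symm xv wx.symm wv.symm fun v => by
    simp; tauto
  have hS : ({u, v, w, x} : Finset (Fin n)) ∈ univ.powersetCard 4 :=
    mem_powersetCard.2 ⟨subset_univ _,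
      card_eq_four.2 ⟨u, v, w, x, uv, wu.symm, xu.symm, wv.symm, xv.symm, wx, rfl⟩⟩
  have ne : ({ed xu.symm, ed wv.symm} : Finset (Edge n)) ≠ {ed wu.symm, ed xv.symm} := fun e => by
    have := congrArg (ed xu.symm ∈ ·) e
    simp [ed_eq, uv, wx.symm, xu.symm, wu.symm] at this
  have key : switchResult (toG A) {ed wu.symm, ed xv.symm} {ed xu.symm, ed wv.symm} =
      toG (sw u v w x A) := by
    unfold switchResult
    rw [if_pos ⟨by simp [insert_subset_iff, ed_mem_toG hA, h1, h4],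
      by simp [disjoint_insert_left, ed_mem_toG hA, h2, h3]⟩]
    ext e
    obtain ⟨a, b, hab, rfl⟩ := exists_ed' e
    rw [ed_mem_toG (sw_sym hA)]
    simp only [mem_union, mem_sdiff, ed_mem_toG hA, mem_insert, mem_singleton, ed_eq, sw, h,
      true_and]
    have g1 := (hA w u).trans h1
    have g2 := (hA w v).trans h2
    have g3 := (hA x u).trans h3
    have g4 := (hA x v).trans h4
    split_ifs with c
    · rcases c with ⟨rfl | rfl, rfl | rfl⟩ | ⟨rfl | rfl, rfl | rfl⟩ <;>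
        simp [h1, h2, h3, h4, g1, g2, g3, g4, uv, wx, wu, wv, xu, xv,
          uv.symm, wx.symm, wu.symm, wv.symm, xu.symm, xv.symm]
    · constructor
      · rintro (c1 | c1)
        · exact c1.1
        · tauto
      · exact fun c1 => Or.inl ⟨c1, by tauto⟩
  unfold proposalCount
  refine le_trans ?_ (single_le_sum (fun _ _ => Nat.zero_le _) hS)
  refine le_trans ?_ (single_le_sum (fun _ _ => Nat.zero_le _) m1)
  refine le_trans ?_ (single_le_sum (fun _ _ => Nat.zero_le _) (mem_erase.2 ⟨ne, m2⟩))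
  rw [if_pos key]

lemma pc_pos {A : Fin n → Fin n → Bool} (hA : ∀ a b, A a b = A b a) {u v w x : Fin n}
    (h : PT u v w x A) : 1 ≤ proposalCount (toG A) (toG (sw u v w x A)) := by
  cases h1 : A u w
  · rw [← sw_comm']
    obtain ⟨a1, a2, a3, a4, a5, a6, a7⟩ := h
    exact pc_pos' hA ⟨a3, a4, a1, a2, a6, a5, a7.symm⟩ (by rw [h1] at a7; simpa using a7)
  · exact pc_pos' hA h h1

lemma mult_le {d : Fin n → ℕ} {A : Fin n → Fin n → Bool} (hA : A ∈ Om d) (G : Finset (Edge n))
    (hG : toG A ≠ G) : #(univ.filter fun p : Fin n × Fin n × Fin n × Fin n =>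
      toG (sw p.1 p.2.1 p.2.2.1 p.2.2.2 A) = G) ≤ 256 * proposalCount (toG A) G := by
  rcases (univ.filter fun p : Fin n × Fin n × Fin n × Fin n =>
      toG (sw p.1 p.2.1 p.2.2.1 p.2.2.2 A) = G).eq_empty_or_nonempty with e | ⟨⟨u, v, w, x⟩, hp⟩
  · simp [e]
  have sy := (mem_Om.1 hA).1
  have pt : ∀ u v w x, toG (sw u v w x A) = G → PT u v w x A := fun u v w x e => by
    by_contra c; rw [sw_of_not c] at e; exact hG e
  have h0 : toG (sw u v w x A) = G := (mem_filter.1 hp).2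
  have p1 := pc_pos sy (pt u v w x h0)
  rw [h0] at p1
  have c4 : #({u, v, w, x} : Finset (Fin n)) ≤ 4 := card_le_four
  refine (card_le_card (t := ({u, v, w, x} : Finset (Fin n)) ×ˢ ({u, v, w, x} : Finset (Fin n)) ×ˢ
    ({u, v, w, x} : Finset (Fin n)) ×ˢ ({u, v, w, x} : Finset (Fin n))) ?_).trans ?_
  · rintro ⟨u', v', w', x'⟩ hp'
    have h1 : toG (sw u' v' w' x' A) = G := (mem_filter.1 hp').2
    have e : sw u' v' w' x' A = sw u v w x A := by
      rw [← adj_toG (sw_mem hA : sw u' v' w' x' A ∈ _), h1, ← h0, adj_toG (sw_mem hA)]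
    have k : ∀ a b, (a = u' ∨ a = v') → (b = w' ∨ b = x') →
        a ∈ ({u, v, w, x} : Finset (Fin n)) ∧ b ∈ ({u, v, w, x} : Finset (Fin n)) := by
      intro a b ha hb
      have := sw_blk (pt _ _ _ _ h1) ha hb
      rw [e, sw] at this
      split_ifs at this with c
      · simp only [mem_insert, mem_singleton]; tauto
      · simp at this
    simp only [mem_product]
    exact ⟨(k u' w' (Or.inl rfl) (Or.inl rfl)).1, (k v' w' (Or.inr rfl) (Or.inl rfl)).1,
      (k u' w' (Or.inl rfl) (Or.inl rfl)).2, (k u' x' (Or.inl rfl) (Or.inr rfl)).2⟩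
  · simp only [card_product]
    calc _ ≤ 4 * (4 * (4 * 4)) := by gcongr
      _ ≤ _ := by omega

lemma phi_le {d : Fin n → ℕ} (f : Finset (Edge n) → ℝ) :
    ∑ u, ∑ v, ∑ w, ∑ x, ∑ A ∈ Om d, (f (toG A) - f (toG (sw u v w x A))) ^ 2 ≤
      256 * ∑ G ∈ realizations d, ∑ G' ∈ realizations d, proposalCount G G' * (f G - f G') ^ 2 := by
  have e : ∑ u, ∑ v, ∑ w, ∑ x, ∑ A ∈ Om d, (f (toG A) - f (toG (sw u v w x A))) ^ 2 =
      ∑ A ∈ Om d, ∑ p : Fin n × Fin n × Fin n × Fin n,
        (f (toG A) - f (toG (sw p.1 p.2.1 p.2.2.1 p.2.2.2 A))) ^ 2 := by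
    rw [sum_comm (s := Om d)]; simp only [Fintype.sum_prod_type]
  rw [e, ← sum_toG, mul_sum]
  refine sum_le_sum fun A hA => ?_
  rw [← sum_fiberwise_of_maps_to (t := realizations d)
    (g := fun p : Fin n × Fin n × Fin n × Fin n => toG (sw p.1 p.2.1 p.2.2.1 p.2.2.2 A))
    fun p _ => toG_mem (sw_mem hA), mul_sum]
  refine sum_le_sum fun G _ => ?_
  rw [sum_congr rfl fun p hp => by rw [(mem_filter.1 hp).2], sum_const, nsmul_eq_mul]
  by_cases hG : toG A = G
  · simp [hG]
  rw [← mul_assoc]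
  refine mul_le_mul_of_nonneg_right ?_ (sq_nonneg _)
  exact_mod_cast mult_le hA G hG

lemma k_symm (G G' : Finset (Edge n)) : kernel n G G' = kernel n G' G := by
  simp only [kernel, pc_symm G G', eq_comm]

lemma k_row (hn : 4 ≤ n) {d : Fin n → ℕ} {G : Finset (Edge n)} (hG : G ∈ realizations d) :
    ∑ G' ∈ realizations d, kernel n G G' = 1 := by
  have : (0 : ℝ) < n.choose 4 := by exact_mod_cast Nat.choose_pos hn
  simp only [kernel, sum_add_distrib, sum_ite_eq, hG, if_true, ← sum_div]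
  rw [← Nat.cast_sum, pc_row hG]
  push_cast; field_simp; norm_num

theorem gap_kernel (hn : 4 ≤ n) {d : Fin n → ℕ} (f : Finset (Edge n) → ℝ)
    (hf : ∑ G ∈ realizations d, f G = 0) :
    ∑ G ∈ realizations d, f G ^ 2 ≤ 24 * (n : ℝ) ^ 2 * (n.choose 4 : ℝ) *
      ∑ G ∈ realizations d, f G * (f G - ∑ G' ∈ realizations d, kernel n G G' * f G') := by
  have hc : (0 : ℝ) < n.choose 4 := by exact_mod_cast Nat.choose_pos hn
  have p := poincare (d := d) (fun A => f (toG A)) (by rw [sum_toG, hf])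
  rw [sum_toG fun G => f G ^ 2] at p
  have q := phi_le (d := d) f
  have r := dirichlet (Ω := realizations d) k_symm (fun G hG => k_row hn hG) f
  have s : ∑ G ∈ realizations d, ∑ G' ∈ realizations d, kernel n G G' * (f G - f G') ^ 2 =
      (∑ G ∈ realizations d, ∑ G' ∈ realizations d, proposalCount G G' * (f G - f G') ^ 2) /
        (12 * n.choose 4) := by
    simp only [sum_div]
    refine sum_congr rfl fun G _ => sum_congr rfl fun G' _ => ?_
    unfold kernel; split_ifs with e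
    · simp [e]
    · ring
  rw [s, eq_div_iff (by positivity)] at r
  have t : 0 ≤ ∑ G ∈ realizations d, ∑ G' ∈ realizations d,
      (proposalCount G G' : ℝ) * (f G - f G') ^ 2 := by positivity
  have n4 : (16 : ℝ) ≤ (n : ℝ) ^ 2 := by
    have : (4 : ℝ) ≤ n := by exact_mod_cast hn
    nlinarith
  calc _ ≤ 16 * ∑ G ∈ realizations d, ∑ G' ∈ realizations d,
        (proposalCount G G' : ℝ) * (f G - f G') ^ 2 := by linarith
    _ ≤ (n : ℝ) ^ 2 * ∑ G ∈ realizations d, ∑ G' ∈ realizations d,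
        (proposalCount G G' : ℝ) * (f G - f G') ^ 2 := mul_le_mul_of_nonneg_right n4 t
    _ = _ := by rw [← r]; ring

end Crest.Agent.SW
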