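import Crest.Agent.SW.Basic

set_option autoImplicit false
set_option linter.unusedSectionVars false
open Finset

namespace Crest.Agent.SW

variable {α V : Type*} [DecidableEq V]

/-- A presentation of a Bernoulli–Laplace state space: states are determined by a `Bool` labelling
of `T` with a fixed number of `true`s, and `s w x` exchanges two labels. -/
structure BLP (Ψ : Finset α) (T : Finset V) (y : α → V → Bool) (s : V → V → α → α) : Prop where
  mem : ∀ w ∈ T, ∀ x ∈ T, ∀ H ∈ Ψ, s w x H ∈ Ψ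
  val : ∀ w ∈ T, ∀ x ∈ T, ∀ H ∈ Ψ, ∀ c ∈ T, y (s w x H) c = y H (Equiv.swap w x c)
  inj : ∀ H ∈ Ψ, ∀ H' ∈ Ψ, (∀ c ∈ T, y H c = y H' c) → H = H'
  cnt : ∀ H ∈ Ψ, ∀ H' ∈ Ψ, #(T.filter fun c => y H c = true) = #(T.filter fun c => y H' c = true)

lemma swap_mem {T : Finset V} {w x c : V} (hw : w ∈ T) (hx : x ∈ T) (hc : c ∈ T) :
    Equiv.swap w x c ∈ T := by
  rw [Equiv.swap_apply_def]; split_ifs <;> assumption

namespace BLP
variable {Ψ : Finset α} {T : Finset V} {y : α → V → Bool} {s : V → V → α → α}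

lemma invol (h : BLP Ψ T y s) {w x : V} (hw : w ∈ T) (hx : x ∈ T) {H : α} (hH : H ∈ Ψ) :
    s w x (s w x H) = H :=
  h.inj _ (h.mem w hw x hx _ (h.mem w hw x hx H hH)) H hH fun c hc => by
    rw [h.val w hw x hx _ (h.mem w hw x hx H hH) c hc, h.val w hw x hx H hH _ (swap_mem hw hx hc),
      Equiv.swap_apply_self]

lemma fix (h : BLP Ψ T y s) {w x : V} (hw : w ∈ T) (hx : x ∈ T) {H : α} (hH : H ∈ Ψ)
    (e : y H w = y H x) : s w x H = H :=
  h.inj _ (h.mem w hw x hx H hH) H hH fun c hc => by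
    rw [h.val w hw x hx H hH c hc, Equiv.swap_apply_def]; split_ifs with h1 h2
    · rw [h1, e]
    · rw [h2, e]
    · rfl

lemma conj (h : BLP Ψ T y s) {a b w x : V} (ha : a ∈ T) (hb : b ∈ T) (hw : w ∈ T) (hx : x ∈ T)
    {H : α} (hH : H ∈ Ψ) :
    s w x (s a b H) = s a b (s (Equiv.swap a b w) (Equiv.swap a b x) H) := by
  have hw' := swap_mem ha hb hw
  have hx' := swap_mem ha hb hx
  refine h.inj _ (h.mem w hw x hx _ (h.mem a ha b hb H hH)) _
    (h.mem a ha b hb _ (h.mem _ hw' _ hx' H hH)) fun c hc => ?_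
  rw [h.val w hw x hx _ (h.mem a ha b hb H hH) c hc, h.val a ha b hb H hH _ (swap_mem hw hx hc),
    h.val a ha b hb _ (h.mem _ hw' _ hx' H hH) c hc, h.val _ hw' _ hx' H hH _ (swap_mem ha hb hc),
    (Equiv.swap a b).injective.swap_apply]

lemma exists_pair (h : BLP Ψ T y s) {H H' : α} (hH : H ∈ Ψ) (hH' : H' ∈ Ψ) (hne : H ≠ H') :
    ∃ w ∈ T, ∃ x ∈ T, y H w = true ∧ y H' w = false ∧ y H x = false ∧ y H' x = true := by
  have hc := h.cnt H hH H' hH'
  have hn : (T.filter fun c => y H c = true) ≠ T.filter fun c => y H' c = true := fun e =>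
    hne (h.inj H hH H' hH' fun c hc => by
      have := congrArg (c ∈ ·) e
      simp only [mem_filter, hc, true_and, eq_iff_iff] at this
      exact Bool.eq_iff_iff.2 this)
  obtain ⟨w, hw1, hw2⟩ := not_subset.1 fun hs => hn (eq_of_subset_of_card_le hs hc.ge)
  obtain ⟨x, hx1, hx2⟩ := not_subset.1 fun hs => hn (eq_of_subset_of_card_le hs hc.le).symm
  simp only [mem_filter, not_and, Bool.not_eq_true] at hw1 hw2 hx1 hx2
  exact ⟨w, hw1.1, x, hx1.1, hw1.2, hw2 hw1.1, hx2 hx1.1, hx1.2⟩

/-- connectivity by a restricted family of moves -/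
lemma conn_gen {β : Type*} (h : BLP Ψ T y s) (R : α → Prop) (φ : α → β) {H' : α}
    (step : ∀ H ∈ Ψ, R H → H ≠ H' → ∃ w ∈ T, ∃ x ∈ T, y H w ≠ y H' w ∧ y H x ≠ y H' x ∧
      y H w ≠ y H x ∧ R (s w x H) ∧ φ (s w x H) = φ H) :
    ∀ H ∈ Ψ, R H → φ H = φ H' := by
  suffices ∀ k, ∀ H ∈ Ψ, R H → #(T.filter fun c => y H c ≠ y H' c) = k → φ H = φ H' from
    fun H hH hR => this _ H hH hR rfl
  intro k
  induction k using Nat.strong_induction_on with
  | _ k ih =>
    intro H hH hR hk
    by_cases hne : H = H'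
    · rw [hne]
    obtain ⟨w, hw, x, hx, h1, h2, h3, h4, h5⟩ := step H hH hR hne
    rw [← h5]
    refine ih _ ?_ _ (h.mem w hw x hx H hH) h4 rfl
    rw [← hk]
    refine card_lt_card ⟨fun c hc => ?_, fun hs => ?_⟩
    · rw [mem_filter] at hc ⊢
      refine ⟨hc.1, ?_⟩
      by_cases c1 : c = w
      · rw [c1]; exact h1
      by_cases c2 : c = x
      · rw [c2]; exact h2
      have := hc.2
      rwa [h.val w hw x hx H hH c hc.1, Equiv.swap_apply_of_ne_of_ne c1 c2] at this
    · have := (mem_filter.1 (hs (mem_filter.2 ⟨hw, h1⟩))).2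
      rw [h.val w hw x hx H hH w hw, Equiv.swap_apply_left] at this
      revert this h1 h3
      cases y H w <;> cases y H x <;> cases y H' w <;> simp

lemma conn {β : Type*} (h : BLP Ψ T y s) (φ : α → β)
    (hφ : ∀ w ∈ T, ∀ x ∈ T, ∀ H ∈ Ψ, φ (s w x H) = φ H) {H H' : α} (hH : H ∈ Ψ) (hH' : H' ∈ Ψ) :
    φ H = φ H' := by
  refine h.conn_gen (fun _ => True) φ (fun H hH _ hne => ?_) H hH trivial
  obtain ⟨w, hw, x, hx, h1, h2, h3, h4⟩ := h.exists_pair hH hH' hne
  exact ⟨w, hw, x, hx, by simp [h1, h2], by simp [h3, h4], by simp [h1, h3], trivial,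
    hφ w hw x hx H hH⟩

/-- spectral gap of the Bernoulli–Laplace exchange -/
theorem gap (h : BLP Ψ T y s) (φ : α → ℝ) (hφ : ∑ H ∈ Ψ, φ H = 0) :
    4 * #T * ∑ H ∈ Ψ, φ H ^ 2 ≤ ∑ w ∈ T, ∑ x ∈ T, ∑ H ∈ Ψ, (φ H - φ (s w x H)) ^ 2 := by
  let A : (α → ℝ) →ₗ[ℝ] (α → ℝ) :=
    { toFun := fun F H => ∑ w ∈ T, ∑ x ∈ T, (F H - F (s w x H))
      map_add' := fun F G => by
        funext H; simp only [Pi.add_apply, ← sum_add_distrib]
        exact sum_congr rfl fun _ _ => sum_congr rfl fun _ _ => by ring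
      map_smul' := fun c F => by
        funext H; simp only [Pi.smul_apply, smul_eq_mul, RingHom.id_apply, mul_sum, mul_sub] }
  have hA : ∀ F H, A F H = ∑ w ∈ T, ∑ x ∈ T, (F H - F (s w x H)) := fun _ _ => rfl
  have hform : ∀ F G : α → ℝ, 2 * ip Ψ F (A G) =
      ∑ w ∈ T, ∑ x ∈ T, ∑ H ∈ Ψ, (F H - F (s w x H)) * (G H - G (s w x H)) := by
    intro F G
    simp only [ip, hA, mul_sum]
    rw [sum_comm]
    refine sum_congr rfl fun w hw => ?_
    rw [sum_comm]
    refine sum_congr rfl fun x hx => ?_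
    have e := sum_invol (h.mem w hw x hx) (fun H hH => h.invol hw hx hH)
      (fun H => F H * (G H - G (s w x H)))
    rw [sum_congr rfl fun H hH => by rw [h.invol hw hx hH]] at e
    rw [← mul_sum, two_mul]
    nth_rewrite 2 [← e]
    rw [← sum_add_distrib]
    exact sum_congr rfl fun H _ => by ring
  have hsym : ∀ F G, ip Ψ (A F) G = ip Ψ F (A G) := fun F G => by
    have e1 := hform F G
    have e2 := hform G F
    rw [ip_comm]
    have : 2 * ip Ψ G (A F) = 2 * ip Ψ F (A G) := by
      rw [e1, e2]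
      exact sum_congr rfl fun _ _ => sum_congr rfl fun _ _ => sum_congr rfl fun _ _ => mul_comm _ _
    linarith
  have key := gap_of_eigen Ψ A (fun F F' hF H hH => by
      rw [hA, hA]
      exact sum_congr rfl fun w hw => sum_congr rfl fun x hx => by
        rw [hF H hH, hF _ (h.mem w hw x hx H hH)]) hsym (2 * #T) (fun μ v hv => ?_) φ hφ
  · have e := hform φ φ
    simp only [← sq] at e
    rw [← e]
    have : ip Ψ φ φ = ∑ H ∈ Ψ, φ H ^ 2 := by simp only [ip, sq]
    rw [this] at key; linarith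
  by_cases hc : ∀ w ∈ T, ∀ x ∈ T, ∀ H ∈ Ψ, v (s w x H) = v H
  · right
    rcases Ψ.eq_empty_or_nonempty with e | ⟨H', hH'⟩
    · exact ⟨0, by simp [e]⟩
    · exact ⟨v H', fun H hH => h.conn v hc hH hH'⟩
  left
  push Not at hc
  obtain ⟨a, ha, b, hb, H0, hH0, hne⟩ := hc
  set δ : α → ℝ := fun H => v H - v (s a b H) with hδ
  have hanti : ∀ H ∈ Ψ, δ (s a b H) = -δ H := fun H hH => by
    simp only [hδ]; rw [h.invol ha hb hH]; ring
  have hzero : ∀ H ∈ Ψ, y H a = y H b → δ H = 0 := fun H hH e => by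
    simp only [hδ]; rw [h.fix ha hb hH e, sub_self]
  obtain ⟨H, hH, hmax⟩ := exists_max_image Ψ δ ⟨H0, hH0⟩
  have hpos : 0 < δ H := by
    have h1 := hmax H0 hH0
    have h2 := hmax _ (h.mem a ha b hb H0 hH0)
    rw [hanti H0 hH0] at h2
    have h3 : δ H0 ≠ 0 := sub_ne_zero.2 hne.symm
    rcases lt_or_gt_of_ne h3 with h4 | h4 <;> linarith
  have hab : y H a ≠ y H b := fun e => hpos.ne' (hzero H hH e)
  have heq : μ * δ H = ∑ w ∈ T, ∑ x ∈ T, (δ H - δ (s w x H)) := by
    have e1 := hv H hH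
    have e2 := hv _ (h.mem a ha b hb H hH)
    rw [hA] at e1 e2
    have e3 : ∑ w ∈ T, ∑ x ∈ T, (v (s a b H) - v (s w x (s a b H))) =
        ∑ w ∈ T, ∑ x ∈ T, (v (s a b H) - v (s a b (s w x H))) := by
      have sw : ∀ f : V → ℝ, ∑ w ∈ T, f (Equiv.swap a b w) = ∑ w ∈ T, f w := fun f =>
        sum_invol (fun c hc => swap_mem ha hb hc) (fun c _ => Equiv.swap_apply_self _ _ _) f
      rw [← sw fun w => ∑ x ∈ T, (v (s a b H) - v (s a b (s w x H)))]
      refine sum_congr rfl fun w hw => ?_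
      rw [← sw fun x => (v (s a b H) - v (s a b (s (Equiv.swap a b w) x H)))]
      exact sum_congr rfl fun x hx => by rw [h.conj ha hb hw hx hH]
    simp only [hδ]
    rw [mul_sub, ← e1, ← e2, e3, ← sum_sub_distrib]
    refine sum_congr rfl fun w _ => ?_
    rw [← sum_sub_distrib]
    exact sum_congr rfl fun x _ => by ring
  have hlow : ∀ w ∈ T, ∀ x ∈ T, δ H * ((if w = a then (if y H x = y H a then 0 else 1) else 0) +
      (if x = b then (if y H w = y H a then 1 else 0) else 0) +
      (if x = a then (if y H w = y H a then 0 else 1) else 0) +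
      (if w = b then (if y H x = y H a then 1 else 0) else 0)) ≤ δ H - δ (s w x H) := by
    intro w hw x hx
    have hm := hmax _ (h.mem w hw x hx H hH)
    have hab' : a ≠ b := fun e => hab (by rw [e])
    have va := h.val w hw x hx H hH a ha
    have vb := h.val w hw x hx H hH b hb
    have hz := hzero _ (h.mem w hw x hx H hH)
    have hba : s b a H = s a b H := h.inj _ (h.mem b hb a ha H hH) _ (h.mem a ha b hb H hH)
      fun c hc => by rw [h.val b hb a ha H hH c hc, h.val a ha b hb H hH c hc, Equiv.swap_comm]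
    rw [va, vb] at hz
    have han := hanti H hH
    by_cases w1 : w = a
    · subst w1
      by_cases x1 : x = b
      · subst x1; simp [hab', hab'.symm, hab.symm, han]; linarith
      by_cases x2 : x = w
      · subst x2; simp [hab']; linarith
      rw [Equiv.swap_apply_left, Equiv.swap_apply_of_ne_of_ne hab'.symm (Ne.symm x1)] at hz
      by_cases e : y H x = y H w
      · simp [hab', x1, x2, e]; linarith
      · rw [hz (by revert e hab; cases y H x <;> cases y H w <;> cases y H b <;> simp)]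
        simp [hab', x1, x2, e]
    by_cases w2 : w = b
    · subst w2
      by_cases x1 : x = a
      · subst x1; simp [hab', hab'.symm, hab.symm, hba, han]; linarith
      by_cases x2 : x = w
      · subst x2; simp [hab'.symm, hab.symm]; linarith
      rw [Equiv.swap_apply_left, Equiv.swap_apply_of_ne_of_ne hab' (Ne.symm x1)] at hz
      by_cases e : y H x = y H a
      · rw [hz e.symm]; simp [hab'.symm, x1, x2, e]
      · simp [hab'.symm, x1, x2, e]; linarith
    by_cases x1 : x = a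
    · subst x1
      rw [Equiv.swap_apply_right, Equiv.swap_apply_of_ne_of_ne (Ne.symm w2) hab'.symm] at hz
      by_cases e : y H w = y H x
      · simp [hab', w1, w2, e]; linarith
      · rw [hz (by revert e hab; cases y H x <;> cases y H w <;> cases y H b <;> simp)]
        simp [hab', w1, w2, e]
    by_cases x2 : x = b
    · subst x2
      rw [Equiv.swap_apply_right, Equiv.swap_apply_of_ne_of_ne (Ne.symm w1) hab'] at hz
      by_cases e : y H w = y H a
      · rw [hz e.symm]; simp [hab'.symm, w1, w2, e]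
      · simp [hab'.symm, w1, w2, e]; linarith
    simp [w1, w2, x1, x2]; linarith
  have hsum := sum_le_sum fun w hw => sum_le_sum fun x hx => hlow w hw x hx
  rw [← heq] at hsum
  simp only [← mul_sum, sum_add_distrib, sum_ite_eq', ha, hb, if_true] at hsum
  rw [sum_comm (s := T) (t := T) (f := fun w x =>
      if w = a then (if y H x = y H a then (0 : ℝ) else 1) else 0),
    sum_comm (s := T) (t := T) (f := fun w x =>
      if w = b then (if y H x = y H a then (1 : ℝ) else 0) else 0)] at hsum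
  simp only [sum_ite_eq', ha, hb, if_true] at hsum
  have ht : ∑ x ∈ T, (if y H x = y H a then (0 : ℝ) else 1) +
      ∑ x ∈ T, (if y H x = y H a then (1 : ℝ) else 0) = #T := by
    rw [← sum_add_distrib, sum_congr rfl (g := fun _ => (1 : ℝ)) fun x _ => by split_ifs <;> simp]
    simp
  have : δ H * (2 * #T) ≤ δ H * μ := by rw [← ht]; linarith
  exact le_of_mul_le_mul_left this hpos

end BLP
end Crest.Agent.SW
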