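import Crest.Agent.SW.BL

set_option autoImplicit false
set_option linter.unusedSectionVars false
open Finset

namespace Crest.Agent.SW

variable {α V : Type*} [DecidableEq V]

/-- `±1` value of a Boolean -/
def sg (b : Bool) : ℝ := if b then 1 else -1

lemma sg_sq (b : Bool) : sg b * sg b = 1 := by cases b <;> simp [sg]

lemma sg_mul (b c : Bool) : sg b * sg c = 1 - 2 * (if b ≠ c then 1 else 0) := by
  cases b <;> cases c <;> simp [sg] <;> norm_num

lemma le_of_sq_le {a c : ℝ} (ha : 0 ≤ a) (hc : 0 ≤ c) (h : a ^ 2 ≤ c * a) : a ≤ c := by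
  by_contra hh
  push Not at hh
  nlinarith

namespace BLP
variable {Ψ : Finset α} {T : Finset V} {y : α → V → Bool} {s : V → V → α → α}

lemma card_swap (h : BLP Ψ T y s) {a b w x : V} (ha : a ∈ T) (hb : b ∈ T) (hw : w ∈ T)
    (hx : x ∈ T) : #(Ψ.filter fun H => y H w ≠ y H x) =
      #(Ψ.filter fun H => y H (Equiv.swap a b w) ≠ y H (Equiv.swap a b x)) := by
  refine card_nbij' (s a b) (s a b) (fun H hH => ?_) (fun H hH => ?_) (fun H hH => ?_)
    (fun H hH => ?_)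
  · simp only [coe_filter, Set.mem_setOf_eq] at hH ⊢
    refine ⟨h.mem a ha b hb H hH.1, ?_⟩
    rw [h.val a ha b hb H hH.1 _ (swap_mem ha hb hw), h.val a ha b hb H hH.1 _ (swap_mem ha hb hx)]
    simpa using hH.2
  · simp only [coe_filter, Set.mem_setOf_eq] at hH ⊢
    refine ⟨h.mem a ha b hb H hH.1, ?_⟩
    rw [h.val a ha b hb H hH.1 _ hw, h.val a ha b hb H hH.1 _ hx]
    exact hH.2
  · exact h.invol ha hb (mem_filter.1 hH).1
  · exact h.invol ha hb (mem_filter.1 hH).1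

lemma card_const (h : BLP Ψ T y s) {w x w' x' : V} (hw : w ∈ T) (hx : x ∈ T) (hw' : w' ∈ T)
    (hx' : x' ∈ T) (hne : w ≠ x) (hne' : w' ≠ x') :
    #(Ψ.filter fun H => y H w ≠ y H x) = #(Ψ.filter fun H => y H w' ≠ y H x') := by
  have hx1 := swap_mem hw hw' hx
  have h1 : Equiv.swap w w' x ≠ w' := fun e => hne (by
    have := congrArg (Equiv.swap w w') e
    simpa using this.symm)
  rw [h.card_swap hw hw' hw hx, Equiv.swap_apply_left, h.card_swap hx1 hx' hw' hx1,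
    Equiv.swap_apply_left, Equiv.swap_apply_of_ne_of_ne h1.symm hne']

lemma sum_sg_const (h : BLP Ψ T y s) : ∃ Δ : ℝ, ∀ H ∈ Ψ, ∑ c ∈ T, sg (y H c) = Δ := by
  have key : ∀ H, ∑ c ∈ T, sg (y H c) = 2 * #(T.filter fun c => y H c = true) - #T := by
    intro H
    rw [card_filter, card_eq_sum_ones T]
    push_cast
    rw [mul_sum, ← sum_sub_distrib]
    refine sum_congr rfl fun c _ => ?_
    cases y H c <;> simp [sg]; norm_num
  rcases Ψ.eq_empty_or_nonempty with e | ⟨H', hH'⟩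
  · exact ⟨0, by simp [e]⟩
  · exact ⟨_, fun H hH => by rw [key, h.cnt H hH H' hH']⟩

lemma second_moment {p : ℝ} (hp : ∀ w ∈ T, ∀ x ∈ T, w ≠ x → (#(Ψ.filter fun H => y H w ≠ y H x) : ℝ) = p)
    (a : V → ℝ) (ha : ∑ w ∈ T, a w = 0) :
    ∑ H ∈ Ψ, (∑ w ∈ T, a w * sg (y H w)) ^ 2 = 2 * p * ∑ w ∈ T, a w ^ 2 := by
  have e1 : ∀ w ∈ T, ∀ x ∈ T, ∑ H ∈ Ψ, sg (y H w) * sg (y H x) =
      (#Ψ - 2 * p) + if w = x then 2 * p else 0 := by
    intro w hw x hx
    by_cases e : w = x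
    · subst e; simp [sg_sq]
    · rw [if_neg e, ← hp w hw x hx e, card_filter, card_eq_sum_ones Ψ]
      push_cast
      rw [mul_sum, ← sum_sub_distrib, add_zero]
      exact sum_congr rfl fun H _ => sg_mul _ _
  calc ∑ H ∈ Ψ, (∑ w ∈ T, a w * sg (y H w)) ^ 2
      = ∑ w ∈ T, ∑ x ∈ T, a w * a x * ∑ H ∈ Ψ, sg (y H w) * sg (y H x) := by
        have : ∀ H, (∑ w ∈ T, a w * sg (y H w)) ^ 2 =
            ∑ w ∈ T, ∑ x ∈ T, a w * a x * (sg (y H w) * sg (y H x)) := fun H => by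
          rw [sq, sum_mul_sum]
          exact sum_congr rfl fun _ _ => sum_congr rfl fun _ _ => by ring
        simp only [this, mul_sum]
        rw [sum_comm]
        refine sum_congr rfl fun w _ => ?_
        rw [sum_comm]
    _ = ∑ w ∈ T, (a w * (#Ψ - 2 * p) * ∑ x ∈ T, a x + 2 * p * a w ^ 2) := by
        refine sum_congr rfl fun w hw => ?_
        rw [sum_congr rfl fun x hx => by rw [e1 w hw x hx]]
        simp only [mul_add, sum_add_distrib, mul_ite, mul_zero, sum_ite_eq, hw, if_true, mul_sum]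
        congr 1
        · exact sum_congr rfl fun x _ => by ring
        · ring
    _ = _ := by simp only [ha, mul_zero, zero_add, mul_sum]

lemma u_bound (h : BLP Ψ T y s) (φ : α → ℝ) (hφ : ∑ H ∈ Ψ, φ H = 0) {p : ℝ} (hp0 : 0 ≤ p)
    (hp : ∀ w ∈ T, ∀ x ∈ T, w ≠ x → (#(Ψ.filter fun H => y H w ≠ y H x) : ℝ) = p) :
    ∑ w ∈ T, ∑ x ∈ T, (∑ H ∈ Ψ, φ H * (sg (y H w) * sg (y H x))) ^ 2 ≤
      4 * #T * p * ∑ H ∈ Ψ, φ H ^ 2 := by
  rcases T.eq_empty_or_nonempty with e | hT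
  · simp [e]
  rcases Ψ.eq_empty_or_nonempty with e | ⟨H0, hH0⟩
  · simp [e]
  obtain ⟨Δ, hΔ⟩ := h.sum_sg_const
  have ht : (0 : ℝ) < #T := by exact_mod_cast hT.card_pos
  obtain ⟨μ, hμ⟩ : ∃ μ : ℝ, Δ = μ * #T := ⟨Δ / #T, by field_simp⟩
  set Φ := ∑ H ∈ Ψ, φ H ^ 2 with hΦ
  have hΦ0 : 0 ≤ Φ := sum_nonneg fun _ _ => sq_nonneg _
  set u : V → V → ℝ := fun w x => ∑ H ∈ Ψ, φ H * (sg (y H w) * sg (y H x)) with hu
  set v : V → ℝ := fun w => ∑ H ∈ Ψ, φ H * sg (y H w) with hv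
  set Z : V → V → ℝ := fun w x => u w x - μ * (v w + v x) with hZ
  have hz : ∀ H ∈ Ψ, ∑ w ∈ T, (sg (y H w) - μ) ^ 2 = #T * (1 - μ ^ 2) := by
    intro H hH
    have : ∀ w, (sg (y H w) - μ) ^ 2 = 1 + μ ^ 2 - 2 * μ * sg (y H w) := fun w => by
      have := sg_sq (y H w); nlinarith
    simp only [this, sum_sub_distrib, ← mul_sum, hΔ H hH, hμ, sum_const, nsmul_eq_mul]; ring
  have hμ1 : 0 ≤ #T * (1 - μ ^ 2) := hz H0 hH0 ▸ sum_nonneg fun _ _ => sq_nonneg _
  have hv0 : ∑ w ∈ T, v w = 0 := by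
    simp only [hv]
    rw [sum_comm, sum_congr rfl fun H hH => by rw [← mul_sum, hΔ H hH], ← sum_mul, hφ, zero_mul]
  have hu0 : ∀ w, ∑ x ∈ T, u w x = Δ * v w := by
    intro w
    simp only [hu, hv]
    rw [sum_comm, mul_sum]
    refine sum_congr rfl fun H hH => ?_
    rw [← mul_sum, ← mul_sum, hΔ H hH]; ring
  have hZs : ∀ w x, Z w x = Z x w := fun w x => by
    simp only [hZ, hu]; rw [add_comm]; simp only [mul_comm (sg (y _ w))]
  have hZ0 : ∀ w, ∑ x ∈ T, Z w x = 0 := by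
    intro w
    simp only [hZ, sum_sub_distrib, hu0, ← mul_sum, sum_add_distrib, hv0, sum_const, nsmul_eq_mul,
      hμ]
    ring
  have hZ0' : ∀ x, ∑ w ∈ T, Z w x = 0 := fun x => by simp only [hZs _ x, hZ0]
  have hZv : ∑ w ∈ T, ∑ x ∈ T, Z w x * (v w + v x) = 0 := by
    simp only [mul_add, sum_add_distrib]
    rw [sum_comm (s := T) (t := T) (f := fun w x => Z w x * v x)]
    simp only [← sum_mul, hZ0, hZ0', zero_mul, sum_const_zero, add_zero]
  have hV : ∑ w ∈ T, v w ^ 2 ≤ 2 * p * Φ := by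
    refine le_of_sq_le (sum_nonneg fun _ _ => sq_nonneg _) (by positivity) ?_
    have e : ∑ w ∈ T, v w ^ 2 = ∑ H ∈ Ψ, φ H * ∑ w ∈ T, v w * sg (y H w) := by
      simp only [mul_sum]
      rw [sum_comm]
      refine sum_congr rfl fun w _ => ?_
      rw [sq]; nth_rewrite 2 [hv]
      simp only [mul_sum]
      exact sum_congr rfl fun H _ => by ring
    have c := sum_mul_sq_le_sq_mul_sq Ψ φ fun H => ∑ w ∈ T, v w * sg (y H w)
    rw [← e, second_moment hp v hv0] at c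
    linarith
  have hZZ : ∑ w ∈ T, ∑ x ∈ T, Z w x ^ 2 ≤ 2 * p * (#T * (1 - μ ^ 2)) * Φ := by
    refine le_of_sq_le (sum_nonneg fun _ _ => sum_nonneg fun _ _ => sq_nonneg _)
      (by positivity) ?_
    have e0 : ∑ w ∈ T, ∑ x ∈ T, Z w x ^ 2 = ∑ w ∈ T, ∑ x ∈ T, Z w x * u w x := by
      have : ∀ w x, Z w x ^ 2 = Z w x * u w x - μ * (Z w x * (v w + v x)) := fun w x => by
        rw [sq]; nth_rewrite 2 [hZ]; ring
      simp only [this, sum_sub_distrib, ← mul_sum, hZv, mul_zero, sub_zero]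
    have e1 : ∀ H, ∑ w ∈ T, (sg (y H w) - μ) * ∑ x ∈ T, Z w x * sg (y H x) =
        ∑ w ∈ T, ∑ x ∈ T, Z w x * (sg (y H w) * sg (y H x)) := by
      intro H
      have : ∑ w ∈ T, ∑ x ∈ T, Z w x * sg (y H x) = 0 := by
        rw [sum_comm]; simp only [← sum_mul, hZ0', zero_mul, sum_const_zero]
      simp only [sub_mul, sum_sub_distrib]
      rw [← mul_sum, this, mul_zero, sub_zero]
      refine sum_congr rfl fun w _ => ?_
      rw [mul_sum]; exact sum_congr rfl fun x _ => by ring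
    have e : ∑ w ∈ T, ∑ x ∈ T, Z w x ^ 2 =
        ∑ H ∈ Ψ, φ H * ∑ w ∈ T, (sg (y H w) - μ) * ∑ x ∈ T, Z w x * sg (y H x) := by
      rw [e0]
      simp only [e1]
      simp only [mul_sum]
      rw [sum_comm (s := Ψ)]
      refine sum_congr rfl fun w _ => ?_
      rw [sum_comm (s := Ψ)]
      refine sum_congr rfl fun x _ => ?_
      simp only [hu, mul_sum]
      exact sum_congr rfl fun H _ => by ring
    have c := sum_mul_sq_le_sq_mul_sq Ψ φ
      fun H => ∑ w ∈ T, (sg (y H w) - μ) * ∑ x ∈ T, Z w x * sg (y H x)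
    have c2 : ∑ H ∈ Ψ, (∑ w ∈ T, (sg (y H w) - μ) * ∑ x ∈ T, Z w x * sg (y H x)) ^ 2 ≤
        (#T * (1 - μ ^ 2)) * (2 * p * ∑ w ∈ T, ∑ x ∈ T, Z w x ^ 2) := by
      refine (sum_le_sum fun H hH => (sum_mul_sq_le_sq_mul_sq T _ _).trans_eq
        (by rw [hz H hH])).trans_eq ?_
      rw [← mul_sum, sum_comm, sum_congr rfl fun w _ => second_moment hp (Z w) (hZ0 w), ← mul_sum]
    rw [← e] at c
    nlinarith [mul_le_mul_of_nonneg_left c2 hΦ0]
  have e2 : ∑ w ∈ T, ∑ x ∈ T, u w x ^ 2 =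
      ∑ w ∈ T, ∑ x ∈ T, Z w x ^ 2 + 2 * μ ^ 2 * #T * ∑ w ∈ T, v w ^ 2 := by
    have : ∀ w x, u w x ^ 2 = Z w x ^ 2 + 2 * μ * (Z w x * (v w + v x)) + μ ^ 2 * v w ^ 2 +
        μ ^ 2 * v x ^ 2 + 2 * μ ^ 2 * v w * v x := fun w x => by simp only [hZ]; ring
    simp only [this, sum_add_distrib, ← mul_sum, hZv, hv0, sum_const, nsmul_eq_mul, mul_zero]
    ring
  show ∑ w ∈ T, ∑ x ∈ T, u w x ^ 2 ≤ _
  rw [e2]
  have c3 := mul_le_mul_of_nonneg_left hV (by positivity : 0 ≤ 2 * μ ^ 2 * (#T : ℝ))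
  have c4 := mul_nonneg hμ1 (mul_nonneg hp0 hΦ0)
  nlinarith

/-- the second-moment bound on the averages over `y w ≠ y x` -/
theorem theta (h : BLP Ψ T y s) (φ : α → ℝ) (hφ : ∑ H ∈ Ψ, φ H = 0) :
    ∑ w ∈ T, ∑ x ∈ T, (∑ H ∈ Ψ.filter fun H => y H w ≠ y H x, φ H) ^ 2 /
      #(Ψ.filter fun H => y H w ≠ y H x) ≤ #T * ∑ H ∈ Ψ, φ H ^ 2 := by
  obtain ⟨p, hp0, hp⟩ : ∃ p : ℝ, 0 ≤ p ∧ ∀ w ∈ T, ∀ x ∈ T, w ≠ x →
      (#(Ψ.filter fun H => y H w ≠ y H x) : ℝ) = p := by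
    by_cases e : ∃ w ∈ T, ∃ x ∈ T, w ≠ x
    · obtain ⟨w, hw, x, hx, hne⟩ := e
      exact ⟨_, Nat.cast_nonneg _, fun w' hw' x' hx' hne' => by
        rw [h.card_const hw' hx' hw hx hne' hne]⟩
    · push Not at e
      exact ⟨0, le_rfl, fun w hw x hx hne => absurd (e w hw x hx) hne⟩
  have key := h.u_bound φ hφ hp0 hp
  have e : ∀ w ∈ T, ∀ x ∈ T, (∑ H ∈ Ψ.filter fun H => y H w ≠ y H x, φ H) ^ 2 /
      #(Ψ.filter fun H => y H w ≠ y H x) =
      (∑ H ∈ Ψ, φ H * (sg (y H w) * sg (y H x))) ^ 2 / (4 * p) := by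
    intro w hw x hx
    have e1 : ∑ H ∈ Ψ, φ H * (sg (y H w) * sg (y H x)) =
        -2 * ∑ H ∈ Ψ.filter fun H => y H w ≠ y H x, φ H := by
      simp only [sg_mul, mul_sub, mul_one, sum_sub_distrib, hφ, sum_filter, mul_sum, zero_sub,
        ← sum_neg_distrib]
      exact sum_congr rfl fun H _ => by split_ifs <;> ring
    rw [e1]
    by_cases hne : w = x
    · subst hne; simp
    · rw [hp w hw x hx hne, mul_pow, show (-2 : ℝ) ^ 2 = 4 by norm_num,
        mul_div_mul_left _ _ (by norm_num)]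
  rw [sum_congr rfl fun w hw => sum_congr rfl fun x hx => e w hw x hx]
  simp only [← sum_div]
  rcases hp0.eq_or_lt with e0 | e0
  · rw [← e0, mul_zero, div_zero]; positivity
  · rw [div_le_iff₀ (by positivity)]; linarith

/-- comparison of averages over the classes `(b, b)` and `(b, ¬b)` at two fixed positions -/
theorem avg_le (h : BLP Ψ T y s) {w x : V} (hw : w ∈ T) (hx : x ∈ T) (hne : w ≠ x) (b : Bool)
    (φ ψ : α → ℝ) (m : ℝ)
    (hb : ∀ H ∈ Ψ, y H w = b → y H x = b → ∀ z ∈ T, y H z ≠ b → φ H ≤ ψ (s x z H) + m) :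
    (#(Ψ.filter fun H => y H w = b ∧ y H x ≠ b) : ℝ) *
        ∑ H ∈ Ψ.filter fun H => y H w = b ∧ y H x = b, φ H ≤
      #(Ψ.filter fun H => y H w = b ∧ y H x = b) *
        ∑ H ∈ Ψ.filter fun H => y H w = b ∧ y H x ≠ b, (ψ H + m) := by
  set A := Ψ.filter fun H => y H w = b ∧ y H x = b with hA
  set B := Ψ.filter fun H => y H w = b ∧ y H x ≠ b with hB
  rcases B.eq_empty_or_nonempty with e | ⟨H0, hH0⟩
  · simp [e]
  have hH0' := mem_filter.1 hH0
  have cntb : ∀ H ∈ Ψ, #(T.filter fun c => y H c = b) = #(T.filter fun c => y H0 c = b) ∧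
      #(T.filter fun c => y H c ≠ b) = #(T.filter fun c => y H0 c ≠ b) := by
    intro H hH
    have c1 := h.cnt H hH H0 hH0'.1
    have c2 := card_filter_add_card_filter_not (s := T) (fun c => y H c = true)
    have c3 := card_filter_add_card_filter_not (s := T) (fun c => y H0 c = true)
    cases b
    · simp only [ne_eq, Bool.not_eq_false, ← Bool.not_eq_true, not_not]; omega
    · simp only [ne_eq]; omega
  set q := #(T.filter fun c => y H0 c ≠ b) with hq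
  set p := #(T.filter fun c => y H0 c = b) with hp
  have hq0 : (0 : ℝ) < q := by
    exact_mod_cast card_pos.2 ⟨x, mem_filter.2 ⟨hx, hH0'.2.2⟩⟩
  have key : ∀ g : α → ℝ, ∑ H ∈ A, ∑ z ∈ T.filter (fun c => y H c ≠ b), g (s x z H) =
      ((p : ℝ) - 1) * ∑ H ∈ B, g H := by
    intro g
    have e1 : ∀ z ∈ T, ∑ H ∈ A.filter (fun H => y H z ≠ b), g (s x z H) =
        ∑ H ∈ B.filter (fun H => z ≠ w ∧ y H z = b), g H := by
      intro z hz
      refine sum_nbij' (s x z) (s x z) (fun H hH => ?_) (fun H hH => ?_) (fun H hH => ?_)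
        (fun H hH => ?_) fun _ _ => rfl
      · simp only [hA, hB, mem_filter] at hH ⊢
        obtain ⟨⟨h1, h2, h3⟩, h4⟩ := hH
        have hzw : z ≠ w := fun e => h4 (e ▸ h2)
        rw [h.val x hx z hz H h1 w hw, h.val x hx z hz H h1 x hx, h.val x hx z hz H h1 z hz,
          Equiv.swap_apply_left, Equiv.swap_apply_right,
          Equiv.swap_apply_of_ne_of_ne hne hzw.symm]
        exact ⟨⟨h.mem x hx z hz H h1, h2, h4⟩, hzw, h3⟩
      · simp only [hA, hB, mem_filter] at hH ⊢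
        obtain ⟨⟨h1, h2, h3⟩, hzw, h4⟩ := hH
        rw [h.val x hx z hz H h1 w hw, h.val x hx z hz H h1 x hx, h.val x hx z hz H h1 z hz,
          Equiv.swap_apply_left, Equiv.swap_apply_right,
          Equiv.swap_apply_of_ne_of_ne hne hzw.symm]
        exact ⟨⟨h.mem x hx z hz H h1, h2, h4⟩, h3⟩
      · exact h.invol hx hz (mem_filter.1 (mem_filter.1 hH).1).1
      · exact h.invol hx hz (mem_filter.1 (mem_filter.1 hH).1).1
    have e2 : ∀ H ∈ B, ((p : ℝ) - 1) = #(T.filter fun z => z ≠ w ∧ y H z = b) := by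
      intro H hH
      have hH' := mem_filter.1 hH
      have : (T.filter fun z => z ≠ w ∧ y H z = b) = (T.filter fun z => y H z = b).erase w := by
        ext z; simp only [mem_filter, mem_erase]; tauto
      rw [this, cast_card_erase_of_mem (mem_filter.2 ⟨hw, hH'.2.1⟩), (cntb H hH'.1).1]
    simp only [sum_filter] at e1 ⊢
    rw [sum_comm, sum_congr rfl e1, sum_comm, mul_sum]
    exact sum_congr rfl fun H hH => by rw [e2 H hH, ← sum_filter, sum_const, nsmul_eq_mul]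
  have k1 := key fun _ => 1
  have k2 := key fun H => ψ H + m
  have k3 : ∑ H ∈ A, ∑ z ∈ T.filter (fun c => y H c ≠ b), φ H ≤
      ∑ H ∈ A, ∑ z ∈ T.filter (fun c => y H c ≠ b), (ψ (s x z H) + m) :=
    sum_le_sum fun H hH => sum_le_sum fun z hz =>
      hb H (mem_filter.1 hH).1 (mem_filter.1 hH).2.1 (mem_filter.1 hH).2.2 z (mem_filter.1 hz).1
        (mem_filter.1 hz).2
  have k4 : ∀ g : α → ℝ, ∑ H ∈ A, ∑ z ∈ T.filter (fun c => y H c ≠ b), g H = q * ∑ H ∈ A, g H :=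
    fun g => by
      rw [mul_sum]
      exact sum_congr rfl fun H hH => by
        rw [sum_const, nsmul_eq_mul, (cntb H (mem_filter.1 hH).1).2]
  rw [k4] at k1 k3
  rw [k2] at k3
  simp only [sum_const, nsmul_eq_mul, mul_one] at k1
  refine le_of_mul_le_mul_left ?_ hq0
  have k5 := mul_le_mul_of_nonneg_left k3 (Nat.cast_nonneg (α := ℝ) #B)
  calc _ = #B * (q * ∑ H ∈ A, φ H) := by ring
    _ ≤ _ := k5
    _ = ((p - 1) * #B) * ∑ H ∈ B, (ψ H + m) := by ring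
    _ = _ := by rw [← k1]; ring

end BLP
end Crest.Agent.SW
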