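import Mathlib

set_option autoImplicit false
open Finset

namespace Crest.Agent.SW

variable {α K K' : Type*}

/-- inner product on functions, over the finite set `Ω` -/
def ip (Ω : Finset α) (F G : α → ℝ) : ℝ := ∑ x ∈ Ω, F x * G x

lemma ip_comm (Ω : Finset α) (F G : α → ℝ) : ip Ω F G = ip Ω G F :=
  sum_congr rfl fun _ _ => mul_comm _ _

lemma ip_congr {Ω : Finset α} {F F' G G' : α → ℝ} (h : ∀ x ∈ Ω, F x = F' x)
    (h' : ∀ x ∈ Ω, G x = G' x) : ip Ω F G = ip Ω F' G' :=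
  sum_congr rfl fun x hx => by rw [h x hx, h' x hx]

lemma ip_self_nonneg (Ω : Finset α) (F : α → ℝ) : 0 ≤ ip Ω F F :=
  sum_nonneg fun _ _ => mul_self_nonneg _

lemma ip_add_left (Ω : Finset α) (F F' G : α → ℝ) : ip Ω (F + F') G = ip Ω F G + ip Ω F' G := by
  simp [ip, add_mul, sum_add_distrib]

lemma ip_add_right (Ω : Finset α) (F G G' : α → ℝ) : ip Ω F (G + G') = ip Ω F G + ip Ω F G' := by
  simp [ip, mul_add, sum_add_distrib]

lemma ip_sub_left (Ω : Finset α) (F F' G : α → ℝ) : ip Ω (F - F') G = ip Ω F G - ip Ω F' G := by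
  simp [ip, sub_mul, sum_sub_distrib]

lemma ip_sub_right (Ω : Finset α) (F G G' : α → ℝ) : ip Ω F (G - G') = ip Ω F G - ip Ω F G' := by
  simp [ip, mul_sub, sum_sub_distrib]

lemma ip_sum_left {ι : Type*} (Ω : Finset α) (s : Finset ι) (F : ι → α → ℝ) (G : α → ℝ) :
    ip Ω (∑ i ∈ s, F i) G = ∑ i ∈ s, ip Ω (F i) G := by
  simp only [ip, Finset.sum_apply, sum_mul]; rw [sum_comm]

lemma ip_sum_right {ι : Type*} (Ω : Finset α) (s : Finset ι) (F : α → ℝ) (G : ι → α → ℝ) :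
    ip Ω F (∑ i ∈ s, G i) = ∑ i ∈ s, ip Ω F (G i) := by
  simp only [ip, Finset.sum_apply, mul_sum]; rw [sum_comm]

/-- eigen-decomposition of a symmetric operator that is local to `Ω` -/
lemma spectral (Ω : Finset α) (L : (α → ℝ) →ₗ[ℝ] (α → ℝ))
    (hloc : ∀ F F' : α → ℝ, (∀ x ∈ Ω, F x = F' x) → ∀ x ∈ Ω, L F x = L F' x)
    (hsym : ∀ F G, ip Ω (L F) G = ip Ω F (L G)) :
    ∃ (m : ℕ) (μ : Fin m → ℝ) (v : Fin m → α → ℝ), (∀ i, ∀ x ∈ Ω, L (v i) x = μ i * v i x) ∧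
      ∀ F G, ip Ω F G = ∑ i, ip Ω (v i) F * ip Ω (v i) G := by
  classical
  let ext : EuclideanSpace ℝ Ω →ₗ[ℝ] (α → ℝ) :=
    { toFun := fun w x => if h : x ∈ Ω then w ⟨x, h⟩ else 0
      map_add' := fun w w' => by funext x; by_cases h : x ∈ Ω <;> simp [h]
      map_smul' := fun c w => by funext x; by_cases h : x ∈ Ω <;> simp [h] }
  let res : (α → ℝ) →ₗ[ℝ] EuclideanSpace ℝ Ω :=
    { toFun := fun F => WithLp.toLp 2 (fun x : Ω => F x)
      map_add' := fun F G => by ext x; simp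
      map_smul' := fun c F => by ext x; simp }
  have hext : ∀ (w : EuclideanSpace ℝ Ω) (x : Ω), ext w x = w x := fun w x => by
    simp [ext, x.2]
  have hin : ∀ (w : EuclideanSpace ℝ Ω) (F : α → ℝ), inner ℝ w (res F) = ip Ω (ext w) F := by
    intro w F
    rw [ip, ← Finset.sum_coe_sort Ω, PiLp.inner_apply]
    refine sum_congr rfl fun x _ => ?_
    rw [hext]; simp [res, mul_comm]
  have hre : ∀ w : EuclideanSpace ℝ Ω, res (ext w) = w := fun w => by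
    ext x; simp [res, hext]
  let T : EuclideanSpace ℝ Ω →ₗ[ℝ] EuclideanSpace ℝ Ω := res ∘ₗ L ∘ₗ ext
  have hT : T.IsSymmetric := by
    intro w w'
    rw [real_inner_comm]
    show inner ℝ w' (res (L (ext w))) = inner ℝ w (res (L (ext w')))
    rw [hin, hin, ← hsym, ip_comm]
  let b := hT.eigenvectorBasis (n := Module.finrank ℝ (EuclideanSpace ℝ Ω)) rfl
  refine ⟨_, hT.eigenvalues rfl, fun i => ext (b i), fun i x hx => ?_, fun F G => ?_⟩
  · have h := hT.apply_eigenvectorBasis rfl i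
    have h2 := congrArg (fun w : EuclideanSpace ℝ Ω => w ⟨x, hx⟩) h
    simp only [T, LinearMap.comp_apply, res] at h2
    have h3 := hext (b i) ⟨x, hx⟩
    show L (ext (b i)) x = hT.eigenvalues rfl i * ext (b i) x
    rw [show ext (b i) x = b i ⟨x, hx⟩ from h3]; simpa using h2
  · have h := b.sum_inner_mul_inner (res F) (res G)
    have h1 : inner ℝ (res F) (res G) = ip Ω F G := by
      rw [hin]; exact ip_congr (fun x hx => by simpa [res] using hext (res F) ⟨x, hx⟩) fun _ _ => rfl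
    rw [← h1, ← h]
    refine sum_congr rfl fun i _ => ?_
    rw [real_inner_comm, hin, hin]

lemma ip_eigen {Ω : Finset α} {L : (α → ℝ) →ₗ[ℝ] (α → ℝ)}
    (hsym : ∀ F G, ip Ω (L F) G = ip Ω F (L G)) {v : α → ℝ} {μ : ℝ}
    (hv : ∀ x ∈ Ω, L v x = μ * v x) (F : α → ℝ) : ip Ω v (L F) = μ * ip Ω v F := by
  rw [← hsym, ip, ip, mul_sum]
  exact sum_congr rfl fun x hx => by rw [hv x hx]; ring

/-- if every eigenvalue is `0` or at least `c`, then `L² ≥ c L` -/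
lemma sq_ge_of_eigen (Ω : Finset α) (L : (α → ℝ) →ₗ[ℝ] (α → ℝ))
    (hloc : ∀ F F' : α → ℝ, (∀ x ∈ Ω, F x = F' x) → ∀ x ∈ Ω, L F x = L F' x)
    (hsym : ∀ F G, ip Ω (L F) G = ip Ω F (L G)) (c : ℝ)
    (h : ∀ (μ : ℝ) (v : α → ℝ), (∀ x ∈ Ω, L v x = μ * v x) →
      c * μ ≤ μ ^ 2 ∨ ∀ x ∈ Ω, v x = 0) (F : α → ℝ) :
    c * ip Ω F (L F) ≤ ip Ω (L F) (L F) := by
  obtain ⟨m, μ, v, hv, hp⟩ := spectral Ω L hloc hsym
  rw [hp F, hp (L F), mul_sum]
  refine sum_le_sum fun i _ => ?_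
  rw [ip_eigen hsym (hv i)]
  rcases h (μ i) (v i) (hv i) with h1 | h1
  · nlinarith [mul_self_nonneg (ip Ω (v i) F)]
  · have : ip Ω (v i) F = 0 := sum_eq_zero fun x hx => by rw [h1 x hx, zero_mul]
    simp [this]

/-- Poincaré inequality from the eigenvalues -/
lemma gap_of_eigen (Ω : Finset α) (L : (α → ℝ) →ₗ[ℝ] (α → ℝ))
    (hloc : ∀ F F' : α → ℝ, (∀ x ∈ Ω, F x = F' x) → ∀ x ∈ Ω, L F x = L F' x)
    (hsym : ∀ F G, ip Ω (L F) G = ip Ω F (L G)) (c : ℝ)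
    (h : ∀ (μ : ℝ) (v : α → ℝ), (∀ x ∈ Ω, L v x = μ * v x) →
      c ≤ μ ∨ ∃ a, ∀ x ∈ Ω, v x = a) (F : α → ℝ) (hF : ∑ x ∈ Ω, F x = 0) :
    c * ip Ω F F ≤ ip Ω F (L F) := by
  obtain ⟨m, μ, v, hv, hp⟩ := spectral Ω L hloc hsym
  rw [hp F F, hp F (L F), mul_sum]
  refine sum_le_sum fun i _ => ?_
  rw [ip_eigen hsym (hv i)]
  rcases h (μ i) (v i) (hv i) with h1 | ⟨a, h1⟩
  · nlinarith [mul_self_nonneg (ip Ω (v i) F)]
  · have : ip Ω (v i) F = 0 := by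
      rw [ip, sum_congr rfl fun x hx => by rw [h1 x hx], ← mul_sum, hF, mul_zero]
    simp [this]

variable [DecidableEq K] [DecidableEq K']

/-- fibre of the key `κ` through `x` -/
def fib (Ω : Finset α) (κ : α → K) (x : α) : Finset α := Ω.filter fun y => κ y = κ x

lemma mem_fib {Ω : Finset α} {κ : α → K} {x y : α} : y ∈ fib Ω κ x ↔ y ∈ Ω ∧ κ y = κ x := by
  simp [fib]

lemma fib_congr {Ω : Finset α} {κ : α → K} {x x' : α} (h : κ x = κ x') :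
    fib Ω κ x = fib Ω κ x' := by simp [fib, h]

lemma fib_card_pos {Ω : Finset α} {κ : α → K} {x : α} (hx : x ∈ Ω) :
    (0 : ℝ) < (fib Ω κ x).card := by
  exact_mod_cast card_pos.2 ⟨x, mem_fib.2 ⟨hx, rfl⟩⟩

/-- conditional expectation given the key `κ` -/
noncomputable def cexp (Ω : Finset α) (κ : α → K) : (α → ℝ) →ₗ[ℝ] (α → ℝ) where
  toFun F x := (∑ y ∈ fib Ω κ x, F y) / (fib Ω κ x).card
  map_add' F G := by funext x; simp [sum_add_distrib, add_div]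
  map_smul' c F := by funext x; simp [← mul_sum, mul_div_assoc]

lemma cexp_apply (Ω : Finset α) (κ : α → K) (F : α → ℝ) (x : α) :
    cexp Ω κ F x = (∑ y ∈ fib Ω κ x, F y) / (fib Ω κ x).card := rfl

/-- `g` depends only on the key -/
def Meas (Ω : Finset α) (κ : α → K) (g : α → ℝ) : Prop :=
  ∀ x ∈ Ω, ∀ y ∈ Ω, κ x = κ y → g x = g y

lemma meas_cexp (Ω : Finset α) (κ : α → K) (F : α → ℝ) : Meas Ω κ (cexp Ω κ F) :=
  fun x _ y _ h => by rw [cexp_apply, cexp_apply, fib_congr h]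

lemma cexp_local {Ω : Finset α} (κ : α → K) {F F' : α → ℝ} (h : ∀ x ∈ Ω, F x = F' x) (x : α) :
    cexp Ω κ F x = cexp Ω κ F' x := by
  rw [cexp_apply, cexp_apply, sum_congr rfl fun y hy => h y (mem_fib.1 hy).1]

lemma cexp_of_meas {Ω : Finset α} {κ : α → K} {g : α → ℝ} (hg : Meas Ω κ g) {x : α}
    (hx : x ∈ Ω) : cexp Ω κ g x = g x := by
  rw [cexp_apply, sum_congr rfl fun y hy => hg y (mem_fib.1 hy).1 x hx (mem_fib.1 hy).2,
    sum_const, nsmul_eq_mul, mul_div_cancel_left₀ _ (fib_card_pos hx).ne']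

lemma ip_cexp (Ω : Finset α) (κ : α → K) (F G : α → ℝ) :
    ip Ω (cexp Ω κ F) G = ip Ω F (cexp Ω κ G) := by
  have key : ∀ F G : α → ℝ, ip Ω (cexp Ω κ F) G =
      ∑ x ∈ Ω, ∑ y ∈ Ω, if κ y = κ x then F y * G x / (fib Ω κ x).card else 0 := by
    intro F G
    refine sum_congr rfl fun x _ => ?_
    rw [cexp_apply, ← sum_filter, ← sum_div, ← sum_mul]; simp only [fib]; ring
  rw [key, ip_comm, key, sum_comm]
  refine sum_congr rfl fun x _ => sum_congr rfl fun y _ => ?_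
  by_cases h : κ y = κ x
  · rw [if_pos h, if_pos h.symm, fib_congr h, mul_comm]
  · rw [if_neg h, if_neg (Ne.symm h)]

lemma ip_sub_cexp_meas {Ω : Finset α} {κ : α → K} (F : α → ℝ) {g : α → ℝ} (hg : Meas Ω κ g) :
    ip Ω (F - cexp Ω κ F) g = 0 := by
  rw [ip_sub_left, ip_cexp, ip_congr (fun _ _ => rfl) fun x hx => cexp_of_meas hg hx, sub_self]

lemma ip_sub_cexp_self (Ω : Finset α) (κ : α → K) (F : α → ℝ) :
    ip Ω F (F - cexp Ω κ F) = ip Ω (F - cexp Ω κ F) (F - cexp Ω κ F) := by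
  have h := ip_sub_cexp_meas F (meas_cexp Ω κ F)
  rw [ip_sub_left Ω F (cexp Ω κ F), ip_comm Ω (cexp Ω κ F), h, sub_zero]

lemma Meas.sub {Ω : Finset α} {κ : α → K} {g g' : α → ℝ} (h : Meas Ω κ g) (h' : Meas Ω κ g') :
    Meas Ω κ (g - g') := fun x hx y hy e => by
  simp only [Pi.sub_apply]; rw [h x hx y hy e, h' x hx y hy e]

/-- an involution of `Ω` that respects the key commutes with the conditional expectation -/
lemma cexp_comp {Ω : Finset α} {κ : α → K} {s : α → α} (hs : ∀ x ∈ Ω, s x ∈ Ω)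
    (hss : ∀ x ∈ Ω, s (s x) = x) (hκ : ∀ x ∈ Ω, ∀ y ∈ Ω, κ x = κ y → κ (s x) = κ (s y))
    (F : α → ℝ) {x : α} (hx : x ∈ Ω) : cexp Ω κ (fun y => F (s y)) x = cexp Ω κ F (s x) := by
  have h1 : ∀ y ∈ fib Ω κ x, s y ∈ fib Ω κ (s x) := fun y hy =>
    mem_fib.2 ⟨hs y (mem_fib.1 hy).1, hκ y (mem_fib.1 hy).1 x hx (mem_fib.1 hy).2⟩
  have h2 : ∀ y ∈ fib Ω κ (s x), s y ∈ fib Ω κ x := fun y hy =>
    mem_fib.2 ⟨hs y (mem_fib.1 hy).1, by
      have := hκ y (mem_fib.1 hy).1 (s x) (hs x hx) (mem_fib.1 hy).2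
      rwa [hss x hx] at this⟩
  have h3 : ∀ y ∈ fib Ω κ x, s (s y) = y := fun y hy => hss y (mem_fib.1 hy).1
  have h4 : ∀ y ∈ fib Ω κ (s x), s (s y) = y := fun y hy => hss y (mem_fib.1 hy).1
  rw [cexp_apply, cexp_apply, sum_nbij' s s h1 h2 h3 h4 (g := F) fun _ _ => rfl,
    card_nbij' s s h1 h2 h3 h4]

lemma sum_invol {Ω : Finset α} {s : α → α} (hs : ∀ x ∈ Ω, s x ∈ Ω)
    (hss : ∀ x ∈ Ω, s (s x) = x) (F : α → ℝ) : ∑ x ∈ Ω, F (s x) = ∑ x ∈ Ω, F x :=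
  sum_nbij' s s hs hs hss hss fun _ _ => rfl

/-- positivity of the cross term when `cexp κ'` preserves `κ`-measurability -/
lemma cross_nonneg {Ω : Finset α} {κ : α → K} {κ' : α → K'}
    (h : ∀ g, Meas Ω κ g → Meas Ω κ (cexp Ω κ' g)) (H : α → ℝ) :
    0 ≤ ip Ω (H - cexp Ω κ H) (H - cexp Ω κ' H) := by
  set a := H - cexp Ω κ H with ha
  have e : H - cexp Ω κ' H = (a - cexp Ω κ' a) + (cexp Ω κ H - cexp Ω κ' (cexp Ω κ H)) := by
    rw [ha, map_sub]; abel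
  rw [e, ip_add_right, ip_sub_cexp_self,
    ip_sub_cexp_meas H ((meas_cexp Ω κ H).sub (h _ (meas_cexp Ω κ H))), add_zero]
  exact ip_self_nonneg _ _

/-- splitting a sum over `Ω` along the fibres of a key -/
lemma sum_nonneg_of_fib {Ω : Finset α} (κ : α → K) (f : α → ℝ)
    (h : ∀ x ∈ Ω, 0 ≤ ∑ y ∈ fib Ω κ x, f y) : 0 ≤ ∑ x ∈ Ω, f x := by
  rw [← sum_fiberwise_of_maps_to (t := Ω.image κ) (g := κ) fun x hx => mem_image_of_mem κ hx]
  refine sum_nonneg fun k hk => ?_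
  obtain ⟨x, hx, rfl⟩ := mem_image.1 hk
  exact h x hx

end Crest.Agent.SW
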