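import Crest.Agent.SW.Disj2

set_option autoImplicit false
set_option linter.unusedSectionVars false
open Finset

namespace Crest.Agent.SW

variable {V : Type*} [DecidableEq V] [Fintype V]
variable {d : V → ℕ} {u v w x z : V} {A A' : V → V → Bool}

lemma fib_mean (A0 : V → V → Bool) (F : (V → V → Bool) → ℝ) (h0 : A0 ∈ Om d) :
    ∑ A ∈ fib (Om d) (ky u v) A0, Q d u v F A = 0 := by
  simp only [Q, Pi.sub_apply, sum_sub_distrib]
  rw [sum_congr rfl fun A hA => meas_cexp _ (ky u v) F A (mem_fib.1 hA).1 A0 h0 (mem_fib.1 hA).2,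
    sum_const, nsmul_eq_mul, cexp_apply, mul_div_cancel₀ _ (fib_card_pos h0).ne', sub_self]

lemma fib_gap (huv : u ≠ v) {A0 : V → V → Bool} (h0 : A0 ∈ Om d) (F : (V → V → Bool) → ℝ) :
    4 * #(Tr u v A0) * ∑ A ∈ fib (Om d) (ky u v) A0, Q d u v F A ^ 2 ≤
      ∑ w, ∑ x, ∑ A ∈ fib (Om d) (ky u v) A0, (F A - F (sw u v w x A)) ^ 2 := by
  refine ((blp_pair huv h0).gap _ (fib_mean A0 F h0)).trans ?_
  refine (sum_le_sum fun w _ => ?_).trans (sum_le_sum_of_subset_of_nonneg (subset_univ _)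
    fun _ _ _ => sum_nonneg fun _ _ => sum_nonneg fun _ _ => sq_nonneg _)
  refine (sum_le_sum fun x _ => le_of_eq (sum_congr rfl fun A hA => ?_)).trans
    (sum_le_sum_of_subset_of_nonneg (subset_univ _) fun _ _ _ => sum_nonneg fun _ _ => sq_nonneg _)
  simp only [Q, Pi.sub_apply]
  rw [meas_cexp _ (ky u v) F _ (sw_mem (mem_fib.1 hA).1) A (mem_fib.1 hA).1 ky_sw]
  ring

lemma fib_theta (huv : u ≠ v) {A0 : V → V → Bool} (h0 : A0 ∈ Om d) (F : (V → V → Bool) → ℝ) :
    ∑ w, ∑ x, ∑ A ∈ fib (Om d) (ky u v) A0, (if PT u v w x A then MM d u v w x F A ^ 2 else 0) ≤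
      #(Tr u v A0) * ∑ A ∈ fib (Om d) (ky u v) A0, Q d u v F A ^ 2 := by
  refine le_trans (le_of_eq ?_) ((blp_pair huv h0).theta _ (fib_mean A0 F h0))
  have tr : ∀ A ∈ fib (Om d) (ky u v) A0, Tr u v A0 = Tr u v A := fun A hA =>
    Tr_eq huv h0 (mem_fib.1 hA).1 (mem_fib.1 hA).2.symm
  have pt : ∀ w x, ∀ A ∈ fib (Om d) (ky u v) A0,
      PT u v w x A ↔ w ∈ Tr u v A0 ∧ x ∈ Tr u v A0 ∧ A u w ≠ A u x := by
    intro w x A hA
    rw [tr A hA, mem_Tr, mem_Tr]; unfold PT; tauto
  symm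
  refine sum_subset_zero_on_sdiff (subset_univ _) (fun w hw => sum_eq_zero fun x _ =>
    sum_eq_zero fun A hA => if_neg fun c => (mem_sdiff.1 hw).2 ((pt w x A hA).1 c).1)
    fun w hw => ?_
  refine sum_subset_zero_on_sdiff (subset_univ _) (fun x hx =>
    sum_eq_zero fun A hA => if_neg fun c => (mem_sdiff.1 hx).2 ((pt w x A hA).1 c).2.1)
    fun x hx => ?_
  set P := (fib (Om d) (ky u v) A0).filter fun A => A u w ≠ A u x with hP
  have e1 : ∀ A ∈ P, MM d u v w x F A = (∑ B ∈ P, Q d u v F B) / #P := by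
    intro A hA
    obtain ⟨a1, a2⟩ := mem_filter.1 hA
    have e : fib (Om d) (k2 u v w x) A = P := by
      have t : ∀ B ∈ fib (Om d) (ky u v) A0,
          (k2 u v w x B).2 = (B u w).toNat + (B u x).toNat := fun B hB =>
        if_pos ⟨(mem_Tr.1 (tr B hB ▸ hw)).2.2, (mem_Tr.1 (tr B hB ▸ hx)).2.2⟩
      ext B
      rw [hP, mem_filter]
      constructor
      · intro hB
        have b1 : B ∈ fib (Om d) (ky u v) A0 := mem_fib.2 ⟨(mem_fib.1 hB).1,
          (congrArg Prod.fst (mem_fib.1 hB).2).trans (mem_fib.1 a1).2⟩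
        have := congrArg Prod.snd (mem_fib.1 hB).2
        rw [t B b1, t A a1] at this
        refine ⟨b1, ?_⟩
        revert this a2; cases A u w <;> cases A u x <;> cases B u w <;> cases B u x <;> simp
      · rintro ⟨b1, b2⟩
        refine mem_fib.2 ⟨(mem_fib.1 b1).1,
          Prod.ext ((mem_fib.1 b1).2.trans (mem_fib.1 a1).2.symm) ?_⟩
        rw [t B b1, t A a1]
        revert b2 a2; cases A u w <;> cases A u x <;> cases B u w <;> cases B u x <;> simp
    have pos : (0 : ℝ) < #P := by exact_mod_cast card_pos.2 ⟨A, hA⟩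
    simp only [MM, Q, Pi.sub_apply, sum_sub_distrib]
    rw [cexp_apply, e, sum_congr rfl fun B hB => meas_cexp _ (ky u v) F B
      (mem_fib.1 (mem_filter.1 hB).1).1 A (mem_fib.1 a1).1
      ((mem_fib.1 (mem_filter.1 hB).1).2.trans (mem_fib.1 a1).2.symm), sum_const, nsmul_eq_mul,
      sub_div, ← hP, mul_div_cancel_left₀ _ pos.ne']
  rw [sum_congr rfl fun A hA => if_congr (Q := A u w ≠ A u x)
    ((pt w x A hA).trans (by simp [hw, hx])) rfl rfl,
    ← sum_filter, ← hP, sum_congr (f := fun A => MM d u v w x F A ^ 2) rfl fun A hA => by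
      rw [e1 A hA], sum_const, nsmul_eq_mul]
  by_cases e : (#P : ℝ) = 0
  · simp [e]
  · field_simp

lemma pair_nonneg (u v : V) (F : (V → V → Bool) → ℝ) :
    ∑ w, ∑ x, ∑ A ∈ Om d, (if PT u v w x A then MM d u v w x F A ^ 2 else 0) ≤
      ∑ w, ∑ x, (∑ A ∈ Om d, (F A - F (sw u v w x A)) ^ 2) / 4 := by
  by_cases huv : u = v
  · refine sum_le_sum fun w _ => sum_le_sum fun x _ => ?_
    rw [sum_eq_zero fun A _ => if_neg fun c => c.dj.1 huv]; positivity
  have := sum_nonneg_of_fib (Ω := Om d) (ky u v) (fun A => ∑ w, ∑ x,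
    ((F A - F (sw u v w x A)) ^ 2 / 4 - if PT u v w x A then MM d u v w x F A ^ 2 else 0))
    fun A0 h0 => by
      have a := fib_gap huv h0 F
      have b := fib_theta huv h0 F
      rw [sum_comm]
      simp only [sum_comm (s := fib (Om d) (ky u v) A0), sum_sub_distrib, ← sum_div]
      linarith
  rw [sum_comm] at this
  simp only [sum_comm (s := Om d), sum_sub_distrib, ← sum_div] at this ⊢
  linarith

lemma sum4_swap (f : V → V → V → V → ℝ) :
    ∑ u, ∑ v, ∑ w, ∑ x, f w x u v = ∑ u, ∑ v, ∑ w, ∑ x, f u v w x := by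
  have h : ∀ g : V → V → V → V → ℝ, ∑ u, ∑ v, ∑ w, ∑ x, g u v w x =
      ∑ p : V × V, ∑ q : V × V, g p.1 p.2 q.1 q.2 := fun g => by
    simp only [Fintype.sum_prod_type]
  rw [h, h, sum_comm]

theorem disj_nonneg (F : (V → V → Bool) → ℝ) :
    0 ≤ ∑ u, ∑ v, ∑ w, ∑ x, if Dj u v w x then ip (Om d) (Q d u v F) (Q d w x F) else 0 := by
  have a := sum_le_sum fun u (_ : u ∈ univ) => sum_le_sum fun v (_ : v ∈ univ) =>
    pair_nonneg (d := d) u v F
  have b := sum4_swap fun u v w x => ∑ A ∈ Om d, if PT u v w x A then MM d u v w x F A ^ 2 else 0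
  refine le_trans ?_ (sum_le_sum fun u _ => sum_le_sum fun v _ => sum_le_sum fun w _ =>
    sum_le_sum fun x _ => (?_ : (∑ A ∈ Om d, (F A - F (sw u v w x A)) ^ 2) / 4 -
      (∑ A ∈ Om d, if PT u v w x A then MM d u v w x F A ^ 2 else 0) / 2 -
      (∑ A ∈ Om d, if PT w x u v A then MM d w x u v F A ^ 2 else 0) / 2 ≤ _))
  · simp only [sum_sub_distrib, ← sum_div] at a ⊢
    linarith
  · split_ifs with h
    · exact cross_pair h F
    · rw [sum_eq_zero fun A _ => by rw [sw_of_not fun c => h c.dj]; simp,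
        sum_eq_zero fun A _ => if_neg fun c => h c.dj,
        sum_eq_zero fun A _ => if_neg fun c => h c.dj.symm]
      simp

lemma exists_switch (hA : A ∈ Om d) (S : Finset V) {v a b : V} (hv : v ∉ S) (ha : a ∉ S)
    (hav : a ≠ v) (va : A v a = false) (vb : A v b = true)
    (hr : #(Sᶜ.filter fun c => A b c = true) ≤ #(Sᶜ.filter fun c => A a c = true)) :
    ∃ c, c ∉ S ∧ PT v c b a A := by
  obtain ⟨s1, s2, -⟩ := mem_Om.1 hA
  by_contra hc
  push Not at hc
  have vm : v ∈ Sᶜ.filter fun c => A b c = true := mem_filter.2 ⟨mem_compl.2 hv, by rw [s1, vb]⟩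
  have := card_le_card_of_injOn (s := Sᶜ.filter fun c => A a c = true)
    (t := (Sᶜ.filter fun c => A b c = true).erase v) (Equiv.swap a b) (fun c h => by
      simp only [coe_filter, mem_compl, Set.mem_setOf_eq, coe_erase, Set.mem_diff,
        Set.mem_singleton_iff] at h ⊢
      by_cases e : c = b
      · subst e; rw [Equiv.swap_apply_right, s1]; exact ⟨⟨ha, h.2⟩, hav⟩
      have ca : c ≠ a := fun e => by rw [e, s2] at h; simp at h
      rw [Equiv.swap_apply_of_ne_of_ne ca e]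
      refine ⟨⟨h.1, ?_⟩, fun e => by rw [e, s1, va] at h; simp at h⟩
      by_contra e'
      refine hc c h.1 ⟨fun e => by rw [e, s2] at vb; simp at vb, Ne.symm e, hav, ca.symm, ?_, ?_, ?_⟩
      · rw [vb, s1]; exact Ne.symm e'
      · rw [va, s1, h.2]; simp
      · simp [va, vb]) (Equiv.injective _).injOn
  have := card_erase_lt_of_mem vm
  omega

lemma conn_step {β : Type*} (φ : (V → V → Bool) → β)
    (hφ : ∀ u v w x, ∀ A ∈ Om d, φ (sw u v w x A) = φ A) (S : Finset V) {v : V} (hv : v ∉ S)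
    (ih : ∀ A ∈ Om d, ∀ A' ∈ Om d, (∀ a ∈ insert v S, ∀ b, A a b = A' a b) → φ A = φ A') :
    ∀ A ∈ Om d, ∀ A' ∈ Om d, (∀ a ∈ S, ∀ b, A a b = A' a b) → φ A = φ A' := by
  suffices ∀ k, ∀ A ∈ Om d, ∀ A' ∈ Om d, (∀ a ∈ S, ∀ b, A a b = A' a b) →
      #(univ.filter fun c => A v c ≠ A' v c) = k → φ A = φ A' from
    fun A hA A' hA' h => this _ A hA A' hA' h rfl
  intro k
  induction k using Nat.strong_induction_on with
  | _ k ih2 =>
  have step : ∀ A ∈ Om d, ∀ A' ∈ Om d, (∀ a ∈ S, ∀ b, A a b = A' a b) →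
      #(univ.filter fun c => A v c ≠ A' v c) = k → ∀ a b, A v a = false → A' v a = true →
      A v b = true → A' v b = false →
      #(Sᶜ.filter fun c => A b c = true) ≤ #(Sᶜ.filter fun c => A a c = true) → φ A = φ A' := by
    intro A hA A' hA' h hk a b a1 a2 b1 b2 hr
    obtain ⟨s1, s2, -⟩ := mem_Om.1 hA
    obtain ⟨s1', s2', -⟩ := mem_Om.1 hA'
    have aS : a ∉ S := fun e => by rw [s1, h a e, s1', a2] at a1; simp at a1
    have bS : b ∉ S := fun e => by rw [s1, h b e, s1', b2] at b1; simp at b1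
    obtain ⟨c, cS, hP⟩ := exists_switch hA S hv aS (fun e => by rw [e, s2'] at a2; simp at a2)
      a1 b1 hr
    rw [← hφ v c b a A hA]
    refine ih2 _ ?_ _ (sw_mem hA) A' hA' (fun p hp q => ?_) rfl
    · rw [← hk]
      refine card_lt_card ⟨fun e he => ?_, fun hs => ?_⟩
      · simp only [mem_filter, mem_univ, true_and] at he ⊢
        by_cases e1 : e = b
        · simp [e1, b1, b2]
        by_cases e2 : e = a
        · simp [e2, a1, a2]
        rwa [sw_off' hP.1.symm hP.2.2.1.symm e1 e2] at he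
      · have := (mem_filter.1 (hs (mem_filter.2 ⟨mem_univ a, by simp [a1, a2]⟩))).2
        rw [sw_blk hP (Or.inl rfl) (Or.inr rfl), a1, a2] at this
        simp at this
    · rw [← h p hp q]
      unfold sw
      rw [if_neg]
      rintro ⟨-, ⟨rfl | rfl, -⟩ | ⟨-, rfl | rfl⟩⟩ <;> contradiction
  intro A hA A' hA' h hk
  by_cases e : (univ.filter fun c => A v c = true) = univ.filter fun c => A' v c = true
  · refine ih A hA A' hA' fun a ha b => ?_
    rcases mem_insert.1 ha with rfl | ha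
    · have := congrArg (b ∈ ·) e
      simp only [mem_filter, mem_univ, true_and, eq_iff_iff] at this
      exact Bool.eq_iff_iff.2 this
    · exact h a ha b
  have hc : #(univ.filter fun c => A v c = true) = #(univ.filter fun c => A' v c = true) := by
    rw [toNat_sum, toNat_sum, (mem_Om.1 hA).2.2, (mem_Om.1 hA').2.2]
  obtain ⟨b, b1, b2⟩ := not_subset.1 fun hs => e (eq_of_subset_of_card_le hs hc.ge)
  obtain ⟨a, a1, a2⟩ := not_subset.1 fun hs => e (eq_of_subset_of_card_le hs hc.le).symm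
  simp only [mem_filter, mem_univ, true_and, Bool.not_eq_true] at a1 a2 b1 b2
  have r : ∀ a, #(Sᶜ.filter fun c => A a c = true) = #(Sᶜ.filter fun c => A' a c = true) :=
    fun a => by
      rw [toNat_sum, toNat_sum]
      exact deg_split hA hA' a _ fun b hb => by
        rw [(mem_Om.1 hA).1, (mem_Om.1 hA').1, h b (by simpa using hb)]
  rcases le_total #(Sᶜ.filter fun c => A b c = true) #(Sᶜ.filter fun c => A a c = true) with l | l
  · exact step A hA A' hA' h hk a b a2 a1 b1 b2 l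
  · exact (step A' hA' A hA (fun a ha b => (h a ha b).symm) (by simpa only [ne_comm] using hk)
      b a b2 b1 a1 a2 (by rwa [← r, ← r])).symm

theorem connected {β : Type*} (φ : (V → V → Bool) → β)
    (hφ : ∀ u v w x, ∀ A ∈ Om d, φ (sw u v w x A) = φ A) (hA : A ∈ Om d) (hA' : A' ∈ Om d) :
    φ A = φ A' := by
  have : ∀ T : Finset V, ∀ A ∈ Om d, ∀ A' ∈ Om d, (∀ a ∈ Tᶜ, ∀ b, A a b = A' a b) → φ A = φ A' := by
    intro T
    induction T using Finset.induction_on with
    | empty => exact fun A _ A' _ h => by rw [show A = A' from funext fun a => funext (h a (by simp))]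
    | insert v T hv ih =>
      exact conn_step φ hφ _ (v := v) (by simp) (by
        rwa [compl_insert, insert_erase (mem_compl.2 hv)])
  exact this univ A hA A' hA' (by simp)

end Crest.Agent.SW
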