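import Crest.Agent.SW.Graph3

set_option autoImplicit false
set_option linter.unusedSectionVars false
open Finset

namespace Crest.Agent.SW

section abstr
variable {α K1 K2 K3 K4 : Type*} [DecidableEq K1] [DecidableEq K2] [DecidableEq K3] [DecidableEq K4]

lemma cross_lower {Ω : Finset α} {κe : α → K1} {κe' : α → K2} {κf : α → K3} {κf' : α → K4}
    (fe : ∀ x y, κe' x = κe' y → κe x = κe y)
    (c1 : ∀ g, Meas Ω κe' g → Meas Ω κe' (cexp Ω κf g))
    (c2 : ∀ g, Meas Ω κf' g → Meas Ω κf' (cexp Ω κe g))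
    (c3 : ∀ g, Meas Ω κf' g → Meas Ω κf' (cexp Ω κe' g))
    {τ : α → α} (hτ : ∀ x ∈ Ω, τ x ∈ Ω) (hττ : ∀ x ∈ Ω, τ (τ x) = x)
    (t1 : ∀ x ∈ Ω, κe' (τ x) = κe' x) (t2 : ∀ x ∈ Ω, κf (τ x) = κf x) (F : α → ℝ) :
    (∑ x ∈ Ω, (F x - F (τ x)) ^ 2) / 4 +
      ip Ω (cexp Ω κe' F - cexp Ω κe F) (cexp Ω κf' F - cexp Ω κf F) ≤
      ip Ω (F - cexp Ω κe F) (F - cexp Ω κf F) := by
  set a := F - cexp Ω κe' F with ha
  set b := F - cexp Ω κf' F with hb
  have e1 : F - cexp Ω κf F = (a - cexp Ω κf a) + (cexp Ω κe' F - cexp Ω κf (cexp Ω κe' F)) := by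
    rw [ha, map_sub]; abel
  have s1 : ip Ω a (F - cexp Ω κf F) = ip Ω (a - cexp Ω κf a) (a - cexp Ω κf a) := by
    rw [e1, ip_add_right, ip_sub_cexp_self,
      ip_sub_cexp_meas F ((meas_cexp Ω κe' F).sub (c1 _ (meas_cexp Ω κe' F))), add_zero]
  have s2 : ∑ x ∈ Ω, (F x - F (τ x)) ^ 2 ≤ 4 * ip Ω (a - cexp Ω κf a) (a - cexp Ω κf a) := by
    set c := a - cexp Ω κf a with hc
    have := sum_invol hτ hττ fun x => c x * c x
    calc _ ≤ ∑ x ∈ Ω, (2 * (c x * c x) + 2 * (c (τ x) * c (τ x))) := sum_le_sum fun x hx => by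
          have : F x - F (τ x) = c x - c (τ x) := by
            simp only [hc, ha, Pi.sub_apply]
            rw [meas_cexp Ω κe' F _ (hτ x hx) x hx (t1 x hx),
              meas_cexp Ω κf _ _ (hτ x hx) x hx (t2 x hx)]
            ring
          rw [this]; nlinarith [sq_nonneg (c x + c (τ x))]
      _ = _ := by rw [sum_add_distrib, ← mul_sum, ← mul_sum, this, ip]; ring
  have s3 : 0 ≤ ip Ω (cexp Ω κe' F - cexp Ω κe F) b := by
    have e2 : cexp Ω κe' F - cexp Ω κe F = (cexp Ω κe' b - cexp Ω κe b) +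
        (cexp Ω κe' (cexp Ω κf' F) - cexp Ω κe (cexp Ω κf' F)) := by
      rw [hb, map_sub, map_sub]; abel
    rw [e2, ip_add_left, ip_comm Ω (_ - cexp Ω κe (cexp Ω κf' F)), ip_sub_cexp_meas F
      ((c3 _ (meas_cexp Ω κf' F)).sub (c2 _ (meas_cexp Ω κf' F))), add_zero]
    have m : Meas Ω κe' (cexp Ω κe b) := fun x hx y hy e => meas_cexp Ω κe b x hx y hy (fe x y e)
    have u1 := ip_sub_cexp_meas b (meas_cexp Ω κe' b)
    have u2 := ip_sub_cexp_meas b (meas_cexp Ω κe b)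
    have u3 := ip_sub_cexp_meas b m
    have u4 := ip_self_nonneg Ω (cexp Ω κe' b - cexp Ω κe b)
    simp only [ip_sub_left, ip_sub_right] at u1 u2 u3 u4 ⊢
    rw [ip_comm Ω (cexp Ω κe b) (cexp Ω κe' b)] at u4
    rw [ip_comm Ω _ b, ip_comm Ω _ b]
    linarith
  have e3 : F - cexp Ω κe F = a + (cexp Ω κe' F - cexp Ω κe F) := by rw [ha]; abel
  have e4 : F - cexp Ω κf F = b + (cexp Ω κf' F - cexp Ω κf F) := by rw [hb]; abel
  rw [e3, ip_add_left, s1]
  nth_rewrite 1 [e4]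
  rw [ip_add_right]
  linarith

end abstr

variable {V : Type*} [DecidableEq V] [Fintype V]
variable {d : V → ℕ} {u v w x z : V} {A A' : V → V → Bool}

lemma sw_blk (h : PT u v w x A) {a b : V} (ha : a = u ∨ a = v) (hb : b = w ∨ b = x) :
    sw u v w x A a b = !A a b := if_pos ⟨h, Or.inl ⟨ha, hb⟩⟩

lemma PT.sw (h : PT u v w x A) : PT u v w x (sw u v w x A) := by
  refine ⟨h.1, h.2.1, h.2.2.1, h.2.2.2.1, ?_⟩
  rw [sw_blk h (Or.inl rfl) (Or.inl rfl), sw_blk h (Or.inr rfl) (Or.inl rfl),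
    sw_blk h (Or.inl rfl) (Or.inr rfl), sw_blk h (Or.inr rfl) (Or.inr rfl)]
  simpa using h.2.2.2.2

lemma sw_sw : sw u v w x (sw u v w x A) = A := by
  by_cases h : PT u v w x A
  · funext a b
    rw [sw]
    simp only [h.sw, true_and]
    split_ifs with e
    · rw [sw, if_pos ⟨h, e⟩, Bool.not_not]
    · rw [sw, if_neg fun c => e c.2]
  · rw [sw_of_not h, sw_of_not h]

/-- refined key -/
def k2 (u v w x : V) (A : V → V → Bool) : (V → V → Bool) × ℕ :=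
  (ky u v A, if A u w ≠ A v w ∧ A u x ≠ A v x then (A u w).toNat + (A u x).toNat else 0)

/-- the move through the only tradeable block column -/
def od (u v w x z : V) (A : V → V → Bool) : V → V → Bool :=
  if A u w ≠ A v w ∧ A u x = A v x then sw u v w z A
  else if A u w = A v w ∧ A u x ≠ A v x then sw u v x z A else A

/-- two disjoint pairs -/
def Dj (u v w x : V) : Prop := u ≠ v ∧ w ≠ x ∧ w ≠ u ∧ w ≠ v ∧ x ≠ u ∧ x ≠ v

instance (u v w x : V) : Decidable (Dj u v w x) := by unfold Dj; infer_instance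

lemma Dj.symm (h : Dj u v w x) : Dj w x u v :=
  ⟨h.2.1, h.1, h.2.2.1.symm, h.2.2.2.2.1.symm, h.2.2.2.1.symm, h.2.2.2.2.2.symm⟩

lemma PT.dj (h : PT u v w x A) : Dj u v w x :=
  ⟨fun e => h.2.2.2.2.1 (by rw [e]), fun e => h.2.2.2.2.2.2 (by rw [e]), h.1, h.2.1, h.2.2.1,
    h.2.2.2.1⟩

lemma sw_col {a b c : V} (ha : a = u ∨ a = v) (cu : c ≠ u) (cv : c ≠ v) (h1 : c ≠ w) (h2 : c ≠ x)
    (hb : b = c) : sw u v w x A a b = A a b := by
  subst hb
  unfold sw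
  rw [if_neg]
  rintro ⟨-, ⟨-, c2⟩ | ⟨c1, -⟩⟩ <;> tauto

lemma sw_trade (c : V) (cu : c ≠ u) (cv : c ≠ v) :
    sw u v w x A u c = sw u v w x A v c ↔ A u c = A v c := by
  by_cases h : PT u v w x A
  swap
  · rw [sw_of_not h]
  by_cases e : c = w ∨ c = x
  · rw [sw_blk h (Or.inl rfl) e, sw_blk h (Or.inr rfl) e]; simp
  · push Not at e
    rw [sw_col (Or.inl rfl) cu cv e.1 e.2 rfl, sw_col (Or.inr rfl) cu cv e.1 e.2 rfl]

lemma od_mem (hA : A ∈ Om d) : od u v w x z A ∈ Om d := by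
  unfold od; split_ifs; exacts [sw_mem hA, sw_mem hA, hA]

lemma od_od (h : Dj u v w x) : od u v w x z (od u v w x z A) = A := by
  obtain ⟨-, -, h1, h2, h3, h4⟩ := h
  by_cases c1 : A u w ≠ A v w ∧ A u x = A v x
  · rw [show od u v w x z A = sw u v w z A from if_pos c1, od, if_pos (by
      rw [ne_eq, sw_trade _ h1 h2, sw_trade _ h3 h4]; exact c1), sw_sw]
  by_cases c2 : A u w = A v w ∧ A u x ≠ A v x
  · rw [show od u v w x z A = sw u v x z A from (if_neg c1).trans (if_pos c2), od, if_neg (by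
      rw [ne_eq, sw_trade _ h1 h2, sw_trade _ h3 h4]; exact c1), if_pos (by
      rw [ne_eq, sw_trade _ h1 h2, sw_trade _ h3 h4]; exact c2), sw_sw]
  have : od u v w x z A = A := (if_neg c1).trans (if_neg c2)
  rw [this, this]

lemma k2_od (h : Dj u v w x) : k2 u v w x (od u v w x z A) = k2 u v w x A := by
  obtain ⟨-, -, h1, h2, h3, h4⟩ := h
  unfold od
  split_ifs with c1 c2
  · simp only [k2, ky_sw, ne_eq, sw_trade _ h1 h2, sw_trade _ h3 h4, c1.2, not_true, and_false,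
      if_false]
  · simp only [k2, ky_sw, ne_eq, sw_trade _ h1 h2, sw_trade _ h3 h4, c2.1, not_true, false_and,
      if_false]
  · rfl

lemma k2_out (h : Dj u v w x) {a b : V} (a1 : a ≠ w) (a2 : a ≠ x) (b1 : b ≠ w) (b2 : b ≠ x) :
    k2 u v w x (sw u v a b A) = k2 u v w x A := by
  obtain ⟨-, -, h1, h2, h3, h4⟩ := h
  simp only [k2, ky_sw, sw_col (Or.inl rfl) h1 h2 a1.symm b1.symm rfl,
    sw_col (Or.inr rfl) h1 h2 a1.symm b1.symm rfl, sw_col (Or.inl rfl) h3 h4 a2.symm b2.symm rfl,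
    sw_col (Or.inr rfl) h3 h4 a2.symm b2.symm rfl]

lemma k2_sw : k2 u v w x (sw u v w x A) = k2 u v w x A := by
  by_cases h : PT u v w x A
  swap
  · rw [sw_of_not h]
  simp only [k2, ky_sw, sw_blk h (Or.inl rfl) (Or.inl rfl), sw_blk h (Or.inr rfl) (Or.inl rfl),
    sw_blk h (Or.inl rfl) (Or.inr rfl), sw_blk h (Or.inr rfl) (Or.inr rfl)]
  obtain ⟨-, -, -, -, h5, h6, h7⟩ := h
  revert h5 h6 h7
  cases A u w <;> cases A v w <;> cases A u x <;> cases A v x <;> simp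

lemma pres (h : Dj u v w x) {K : Type*} [DecidableEq K] (κ : (V → V → Bool) → K)
    (hO : ∀ a b, a ≠ w → a ≠ x → b ≠ w → b ≠ x → ∀ A ∈ Om d, ∀ A' ∈ Om d, κ A = κ A' →
      κ (sw u v a b A) = κ (sw u v a b A'))
    (hP : ∀ A ∈ Om d, κ (sw u v w x A) = κ A)
    (hodd : ∀ z, z ≠ w → z ≠ x → ∀ A ∈ Om d, ∀ A' ∈ Om d, κ A = κ A' →
      κ (od u v w x z A) = κ (od u v w x z A'))
    (g : (V → V → Bool) → ℝ) (hg : Meas (Om d) (k2 u v w x) g) :
    Meas (Om d) (k2 u v w x) (cexp (Om d) κ g) := by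
  intro A hA A' hA' e
  have hb := blp_pair h.1 hA'
  refine hb.conn_gen (fun H => k2 u v w x H = k2 u v w x A') (cexp (Om d) κ g) (H' := A')
    (fun H hH hR hne => ?_) A (mem_fib.2 ⟨hA, congrArg Prod.fst e⟩) e
  obtain ⟨m, k⟩ := mem_fib.1 hH
  have tr : Tr u v A' = Tr u v H := Tr_eq h.1 hA' m k.symm
  have mO : ∀ a b, a ≠ w → a ≠ x → b ≠ w → b ≠ x → k2 u v w x (sw u v a b H) = k2 u v w x A' ∧
      cexp (Om d) κ g (sw u v a b H) = cexp (Om d) κ g H := fun a b a1 a2 b1 b2 =>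
    ⟨(k2_out h a1 a2 b1 b2).trans hR, by
      rw [← cexp_comp (fun _ => sw_mem) (fun _ _ => sw_sw) (hO a b a1 a2 b1 b2) g m]
      exact cexp_local _ (fun B hB => hg _ (sw_mem hB) B hB (k2_out h a1 a2 b1 b2)) H⟩
  have mD : ∀ z, z ≠ w → z ≠ x → k2 u v w x (od u v w x z H) = k2 u v w x A' ∧
      cexp (Om d) κ g (od u v w x z H) = cexp (Om d) κ g H := fun z z1 z2 =>
    ⟨(k2_od h).trans hR, by
      rw [← cexp_comp (fun _ => od_mem) (fun _ _ => od_od h) (hodd z z1 z2) g m]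
      exact cexp_local _ (fun B hB => hg _ (od_mem hB) B hB (k2_od h)) H⟩
  obtain ⟨a, ha, b, hb', p1, p2, p3, p4⟩ := hb.exists_pair hH (mem_fib.2 ⟨hA', rfl⟩) hne
  have q1 : H u a ≠ A' u a := by simp [p1, p2]
  have q2 : H u b ≠ A' u b := by simp [p3, p4]
  have q3 : H u a ≠ H u b := by simp [p1, p3]
  have hab : a ≠ b := fun e => q3 (by rw [e])
  have ta := (mem_Tr.1 (tr ▸ ha)).2.2
  have tb := (mem_Tr.1 (tr ▸ hb')).2.2
  obtain ⟨huv, hwx, h1, h2, h3, h4⟩ := h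
  by_cases c : H u w ≠ H v w ∧ H u x ≠ H v x
  · have wT : w ∈ Tr u v A' := tr ▸ mem_Tr.2 ⟨h1, h2, c.1⟩
    have xT : x ∈ Tr u v A' := tr ▸ mem_Tr.2 ⟨h3, h4, c.2⟩
    have cnt := congrArg Prod.snd hR
    simp only [k2, if_pos c, if_pos (And.intro (mem_Tr.1 wT).2.2 (mem_Tr.1 xT).2.2)] at cnt
    by_cases c1 : H u w = A' u w
    · have c2 : H u x = A' u x := by
        rw [c1] at cnt; revert cnt; cases H u x <;> cases A' u x <;> simp
      exact ⟨a, ha, b, hb', q1, q2, q3, mO a b (fun e => q1 (e ▸ c1)) (fun e => q1 (e ▸ c2))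
        (fun e => q2 (e ▸ c1)) (fun e => q2 (e ▸ c2))⟩
    · refine ⟨w, wT, x, xT, c1, ?_, ?_, k2_sw.trans hR,
        meas_cexp _ κ g _ (sw_mem m) H m (hP H m)⟩
      · revert cnt c1; cases H u w <;> cases A' u w <;> cases H u x <;> cases A' u x <;> simp
      · revert cnt c1; cases H u w <;> cases A' u w <;> cases H u x <;> cases A' u x <;> simp
  refine ⟨a, ha, b, hb', q1, q2, q3, ?_⟩
  have odw : ∀ z, H u w ≠ H v w → od u v w x z H = sw u v w z H := fun z e =>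
    if_pos ⟨e, not_not.1 fun e' => c ⟨e, e'⟩⟩
  have odx : ∀ z, H u x ≠ H v x → od u v w x z H = sw u v x z H := fun z e =>
    (if_neg fun e' => e e'.2).trans (if_pos ⟨not_not.1 fun e' => c ⟨e', e⟩, e⟩)
  by_cases a1 : a = w
  · subst a1; rw [← odw b ta]
    exact mD b hab.symm fun e => c ⟨ta, e ▸ tb⟩
  by_cases a2 : a = x
  · subst a2; rw [← odx b ta]
    exact mD b (fun e => c ⟨e ▸ tb, ta⟩) hab.symm
  by_cases b1 : b = w
  · subst b1; rw [sw_comm', ← odw a tb]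
    exact mD a a1 a2
  by_cases b2 : b = x
  · subst b2; rw [sw_comm', ← odx a tb]
    exact mD a a1 a2
  exact mO a b a1 a2 b1 b2

end Crest.Agent.SW
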