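import Crest.Agent.SW.Disj

set_option autoImplicit false
set_option linter.unusedSectionVars false
open Finset

namespace Crest.Agent.SW

variable {V : Type*} [DecidableEq V] [Fintype V]
variable {d : V → ℕ} {u v w x z : V} {A A' : V → V → Bool}

lemma ky_O (h : Dj u v w x) {a b : V} (a1 : a ≠ w) (a2 : a ≠ x) (b1 : b ≠ w) (b2 : b ≠ x)
    (e : ky w x A = ky w x A') : ky w x (sw u v a b A) = ky w x (sw u v a b A') := by
  obtain ⟨-, -, h1, h2, h3, h4⟩ := h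
  have k := ky_eq_iff.1 e
  have hP : PT u v a b A ↔ PT u v a b A' := by
    unfold PT
    rw [k u a (by simp [a1, a2, h1.symm, h3.symm]), k u b (by simp [b1, b2, h1.symm, h3.symm]),
      k v a (by simp [a1, a2, h2.symm, h4.symm]), k v b (by simp [b1, b2, h2.symm, h4.symm])]
  exact ky_eq_iff.2 fun p q e => by simp only [sw, hP, k p q e]

lemma k2_O (h : Dj u v w x) {a b : V} (a1 : a ≠ w) (a2 : a ≠ x) (b1 : b ≠ w) (b2 : b ≠ x)
    (e : k2 w x u v A = k2 w x u v A') :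
    k2 w x u v (sw u v a b A) = k2 w x u v (sw u v a b A') := by
  have k := ky_O h a1 a2 b1 b2 (congrArg Prod.fst e)
  obtain ⟨-, -, h1, h2, h3, h4⟩ := h
  have r : ∀ (B : V → V → Bool) p q, (p = w ∨ p = x) → sw u v a b B p q = B p q := by
    intro B p q hp
    unfold sw
    rw [if_neg]
    rintro ⟨-, ⟨c1, -⟩ | ⟨-, c2⟩⟩
    · rcases hp with rfl | rfl <;> tauto
    · rcases hp with rfl | rfl <;> tauto
  refine Prod.ext k ?_
  simpa only [k2, r _ w _ (Or.inl rfl), r _ x _ (Or.inr rfl)] using congrArg Prod.snd e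

lemma sw_z (hw : w ≠ u ∧ w ≠ v) {p q : V} (e : p = w ↔ q = w) : sw u v w z A p q =
    if PT u v w z A ∧ (((p = u ∨ p = v) ∧ q = z) ∨ ((q = u ∨ q = v) ∧ p = z)) ∧ z ≠ w then !A p q
    else A p q := by
  unfold sw
  congr 1
  apply propext
  refine and_congr_right fun hP => ?_
  have := hP.dj.2.1
  constructor
  · rintro (⟨c1, c2 | c2⟩ | ⟨c1, c2 | c2⟩)
    · rw [e.2 c2] at c1; tauto
    · exact ⟨Or.inl ⟨c1, c2⟩, this.symm⟩
    · rw [e.1 c2] at c1; tauto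
    · exact ⟨Or.inr ⟨c1, c2⟩, this.symm⟩
  · tauto

lemma od_val (h : Dj u v w x) (z1 : z ≠ w) (z2 : z ≠ x) {p q : V}
    (e : (p = w ∨ p = x) ↔ (q = w ∨ q = x)) : od u v w x z A p q =
    if (z ≠ u ∧ z ≠ v ∧ A u z ≠ A v z ∧ ((A u w ≠ A v w ∧ A u x = A v x ∧ A u w ≠ A u z) ∨
      (A u w = A v w ∧ A u x ≠ A v x ∧ A u x ≠ A u z))) ∧
      (((p = u ∨ p = v) ∧ q = z) ∨ ((q = u ∨ q = v) ∧ p = z)) then !A p q else A p q := by
  obtain ⟨-, hwx, h1, h2, h3, h4⟩ := h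
  by_cases hp : p = w ∨ p = x
  · have hq := e.1 hp
    have n : ¬ (((p = u ∨ p = v) ∧ q = z) ∨ ((q = u ∨ q = v) ∧ p = z)) := by
      rcases hp, hq with ⟨rfl | rfl, rfl | rfl⟩ <;> tauto
    have o : (p = u ∨ p = v) ↔ (q = u ∨ q = v) := by
      rcases hp, hq with ⟨rfl | rfl, rfl | rfl⟩ <;> tauto
    rw [if_neg fun c => n c.2]
    unfold od; split_ifs; exacts [sw_off o, sw_off o, rfl]
  have hq := mt e.2 hp
  push Not at hp hq
  unfold od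
  split_ifs with c1 c2 c3 c4 c5
  · rw [sw_z ⟨h1, h2⟩ (by simp [hp, hq]), if_pos]
    refine ⟨⟨h1, h2, c2.1.1, c2.1.2.1, c1.1, c2.1.2.2.1, ?_⟩, c2.2, z1⟩
    rcases c2.1.2.2.2 with c | c; exacts [c.2.2, absurd c.1 c1.1]
  · rw [sw_z ⟨h1, h2⟩ (by simp [hp, hq]), if_neg]
    rintro ⟨c, c', -⟩
    exact c2 ⟨⟨c.2.2.1, c.2.2.2.1, c.2.2.2.2.2.1, Or.inl ⟨c1.1, c1.2, c.2.2.2.2.2.2⟩⟩, c'⟩
  · rw [sw_z ⟨h3, h4⟩ (by simp [hp, hq]), if_pos]
    refine ⟨⟨h3, h4, c4.1.1, c4.1.2.1, c3.2, c4.1.2.2.1, ?_⟩, c4.2, z2⟩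
    rcases c4.1.2.2.2 with c | c; exacts [absurd c.2.1 c3.2, c.2.2]
  · rw [sw_z ⟨h3, h4⟩ (by simp [hp, hq]), if_neg]
    rintro ⟨c, c', -⟩
    exact c4 ⟨⟨c.2.2.1, c.2.2.2.1, c.2.2.2.2.2.1, Or.inr ⟨c3.1, c3.2, c.2.2.2.2.2.2⟩⟩, c'⟩
  · rcases c5.1.2.2.2 with c | c
    exacts [absurd ⟨c.1, c.2.1⟩ c1, absurd ⟨c.1, c.2.1⟩ c3]
  · rfl

lemma blk_rows (h : Dj u v w x) (hA : A ∈ Om d) (hA' : A' ∈ Om d) (e : ky w x A = ky w x A') :
    (A u w).toNat + (A u x).toNat = (A' u w).toNat + (A' u x).toNat ∧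
    (A v w).toNat + (A v x).toNat = (A' v w).toNat + (A' v x).toNat := by
  have r1 := ky_col h.2.1 hA hA' e h.2.2.1.symm h.2.2.2.2.1.symm
  have r2 := ky_col h.2.1 hA hA' e h.2.2.2.1.symm h.2.2.2.2.2.symm
  simp only [(mem_Om.1 hA).1 w, (mem_Om.1 hA).1 x, (mem_Om.1 hA').1 w, (mem_Om.1 hA').1 x] at r1 r2
  exact ⟨r1, r2⟩

set_option synthInstance.maxSize 4096 in
lemma bool_od : ∀ a b c d a' b' c' d' e f : Bool, a.toNat + c.toNat = a'.toNat + c'.toNat →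
    b.toNat + d.toNat = b'.toNat + d'.toNat →
    ((e ≠ f ∧ ((a ≠ b ∧ c = d ∧ a ≠ e) ∨ (a = b ∧ c ≠ d ∧ c ≠ e))) ↔
      (e ≠ f ∧ ((a' ≠ b' ∧ c' = d' ∧ a' ≠ e) ∨ (a' = b' ∧ c' ≠ d' ∧ c' ≠ e)))) := by
  decide

lemma ky_od (h : Dj u v w x) (z1 : z ≠ w) (z2 : z ≠ x) (hA : A ∈ Om d) (hA' : A' ∈ Om d)
    (e : ky w x A = ky w x A') : ky w x (od u v w x z A) = ky w x (od u v w x z A') := by
  have k := ky_eq_iff.1 e
  obtain ⟨r1, r2⟩ := blk_rows h hA hA' e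
  refine ky_eq_iff.2 fun p q e => ?_
  rw [od_val h z1 z2 e, od_val h z1 z2 e, k p q e]
  obtain ⟨-, -, h1, h2, h3, h4⟩ := h
  rw [k u z (by simp [z1, z2, h1.symm, h3.symm]), k v z (by simp [z1, z2, h2.symm, h4.symm])]
  simp only [bool_od _ _ _ _ _ _ _ _ (A' u z) (A' v z) r1 r2]

lemma bool_od2 : ∀ a b c d : Bool, ((a ≠ b ∧ c = d) ∨ (a = b ∧ c ≠ d)) → ¬ (a ≠ c ∧ b ≠ d) := by
  decide

lemma bool_od3 : ∀ a b c d a' b' c' d' : Bool, a.toNat + c.toNat = a'.toNat + c'.toNat →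
    b.toNat + d.toNat = b'.toNat + d'.toNat → ((a ≠ b ∧ c = d) ∨ (a = b ∧ c ≠ d)) →
    ((a' ≠ b' ∧ c' = d') ∨ (a' = b' ∧ c' ≠ d')) := by
  decide

lemma k2_od' (h : Dj u v w x) (z1 : z ≠ w) (z2 : z ≠ x) (hA : A ∈ Om d) (hA' : A' ∈ Om d)
    (e : k2 w x u v A = k2 w x u v A') :
    k2 w x u v (od u v w x z A) = k2 w x u v (od u v w x z A') := by
  have k := ky_od h z1 z2 hA hA' (congrArg Prod.fst e)
  obtain ⟨r1, r2⟩ := blk_rows h hA hA' (congrArg Prod.fst e)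
  have odd : ∀ B ∈ Om d, ((B u w ≠ B v w ∧ B u x = B v x) ∨ (B u w = B v w ∧ B u x ≠ B v x)) →
      (k2 w x u v (od u v w x z B)).2 = 0 := by
    intro B hB c
    have s := (mem_Om.1 (od_mem (u := u) (v := v) (w := w) (x := x) (z := z) hB)).1
    simp only [k2, s w, s x]
    refine if_neg (bool_od2 _ _ _ _ ?_)
    obtain ⟨-, -, h1, h2, h3, h4⟩ := h
    unfold od
    split_ifs <;> simpa only [ne_eq, sw_trade _ h1 h2, sw_trade _ h3 h4] using c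
  by_cases c : (A u w ≠ A v w ∧ A u x = A v x) ∨ (A u w = A v w ∧ A u x ≠ A v x)
  · exact Prod.ext k ((odd A hA c).trans (odd A' hA' (bool_od3 _ _ _ _ _ _ _ _ r1 r2 c)).symm)
  · have c' := mt (bool_od3 _ _ _ _ _ _ _ _ r1.symm r2.symm) c
    rw [not_or] at c c'
    rw [od, if_neg c.1, if_neg c.2, od, if_neg c'.1, if_neg c'.2, e]

lemma pres1 (h : Dj u v w x) (g : (V → V → Bool) → ℝ) (hg : Meas (Om d) (k2 u v w x) g) :
    Meas (Om d) (k2 u v w x) (cexp (Om d) (ky w x) g) :=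
  pres h _ (fun _ _ a1 a2 b1 b2 _ _ _ _ e => ky_O h a1 a2 b1 b2 e)
    (fun A hA => by rw [← sw_symm (mem_Om.1 hA).1, ky_sw])
    (fun _ z1 z2 _ hA _ hA' e => ky_od h z1 z2 hA hA' e) g hg

lemma pres2 (h : Dj u v w x) (g : (V → V → Bool) → ℝ) (hg : Meas (Om d) (k2 u v w x) g) :
    Meas (Om d) (k2 u v w x) (cexp (Om d) (k2 w x u v) g) :=
  pres h _ (fun _ _ a1 a2 b1 b2 _ _ _ _ e => k2_O h a1 a2 b1 b2 e)
    (fun A hA => by rw [← sw_symm (mem_Om.1 hA).1, k2_sw])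
    (fun _ z1 z2 _ hA _ hA' e => k2_od' h z1 z2 hA hA' e) g hg

/-- the correction term -/
noncomputable def MM (d : V → ℕ) (u v w x : V) (F : (V → V → Bool) → ℝ) : (V → V → Bool) → ℝ :=
  cexp (Om d) (k2 u v w x) F - cexp (Om d) (ky u v) F

lemma MM_zero (h : Dj u v w x) (hA : A ∈ Om d) (c : ¬ (A u w ≠ A v w ∧ A u x ≠ A v x))
    (F : (V → V → Bool) → ℝ) : MM d u v w x F A = 0 := by
  have : fib (Om d) (k2 u v w x) A = fib (Om d) (ky u v) A := by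
    ext B
    simp only [mem_fib]
    refine and_congr_right fun hB => ⟨fun e => congrArg Prod.fst e, fun e => Prod.ext e ?_⟩
    have t := Tr_eq h.1 hB hA e
    simp only [k2]
    rw [if_neg c, if_neg fun c' => c ⟨?_, ?_⟩]
    · exact (mem_Tr.1 (t ▸ mem_Tr.2 ⟨h.2.2.1, h.2.2.2.1, c'.1⟩)).2.2
    · exact (mem_Tr.1 (t ▸ mem_Tr.2 ⟨h.2.2.2.2.1, h.2.2.2.2.2, c'.2⟩)).2.2
  simp only [MM, Pi.sub_apply, cexp_apply, this, sub_self]

lemma cross_pair (h : Dj u v w x) (F : (V → V → Bool) → ℝ) :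
    (∑ A ∈ Om d, (F A - F (sw u v w x A)) ^ 2) / 4 -
      (∑ A ∈ Om d, if PT u v w x A then MM d u v w x F A ^ 2 else 0) / 2 -
      (∑ A ∈ Om d, if PT w x u v A then MM d w x u v F A ^ 2 else 0) / 2 ≤
      ip (Om d) (Q d u v F) (Q d w x F) := by
  have := cross_lower (Ω := Om d) (κe := ky u v) (κe' := k2 u v w x) (κf := ky w x)
    (κf' := k2 w x u v) (fun _ _ e => congrArg Prod.fst e) (pres1 h) (pres1 h.symm) (pres2 h.symm)
    (τ := sw u v w x) (fun _ => sw_mem) (fun _ _ => sw_sw) (fun _ _ => k2_sw)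
    (fun A hA => by rw [← sw_symm (mem_Om.1 hA).1, ky_sw]) F
  refine le_trans ?_ this
  rw [sub_sub, sub_eq_add_neg, ← add_div, ← sum_add_distrib, sum_div _ _ 2, ← sum_neg_distrib]
  refine add_le_add le_rfl (sum_le_sum fun A hA => ?_)
  show _ ≤ MM d u v w x F A * MM d w x u v F A
  have s := (mem_Om.1 hA).1
  by_cases hP : PT u v w x A
  · rw [if_pos hP, if_pos (hP.symm s)]
    nlinarith [sq_nonneg (MM d u v w x F A + MM d w x u v F A)]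
  rw [if_neg hP, if_neg (mt (PT.symm s) hP)]
  by_cases c : A u w ≠ A v w ∧ A u x ≠ A v x
  · rw [MM_zero h.symm hA fun c' => hP ⟨h.2.2.1, h.2.2.2.1, h.2.2.2.2.1, h.2.2.2.2.2, c.1, c.2, by
      rw [s u, s u]; exact c'.1⟩]
    simp
  · rw [MM_zero h hA c]; simp

end Crest.Agent.SW
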