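import Crest.Agent.SW.Boch

set_option autoImplicit false
set_option linter.unusedSectionVars false
open Finset

namespace Crest.Agent.SW

variable {V : Type*} [DecidableEq V] [Fintype V]
variable {d : V → ℕ}

lemma split_sum {u v : V} (huv : u ≠ v) (c : V → V → ℝ) (hc : ∀ w x, c w x = c x w) :
    ∑ w, ∑ x, (if w ≠ x then c w x else 0) = ∑ w, ∑ x, (if Dj u v w x then c w x else 0) +
      2 * c u v + 2 * ∑ x, (if x ≠ u ∧ x ≠ v then c u x else 0) +
      2 * ∑ x, (if x ≠ u ∧ x ≠ v then c v x else 0) := by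
  have : ∀ w x, (if w ≠ x then c w x else 0) = (if Dj u v w x then c w x else 0) +
      (if x = v then if w = u then c u v else 0 else 0) +
      (if x = u then if w = v then c u v else 0 else 0) +
      (if w = u then if x ≠ u ∧ x ≠ v then c u x else 0 else 0) +
      (if w = v then if x ≠ u ∧ x ≠ v then c v x else 0 else 0) +
      (if x = u then if w ≠ u ∧ w ≠ v then c u w else 0 else 0) +
      (if x = v then if w ≠ u ∧ w ≠ v then c v w else 0 else 0) := by
    intro w x
    have hvu := huv.symm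
    by_cases w1 : w = u <;> by_cases w2 : w = v <;> by_cases x1 : x = u <;> by_cases x2 : x = v <;>
      simp_all [Dj, eq_comm]
  simp only [this, sum_add_distrib, sum_ite_eq', mem_univ, if_true]
  rw [sum_comm (f := fun w x => if w = u then if x ≠ u ∧ x ≠ v then c u x else 0 else 0),
    sum_comm (f := fun w x => if w = v then if x ≠ u ∧ x ≠ v then c v x else 0 else 0)]
  simp only [sum_ite_eq', mem_univ, if_true]
  ring

/-- twice the sum of the pair heat-bath generators -/
noncomputable def LL (d : V → ℕ) : ((V → V → Bool) → ℝ) →ₗ[ℝ] ((V → V → Bool) → ℝ) :=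
  ∑ u, ∑ v, if u ≠ v then LinearMap.id - cexp (Om d) (ky u v) else 0

lemma LL_apply (F : (V → V → Bool) → ℝ) :
    LL d F = ∑ u, ∑ v, if u ≠ v then Q d u v F else 0 := by
  simp only [LL, LinearMap.sum_apply]
  exact sum_congr rfl fun u _ => sum_congr rfl fun v _ => by split_ifs <;> rfl

lemma ip_ite_left (Ω : Finset (V → V → Bool)) (p : Prop) [Decidable p]
    (F G : (V → V → Bool) → ℝ) : ip Ω (if p then F else 0) G = if p then ip Ω F G else 0 := by
  split_ifs <;> simp [ip]

lemma ip_ite_right (Ω : Finset (V → V → Bool)) (p : Prop) [Decidable p]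
    (F G : (V → V → Bool) → ℝ) : ip Ω F (if p then G else 0) = if p then ip Ω F G else 0 := by
  split_ifs <;> simp [ip]

lemma ip_LL (F : (V → V → Bool) → ℝ) : ip (Om d) F (LL d F) =
    ∑ u, ∑ v, if u ≠ v then ip (Om d) (Q d u v F) (Q d u v F) else 0 := by
  simp only [LL_apply, ip_sum_right, ip_ite_right, Q, ip_sub_cexp_self]

theorem bochner (F : (V → V → Bool) → ℝ) :
    2 * ip (Om d) F (LL d F) ≤ ip (Om d) (LL d F) (LL d F) := by
  set O : V → V → V → ℝ := fun a b c =>
    if a ≠ b ∧ a ≠ c ∧ b ≠ c then ip (Om d) (Q d a b F) (Q d a c F) else 0 with hO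
  have o1 : ∑ a, ∑ b, ∑ c, O b a c = ∑ a, ∑ b, ∑ c, O a b c := sum_comm
  have o2 : ∑ a, ∑ b, ∑ c, O c a b = ∑ a, ∑ b, ∑ c, O a b c := by
    rw [sum_congr rfl fun a _ => sum_comm (f := fun b c => O c a b), sum_comm]
  have o3 : 0 ≤ ∑ a, ∑ b, ∑ c, (O a b c + O b a c + O c a b) :=
    sum_nonneg fun a _ => sum_nonneg fun b _ => sum_nonneg fun c _ => by
      by_cases h : a ≠ b ∧ a ≠ c ∧ b ≠ c
      · simp only [hO]
        rw [if_pos h, if_pos ⟨h.1.symm, h.2.2, h.2.1⟩, if_pos ⟨h.2.1.symm, h.2.2.symm, h.1⟩,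
          Q_comm b a, Q_comm c a, Q_comm c b]
        exact over_nonneg h.1 h.2.1 h.2.2 F
      · simp only [hO]
        rw [if_neg h, if_neg (by tauto), if_neg (by tauto)]; simp
  simp only [sum_add_distrib, o1, o2] at o3
  have e : ip (Om d) (LL d F) (LL d F) = ∑ u, ∑ v,
      (∑ w, ∑ x, (if Dj u v w x then ip (Om d) (Q d u v F) (Q d w x F) else 0) +
      2 * (if u ≠ v then ip (Om d) (Q d u v F) (Q d u v F) else 0) +
      2 * ∑ x, O u v x + 2 * ∑ x, O v u x) := by
    nth_rewrite 1 [LL_apply]
    simp only [ip_sum_left, ip_ite_left]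
    refine sum_congr rfl fun u _ => sum_congr rfl fun v _ => ?_
    by_cases h : u = v
    · simp [h, hO, Dj]
    rw [if_pos h, if_pos h, LL_apply]
    simp only [ip_sum_right, ip_ite_right]
    rw [split_sum h _ fun w x => by rw [Q_comm w x]]
    simp only [hO, ne_eq, h, Ne.symm h, not_false_eq_true, true_and, Q_comm v u, eq_comm, and_comm]
  rw [e, ip_LL]
  simp only [sum_add_distrib, ← mul_sum, o1]
  linarith [disj_nonneg (d := d) F]

lemma pair_le {u v : V} (huv : u ≠ v) (F : (V → V → Bool) → ℝ) :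
    8 * ip (Om d) (Q d u v F) (Q d u v F) ≤ ∑ w, ∑ x, ∑ A ∈ Om d, (F A - F (sw u v w x A)) ^ 2 := by
  have := sum_nonneg_of_fib (Ω := Om d) (ky u v) (fun A => ∑ w, ∑ x,
    (F A - F (sw u v w x A)) ^ 2 - 8 * Q d u v F A ^ 2) fun A0 h0 => by
      have a := fib_gap huv h0 F
      rw [sum_sub_distrib, sum_comm, ← mul_sum]
      simp only [sum_comm (s := fib (Om d) (ky u v) A0)]
      by_cases t : 2 ≤ #(Tr u v A0)
      · have : (2 : ℝ) ≤ #(Tr u v A0) := by exact_mod_cast t
        nlinarith [sum_nonneg fun A (_ : A ∈ fib (Om d) (ky u v) A0) => sq_nonneg (Q d u v F A)]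
      · have hb := blp_pair huv h0
        have c : ∀ A ∈ fib (Om d) (ky u v) A0, Q d u v F A = Q d u v F A0 := fun A hA =>
          hb.conn _ (fun w hw x hx H hH => by
            rw [hb.fix hw hx hH (by rw [card_le_one.1 (by omega) w hw x hx])]) hA
            (mem_fib.2 ⟨h0, rfl⟩)
        have m := fib_mean (u := u) (v := v) A0 F h0
        rw [sum_congr rfl c, sum_const, nsmul_eq_mul, mul_eq_zero] at m
        rw [sum_eq_zero (f := fun A => Q d u v F A ^ 2) fun A hA => by
          rw [c A hA, m.resolve_left (fib_card_pos h0).ne']; simp]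
        simp only [mul_zero, sub_zero]
        positivity
  rw [sum_sub_distrib, sum_comm, ← mul_sum] at this
  simp only [sum_comm (s := Om d)] at this
  simp only [ip, ← sq]
  linarith

/-- Poincaré inequality for switches -/
theorem poincare (F : (V → V → Bool) → ℝ) (hF : ∑ A ∈ Om d, F A = 0) :
    16 * ∑ A ∈ Om d, F A ^ 2 ≤ ∑ u, ∑ v, ∑ w, ∑ x, ∑ A ∈ Om d, (F A - F (sw u v w x A)) ^ 2 := by
  have key := gap_of_eigen (Om d) (LL d) (fun F F' e x hx => by
      simp only [LL_apply, Finset.sum_apply]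
      refine sum_congr rfl fun u _ => sum_congr rfl fun v _ => ?_
      split_ifs
      · simp only [Q, Pi.sub_apply, e x hx, cexp_local _ e x]
      · rfl)
    (fun F G => by
      simp only [LL_apply, ip_sum_left, ip_sum_right, ip_ite_left, ip_ite_right, Q, ip_sub_left,
        ip_sub_right, ip_cexp]) 2
    (fun μ g hg => by
      have e1 : ip (Om d) g (LL d g) = μ * ip (Om d) g g := by
        simp only [ip, mul_sum]; exact sum_congr rfl fun A hA => by rw [hg A hA]; ring
      have e2 : ip (Om d) (LL d g) (LL d g) = μ ^ 2 * ip (Om d) g g := by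
        simp only [ip, mul_sum]; exact sum_congr rfl fun A hA => by rw [hg A hA]; ring
      have b := bochner (d := d) g
      rw [e1, e2] at b
      by_cases h2 : 2 ≤ μ
      · exact Or.inl h2
      right
      have p := ip_self_nonneg (Om d) g
      have z : ip (Om d) g (LL d g) ≤ 0 := by
        rw [e1]; by_contra c; push Not at c h2; nlinarith
      rw [ip_LL] at z
      have nn : ∀ u v, 0 ≤ if u ≠ v then ip (Om d) (Q d u v g) (Q d u v g) else 0 := fun u v => by
        split_ifs; exacts [ip_self_nonneg _ _, le_rfl]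
      have z2 : ∀ u v, u ≠ v → ∀ A ∈ Om d, g A = cexp (Om d) (ky u v) g A := by
        intro u v huv A hA
        have t := ((single_le_sum (fun v _ => nn u v) (mem_univ v)).trans (single_le_sum
          (fun u _ => sum_nonneg fun v _ => nn u v) (mem_univ u))).trans z
        rw [if_pos huv] at t
        have := (single_le_sum (fun A _ => mul_self_nonneg (Q d u v g A)) hA).trans t
        exact sub_eq_zero.1 (mul_self_eq_zero.1 (le_antisymm this (mul_self_nonneg _)))
      rcases (Om d).eq_empty_or_nonempty with e | ⟨A0, h0⟩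
      · exact ⟨0, by simp [e]⟩
      refine ⟨g A0, fun A hA => connected g (fun u v w x A hA => ?_) hA h0⟩
      by_cases huv : u = v
      · rw [sw_of_not fun c => c.dj.1 huv]
      · rw [z2 u v huv _ (sw_mem hA), z2 u v huv A hA]
        exact meas_cexp _ _ g _ (sw_mem hA) A hA ky_sw) F hF
  rw [ip_LL] at key
  have := sum_le_sum fun u (_ : u ∈ univ) => sum_le_sum fun v (_ : v ∈ univ) =>
    (show 8 * (if u ≠ v then ip (Om d) (Q d u v F) (Q d u v F) else 0) ≤
      ∑ w, ∑ x, ∑ A ∈ Om d, (F A - F (sw u v w x A)) ^ 2 by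
      split_ifs with h
      · exact pair_le h F
      · simp only [mul_zero]; positivity)
  simp only [← mul_sum] at this
  simp only [ip, ← sq] at key this
  linarith

end Crest.Agent.SW
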