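import Crest.Agent.SW.Three2

set_option autoImplicit false
set_option linter.unusedSectionVars false
open Finset

namespace Crest.Agent.SW

variable {V : Type*} [DecidableEq V] [Fintype V]

/-- adjacency matrices of simple graphs with degrees `d` -/
def Om (d : V → ℕ) : Finset (V → V → Bool) :=
  univ.filter fun A => (∀ a b, A a b = A b a) ∧ (∀ a, A a a = false) ∧
    ∀ a, ∑ b, (A a b).toNat = d a

lemma mem_Om {d : V → ℕ} {A : V → V → Bool} : A ∈ Om d ↔ (∀ a b, A a b = A b a) ∧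
    (∀ a, A a a = false) ∧ ∀ a, ∑ b, (A a b).toNat = d a := by simp [Om]

/-- the switch is available -/
def PT (u v w x : V) (A : V → V → Bool) : Prop :=
  w ≠ u ∧ w ≠ v ∧ x ≠ u ∧ x ≠ v ∧ A u w ≠ A v w ∧ A u x ≠ A v x ∧ A u w ≠ A u x

instance (u v w x : V) (A : V → V → Bool) : Decidable (PT u v w x A) := by
  unfold PT; infer_instance

/-- the switch on the block `{u,v} × {w,x}` -/
def sw (u v w x : V) (A : V → V → Bool) : V → V → Bool := fun a b =>
  if PT u v w x A ∧ (((a = u ∨ a = v) ∧ (b = w ∨ b = x)) ∨ ((b = u ∨ b = v) ∧ (a = w ∨ a = x)))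
  then !A a b else A a b

/-- everything that a trade between `u` and `v` keeps -/
def ky (u v : V) (A : V → V → Bool) : V → V → Bool := fun a b =>
  if ((a = u ∨ a = v) ↔ (b = u ∨ b = v)) then A a b else false

variable {d : V → ℕ} {u v w x : V} {A A' : V → V → Bool}

lemma sw_of_not (h : ¬ PT u v w x A) : sw u v w x A = A := by
  funext a b; simp [sw, h]

lemma PT.symm (hA : ∀ a b, A a b = A b a) (h : PT u v w x A) : PT w x u v A := by
  obtain ⟨h1, h2, h3, h4, h5, h6, h7⟩ := h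
  refine ⟨h1.symm, h3.symm, h2.symm, h4.symm, ?_, ?_, ?_⟩
  · rwa [hA w, hA x]
  · rw [hA w, hA x]; revert h5 h6 h7
    cases A u w <;> cases A v w <;> cases A u x <;> cases A v x <;> simp
  · rwa [hA w, hA w]

lemma sw_symm (hA : ∀ a b, A a b = A b a) : sw w x u v A = sw u v w x A := by
  funext a b
  have : PT w x u v A ↔ PT u v w x A := ⟨PT.symm hA, PT.symm hA⟩
  simp only [sw, this]
  congr 1; apply propext; tauto

lemma sw_comm : sw v u w x A = sw u v w x A := by
  funext a b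
  have : PT v u w x A ↔ PT u v w x A := by
    unfold PT
    cases A u w <;> cases A v w <;> cases A u x <;> cases A v x <;> simp <;> tauto
  simp only [sw, this, or_comm]

lemma sw_comm' : sw u v x w A = sw u v w x A := by
  funext a b
  have : PT u v x w A ↔ PT u v w x A := by
    unfold PT
    cases A u w <;> cases A v w <;> cases A u x <;> cases A v x <;> simp <;> tauto
  simp only [sw, this, or_comm]

/-- a row of the pair is permuted by the switch -/
lemma sw_row (hw : w ≠ u ∧ w ≠ v ∧ A u w ≠ A v w) (hx : x ≠ u ∧ x ≠ v ∧ A u x ≠ A v x) {a : V}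
    (ha : a = u ∨ a = v) (b : V) : sw u v w x A a b = A a (Equiv.swap w x b) := by
  have a1 : a ≠ w := by rcases ha with rfl | rfl; exacts [hw.1.symm, hw.2.1.symm]
  have a2 : a ≠ x := by rcases ha with rfl | rfl; exacts [hx.1.symm, hx.2.1.symm]
  have hP : PT u v w x A ↔ A a w ≠ A a x := by
    have h5 := hw.2.2
    have h6 := hx.2.2
    simp only [PT, hw.1, hw.2.1, hx.1, hx.2.1, h5, h6, ne_eq, not_false_eq_true, true_and]
    rcases ha with rfl | rfl
    · rfl
    · revert h5 h6; cases A u w <;> cases A a w <;> cases A u x <;> cases A a x <;> simp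
  simp only [sw, hP, ha, a1, a2, true_and, or_self, and_false, or_false, Equiv.swap_apply_def]
  by_cases b1 : b = w
  · subst b1; cases h1 : A a b <;> cases h2 : A a x <;> simp [h1, h2]
  by_cases b2 : b = x
  · subst b2; cases h1 : A a b <;> cases h2 : A a w <;> simp [h1, h2, b1]
  simp [b1, b2]

lemma sw_off {a b : V} (h : (a = u ∨ a = v) ↔ (b = u ∨ b = v)) : sw u v w x A a b = A a b := by
  unfold sw
  rw [if_neg]
  rintro ⟨⟨h1, h2, h3, h4, -⟩, ⟨c1, c2⟩ | ⟨c1, c2⟩⟩
  · rcases c2 with rfl | rfl <;> tauto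
  · rcases c2 with rfl | rfl <;> tauto

lemma sw_off' {a b : V} (ha : a ≠ w) (ha' : a ≠ x) (hb : b ≠ w) (hb' : b ≠ x) :
    sw u v w x A a b = A a b := by
  simp [sw, ha, ha', hb, hb']

lemma sw_sym (hA : ∀ a b, A a b = A b a) (a b : V) : sw u v w x A a b = sw u v w x A b a := by
  simp only [sw, hA a b, or_comm]

lemma sw_mem (hA : A ∈ Om d) : sw u v w x A ∈ Om d := by
  by_cases hP : PT u v w x A
  swap
  · rwa [sw_of_not hP]
  obtain ⟨h1, h2, h3⟩ := mem_Om.1 hA
  refine mem_Om.2 ⟨sw_sym h1, fun a => by rw [sw_off Iff.rfl, h2], fun a => ?_⟩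
  rw [← h3]
  by_cases a1 : a = u ∨ a = v
  · simp only [sw_row ⟨hP.1, hP.2.1, hP.2.2.2.2.1⟩ ⟨hP.2.2.1, hP.2.2.2.1, hP.2.2.2.2.2.1⟩ a1]
    exact Equiv.sum_comp (Equiv.swap w x) fun b => (A a b).toNat
  by_cases a2 : a = w ∨ a = x
  · have hP' := hP.symm h1
    rw [← sw_symm h1]
    simp only [sw_row ⟨hP'.1, hP'.2.1, hP'.2.2.2.2.1⟩ ⟨hP'.2.2.1, hP'.2.2.2.1, hP'.2.2.2.2.2.1⟩ a2]
    exact Equiv.sum_comp (Equiv.swap u v) fun b => (A a b).toNat
  simp [sw, a1, a2]

lemma ky_sw : ky u v (sw u v w x A) = ky u v A := by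
  funext a b; unfold ky; split_ifs with h
  · exact sw_off h
  · rfl

lemma ky_comm : ky v u = ky u v := by
  funext A a b; simp only [ky, or_comm]

lemma ky_eq_iff : ky u v A = ky u v A' ↔
    ∀ a b, ((a = u ∨ a = v) ↔ (b = u ∨ b = v)) → A a b = A' a b := by
  refine ⟨fun h a b e => ?_, fun h => ?_⟩
  · have := congrFun (congrFun h a) b
    simpa only [ky, if_pos e] using this
  · funext a b; unfold ky; split_ifs with e
    · exact h a b e
    · rfl

lemma deg_split (hA : A ∈ Om d) (hA' : A' ∈ Om d) (a : V) (S : Finset V)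
    (h : ∀ b, b ∉ S → A a b = A' a b) : ∑ b ∈ S, (A a b).toNat = ∑ b ∈ S, (A' a b).toNat := by
  have e := ((mem_Om.1 hA).2.2 a).trans ((mem_Om.1 hA').2.2 a).symm
  rw [← sum_add_sum_compl S, ← sum_add_sum_compl S,
    sum_congr (s₁ := Sᶜ) rfl fun b hb => by rw [h b (mem_compl.1 hb)]] at e
  exact Nat.add_right_cancel e

lemma ky_col (huv : u ≠ v) (hA : A ∈ Om d) (hA' : A' ∈ Om d) (h : ky u v A = ky u v A') {c : V}
    (cu : c ≠ u) (cv : c ≠ v) :
    (A u c).toNat + (A v c).toNat = (A' u c).toNat + (A' v c).toNat := by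
  have := deg_split hA hA' c {u, v} fun b hb => ky_eq_iff.1 h c b (by
    simp only [mem_insert, mem_singleton] at hb; simp [cu, cv, hb])
  rwa [sum_pair huv, sum_pair huv, (mem_Om.1 hA).1 c, (mem_Om.1 hA).1 c, (mem_Om.1 hA').1 c,
    (mem_Om.1 hA').1 c] at this

/-- tradeable columns -/
def Tr (u v : V) (A : V → V → Bool) : Finset V :=
  univ.filter fun c => c ≠ u ∧ c ≠ v ∧ A u c ≠ A v c

lemma mem_Tr {c : V} : c ∈ Tr u v A ↔ c ≠ u ∧ c ≠ v ∧ A u c ≠ A v c := by simp [Tr]

lemma Tr_eq (huv : u ≠ v) (hA : A ∈ Om d) (hA' : A' ∈ Om d) (h : ky u v A = ky u v A') :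
    Tr u v A = Tr u v A' := by
  ext c
  simp only [mem_Tr]
  refine and_congr_right fun cu => and_congr_right fun cv => ?_
  have := ky_col huv hA hA' h cu cv
  revert this
  cases A u c <;> cases A v c <;> cases A' u c <;> cases A' v c <;> simp

lemma ky_nt (huv : u ≠ v) (hA : A ∈ Om d) (hA' : A' ∈ Om d) (h : ky u v A = ky u v A') {c : V}
    (hc : c ∉ Tr u v A) : A u c = A' u c ∧ A v c = A' v c := by
  by_cases e : c = u ∨ c = v
  · exact ⟨ky_eq_iff.1 h _ _ (by simp [e]), ky_eq_iff.1 h _ _ (by simp [e])⟩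
  push Not at e
  have := ky_col huv hA hA' h e.1 e.2
  simp only [mem_Tr, e.1, e.2, ne_eq, not_false_eq_true, true_and, not_not] at hc
  revert this hc
  cases A u c <;> cases A v c <;> cases A' u c <;> cases A' v c <;> simp

lemma toNat_sum (S : Finset V) (f : V → Bool) :
    #(S.filter fun c => f c = true) = ∑ c ∈ S, (f c).toNat := by
  rw [card_filter]; exact sum_congr rfl fun c _ => by cases f c <;> rfl

theorem blp_pair (huv : u ≠ v) {A0 : V → V → Bool} (h0 : A0 ∈ Om d) :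
    BLP (fib (Om d) (ky u v) A0) (Tr u v A0) (fun A => A u) (sw u v) := by
  have tr : ∀ A ∈ fib (Om d) (ky u v) A0, Tr u v A0 = Tr u v A := fun A hA =>
    Tr_eq huv h0 (mem_fib.1 hA).1 (mem_fib.1 hA).2.symm
  refine ⟨fun w _ x _ A hA => mem_fib.2 ⟨sw_mem (mem_fib.1 hA).1, ky_sw.trans (mem_fib.1 hA).2⟩,
    fun w hw x hx A hA c _ => ?_, fun A hA A' hA' e => ?_, fun A hA A' hA' => ?_⟩
  · rw [tr A hA] at hw hx
    exact sw_row (mem_Tr.1 hw) (mem_Tr.1 hx) (Or.inl rfl) c
  · have m := (mem_fib.1 hA).1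
    have m' := (mem_fib.1 hA').1
    have k : ky u v A = ky u v A' := (mem_fib.1 hA).2.trans (mem_fib.1 hA').2.symm
    have r : ∀ c, A u c = A' u c ∧ A v c = A' v c := by
      intro c
      by_cases hc : c ∈ Tr u v A0
      · have e1 : A u c = A' u c := e c hc
        have := ky_col huv m m' k (mem_Tr.1 hc).1 (mem_Tr.1 hc).2.1
        rw [e1] at this
        refine ⟨e1, ?_⟩
        revert this; cases A v c <;> cases A' v c <;> simp
      · exact ky_nt huv m m' k (tr A hA ▸ hc)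
    funext a b
    by_cases a1 : a = u ∨ a = v
    · rcases a1 with rfl | rfl; exacts [(r b).1, (r b).2]
    by_cases b1 : b = u ∨ b = v
    · rw [(mem_Om.1 m).1 a, (mem_Om.1 m').1 a]
      rcases b1 with rfl | rfl; exacts [(r a).1, (r a).2]
    exact ky_eq_iff.1 k a b (by simp [a1, b1])
  · rw [toNat_sum, toNat_sum]
    exact deg_split (mem_fib.1 hA).1 (mem_fib.1 hA').1 u _ fun b hb =>
      (ky_nt huv (mem_fib.1 hA).1 (mem_fib.1 hA').1
        ((mem_fib.1 hA).2.trans (mem_fib.1 hA').2.symm) (tr A hA ▸ hb)).1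

end Crest.Agent.SW
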