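import Crest.Agent.SW.Graph

set_option autoImplicit false
set_option linter.unusedSectionVars false
open Finset

namespace Crest.Agent.SW

variable {V : Type*} [DecidableEq V] [Fintype V]

/-- key of a triple of vertices -/
def k3 (t : Fin 3 → V) (A : V → V → Bool) : (V → V → Bool) × ℕ :=
  (fun a b => if (∀ l, a ≠ t l) ∧ (∀ l, b ≠ t l) then A a b else false,
    ∑ l, (A (t (l + 1)) (t (l + 2))).toNat)

/-- three-row matrix of a triple, with the inner edges stored in the column `t 0` -/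
def y3 (t : Fin 3 → V) (A : V → V → Bool) (i : Fin 3) (c : V) : Bool :=
  if (∀ l, c ≠ t l) then A (t i) c else if c = t 0 then !A (t (i + 1)) (t (i + 2)) else false

def s3 (t : Fin 3 → V) (i : Fin 3) (w x : V) (A : V → V → Bool) : V → V → Bool :=
  sw (t (i + 1)) (t (i + 2)) (if w = t 0 then t i else w) (if x = t 0 then t i else x) A

lemma fin3 : ∀ i : Fin 3, i + 1 + 1 = i + 2 ∧ i + 1 + 2 = i ∧ i + 2 + 1 = i ∧ i + 2 + 2 = i + 1 := by
  decide

variable {d : V → ℕ} {t : Fin 3 → V} {A A' : V → V → Bool}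

lemma out_iff (i : Fin 3) (c : V) : (∀ l, c ≠ t l) ↔ c ≠ t i ∧ c ≠ t (i + 1) ∧ c ≠ t (i + 2) := by
  refine ⟨fun h => ⟨h _, h _, h _⟩, fun h l => ?_⟩
  rcases cases3 (ne3 i).1 (ne3 i).2.1 (ne3 i).2.2 l with rfl | rfl | rfl
  exacts [h.1, h.2.1, h.2.2]

lemma y3_out {c : V} (h : ∀ l, c ≠ t l) (i : Fin 3) : y3 t A i c = A (t i) c := if_pos h

lemma y3_zero (i : Fin 3) : y3 t A i (t 0) = !A (t (i + 1)) (t (i + 2)) := by
  unfold y3; rw [if_neg (fun h => h 0 rfl), if_pos rfl]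

lemma y3_in {c : V} (h : ¬ ∀ l, c ≠ t l) (h0 : c ≠ t 0) (i : Fin 3) : y3 t A i c = false := by
  unfold y3; rw [if_neg h, if_neg h0]

lemma inner_sum (i : Fin 3) : ∑ l, (A (t (l + 1)) (t (l + 2))).toNat =
    (A (t (i + 1)) (t (i + 2))).toNat + (A (t (i + 2)) (t i)).toNat + (A (t i) (t (i + 1))).toNat := by
  rw [sum3 _ (ne3 i).1 (ne3 i).2.1 (ne3 i).2.2, (fin3 i).1, (fin3 i).2.1, (fin3 i).2.2.1,
    (fin3 i).2.2.2]

lemma k3_of_ky (ht : Function.Injective t) (i : Fin 3) (hA : A ∈ Om d) (hA' : A' ∈ Om d)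
    (h : ky (t (i + 1)) (t (i + 2)) A = ky (t (i + 1)) (t (i + 2)) A') :
    k3 t A = k3 t A' ∧ y3 t A i = y3 t A' i := by
  obtain ⟨n1, n2, n3⟩ := ne3 i
  have hk := ky_eq_iff.1 h
  refine ⟨Prod.ext ?_ ?_, ?_⟩
  · funext a b
    simp only [k3]
    split_ifs with e
    · exact hk a b (by simp [e.1 _, e.2 _])
    · rfl
  · simp only [k3]
    have := ky_col (ht.ne n3) hA hA' h (ht.ne n1) (ht.ne n2)
    rw [inner_sum i, inner_sum i, hk _ _ (by simp), (mem_Om.1 hA).1 (t i), (mem_Om.1 hA').1 (t i)]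
    omega
  · funext c
    by_cases hc : ∀ l, c ≠ t l
    · rw [y3_out hc, y3_out hc]
      exact hk _ _ (by simp [hc _, ht.ne n1, ht.ne n2])
    by_cases h0 : c = t 0
    · rw [h0, y3_zero, y3_zero, hk _ _ (by simp)]
    rw [y3_in hc h0, y3_in hc h0]

lemma k3_out (h : k3 t A = k3 t A') {a b : V} (ha : ∀ l, a ≠ t l) (hb : ∀ l, b ≠ t l) :
    A a b = A' a b := by
  have := congrFun (congrFun (congrArg Prod.fst h) a) b
  simpa only [k3, if_pos (And.intro ha hb)] using this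

lemma ky_of_k3 (i : Fin 3) (hA : A ∈ Om d) (hA' : A' ∈ Om d)
    (h : k3 t A = k3 t A') (hy : y3 t A i = y3 t A' i) :
    ky (t (i + 1)) (t (i + 2)) A = ky (t (i + 1)) (t (i + 2)) A' := by
  obtain ⟨s1, s2, -⟩ := mem_Om.1 hA
  obtain ⟨s1', s2', -⟩ := mem_Om.1 hA'
  have e0 : A (t (i + 1)) (t (i + 2)) = A' (t (i + 1)) (t (i + 2)) := by
    have := congrFun hy (t 0)
    rw [y3_zero, y3_zero] at this
    exact Bool.not_inj this
  have e1 : ∀ c, (∀ l, c ≠ t l) → A (t i) c = A' (t i) c := fun c hc => by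
    have := congrFun hy c
    rwa [y3_out hc, y3_out hc] at this
  refine ky_eq_iff.2 fun a b e => ?_
  by_cases ha : a = t (i + 1) ∨ a = t (i + 2)
  · rcases ha, e.1 ha with ⟨rfl | rfl, rfl | rfl⟩
    · rw [s2, s2']
    · exact e0
    · rw [s1, s1', e0]
    · rw [s2, s2']
  have hb := mt e.2 ha
  push Not at ha hb
  by_cases a1 : a = t i <;> by_cases b1 : b = t i
  · rw [a1, b1, s2, s2']
  · rw [a1]; exact e1 b ((out_iff i b).2 ⟨b1, hb⟩)
  · rw [b1, s1, s1']; exact e1 a ((out_iff i a).2 ⟨a1, ha⟩)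
  · exact k3_out h ((out_iff i a).2 ⟨a1, ha⟩) ((out_iff i b).2 ⟨b1, hb⟩)

lemma cexp_y3 (ht : Function.Injective t) (i : Fin 3) {A0 : V → V → Bool}
    (hA : A ∈ fib (Om d) (k3 t) A0) (F : (V → V → Bool) → ℝ) :
    cexp (fib (Om d) (k3 t) A0) (fun H => y3 t H i) F A =
      cexp (Om d) (ky (t (i + 1)) (t (i + 2))) F A := by
  have : fib (fib (Om d) (k3 t) A0) (fun H => y3 t H i) A =
      fib (Om d) (ky (t (i + 1)) (t (i + 2))) A := by
    ext A'
    simp only [mem_fib] at hA ⊢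
    refine ⟨fun h => ⟨h.1.1, ky_of_k3 i h.1.1 hA.1 (h.1.2.trans hA.2.symm) h.2⟩, fun h => ?_⟩
    have := k3_of_ky ht i h.1 hA.1 h.2
    exact ⟨⟨h.1, this.1.trans hA.2⟩, this.2⟩
  rw [cexp_apply, cexp_apply, this]

lemma y3_trade (ht : Function.Injective t) (i : Fin 3) (hA : ∀ a b, A a b = A b a) {w : V}
    (h : y3 t A (i + 1) w ≠ y3 t A (i + 2) w) :
    ((∀ l, w ≠ t l) ∨ w = t 0) ∧ (if w = t 0 then t i else w) ≠ t (i + 1) ∧
      (if w = t 0 then t i else w) ≠ t (i + 2) ∧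
      A (t (i + 1)) (if w = t 0 then t i else w) ≠ A (t (i + 2)) (if w = t 0 then t i else w) := by
  obtain ⟨n1, n2, n3⟩ := ne3 i
  by_cases hc : ∀ l, w ≠ t l
  · rw [y3_out hc, y3_out hc] at h
    rw [if_neg (hc 0)]
    exact ⟨Or.inl hc, hc _, hc _, h⟩
  by_cases h0 : w = t 0
  · rw [h0, y3_zero, y3_zero, (fin3 i).1, (fin3 i).2.1, (fin3 i).2.2.1, (fin3 i).2.2.2] at h
    rw [if_pos h0]
    refine ⟨Or.inr h0, ht.ne n1, ht.ne n2, fun e => h ?_⟩
    rw [← e, hA]
  rw [y3_in hc h0, y3_in hc h0] at h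
  exact absurd rfl h

/-- value of a tradeable column in the two trading rows -/
lemma y3_val (i : Fin 3) (hA : ∀ a b, A a b = A b a) {w : V} (hw : (∀ l, w ≠ t l) ∨ w = t 0)
    (h : A (t (i + 1)) (if w = t 0 then t i else w) ≠ A (t (i + 2)) (if w = t 0 then t i else w))
    {l : Fin 3} (hl : l = i + 1 ∨ l = i + 2) :
    y3 t A l w = A (t l) (if w = t 0 then t i else w) := by
  rcases hw with hc | h0
  · rw [y3_out hc, if_neg (hc 0)]
  rw [if_pos h0] at h ⊢
  rcases hl with rfl | rfl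
  · rw [h0, y3_zero, (fin3 i).1, (fin3 i).2.1]
    revert h; cases A (t (i + 1)) (t i) <;> cases A (t (i + 2)) (t i) <;> simp
  · rw [h0, y3_zero, (fin3 i).2.2.1, (fin3 i).2.2.2, hA (t i)]
    revert h; cases A (t (i + 1)) (t i) <;> cases A (t (i + 2)) (t i) <;> simp

theorem trp (ht : Function.Injective t) {A0 : V → V → Bool} :
    TRP (fib (Om d) (k3 t) A0) (y3 t) (s3 t) := by
  refine ⟨fun i w x A hA => ?_, fun i w x A hA hw hx l c => ?_, fun A hA A' hA' e => ?_,
    fun A hA A' hA' i => ?_, fun A hA A' hA' c => ?_⟩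
  · obtain ⟨m, k⟩ := mem_fib.1 hA
    exact mem_fib.2 ⟨sw_mem m, (k3_of_ky ht i (sw_mem m) m ky_sw).1.trans k⟩
  · obtain ⟨m, -⟩ := mem_fib.1 hA
    have sy := (mem_Om.1 m).1
    by_cases hl : l = i
    · rw [if_pos hl, hl]; exact congrFun (k3_of_ky ht i (sw_mem m) m ky_sw).2 c
    rw [if_neg hl]
    have hl' : l = i + 1 ∨ l = i + 2 :=
      (cases3 (ne3 i).1 (ne3 i).2.1 (ne3 i).2.2 l).resolve_left hl
    have hl2 : t l = t (i + 1) ∨ t l = t (i + 2) := hl'.imp (congrArg t) (congrArg t)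
    obtain ⟨w1, w2⟩ := y3_trade ht i sy hw
    obtain ⟨x1, x2⟩ := y3_trade ht i sy hx
    have row := fun a ha b => sw_row w2 x2 (a := a) ha b
    have sy' : ∀ a b, s3 t i w x A a b = s3 t i w x A b a := sw_sym sy
    by_cases c1 : c = w
    · rw [c1, Equiv.swap_apply_left, y3_val i sy x1 x2.2.2 hl', y3_val i sy' w1 (by
        unfold s3
        rw [row _ (Or.inl rfl), row _ (Or.inr rfl), Equiv.swap_apply_left]; exact x2.2.2) hl']
      unfold s3
      rw [row _ hl2, Equiv.swap_apply_left]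
    by_cases c2 : c = x
    · rw [c2, Equiv.swap_apply_right, y3_val i sy w1 w2.2.2 hl', y3_val i sy' x1 (by
        unfold s3
        rw [row _ (Or.inl rfl), row _ (Or.inr rfl), Equiv.swap_apply_right]; exact w2.2.2) hl']
      unfold s3
      rw [row _ hl2, Equiv.swap_apply_right]
    rw [Equiv.swap_apply_of_ne_of_ne c1 c2]
    by_cases hc : ∀ l, c ≠ t l
    · rw [y3_out hc, y3_out hc]
      unfold s3
      rw [row _ hl2, Equiv.swap_apply_of_ne_of_ne]
      · split_ifs; exacts [hc _, c1]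
      · split_ifs; exacts [hc _, c2]
    by_cases h0 : c = t 0
    · have ow : ∀ l, w ≠ t l := w1.resolve_right fun e => c1 (h0.trans e.symm)
      have ox : ∀ l, x ≠ t l := x1.resolve_right fun e => c2 (h0.trans e.symm)
      rw [h0, y3_zero, y3_zero]
      unfold s3
      rw [if_neg (ow 0), if_neg (ox 0), sw_off' (ow _).symm (ox _).symm (ow _).symm (ox _).symm]
    rw [y3_in hc h0, y3_in hc h0]
  · obtain ⟨m, k⟩ := mem_fib.1 hA
    obtain ⟨m', k'⟩ := mem_fib.1 hA'
    have kk := fun i => ky_eq_iff.1 (ky_of_k3 i m m' (k.trans k'.symm) (congrFun e i))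
    have r : ∀ i c, A (t i) c = A' (t i) c := by
      intro i c
      obtain ⟨n1, n2, n3⟩ := ne3 i
      by_cases c1 : c = t (i + 1)
      · exact kk (i + 2) _ _ (by simp [(fin3 i).2.2.1, (fin3 i).2.2.2, c1])
      by_cases c2 : c = t (i + 2)
      · exact kk (i + 1) _ _ (by simp [(fin3 i).1, (fin3 i).2.1, c2])
      exact kk i _ _ (by simp [c1, c2, ht.ne n1, ht.ne n2])
    funext a b
    by_cases ha : ∀ l, a ≠ t l
    · by_cases hb : ∀ l, b ≠ t l
      · exact k3_out (k.trans k'.symm) ha hb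
      · push Not at hb
        obtain ⟨l, rfl⟩ := hb
        rw [(mem_Om.1 m).1, (mem_Om.1 m').1, r]
    · push Not at ha
      obtain ⟨l, rfl⟩ := ha
      exact r l b
  · obtain ⟨m, k⟩ := mem_fib.1 hA
    obtain ⟨m', k'⟩ := mem_fib.1 hA'
    obtain ⟨n1, n2, n3⟩ := ne3 i
    have key : ∀ A ∈ Om d, #(univ.filter fun c => y3 t A i c = true) + (k3 t A).2 =
        d (t i) + 1 := by
      intro A m
      obtain ⟨s1, s2, s3⟩ := mem_Om.1 m
      have sp : ∀ f : V → ℕ, ∑ c, f c = ∑ l, f (t l) + ∑ c ∈ (univ.image t)ᶜ, f c := fun f => by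
        rw [← sum_add_sum_compl (univ.image t), sum_image fun _ _ _ _ e => ht e]
      have z : ∑ l, (y3 t A i (t l)).toNat = (!A (t (i + 1)) (t (i + 2))).toNat := by
        rw [Fin.sum_univ_three, y3_zero, y3_in (fun h => h 1 rfl) (ht.ne (by decide)),
          y3_in (fun h => h 2 rfl) (ht.ne (by decide))]
        rfl
      rw [toNat_sum, ← s3, sp, sp fun b => (A (t i) b).toNat, z, sum3 _ n1 n2 n3, s2,
        sum_congr (s₁ := (univ.image t)ᶜ) rfl fun c hc => by
          rw [y3_out fun l e => (mem_compl.1 hc) (mem_image.2 ⟨l, mem_univ _, e.symm⟩)]]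
      simp only [k3]
      rw [inner_sum i, s1 (t (i + 2)) (t i)]
      cases A (t (i + 1)) (t (i + 2)) <;> simp <;> omega
    have := (key A m).trans (key A' m').symm
    rw [k, k'] at this
    exact Nat.add_right_cancel this
  · obtain ⟨m, k⟩ := mem_fib.1 hA
    obtain ⟨m', k'⟩ := mem_fib.1 hA'
    unfold wt
    by_cases hc : ∀ l, c ≠ t l
    · simp only [y3_out hc]
      have := deg_split m m' c (univ.image t) fun b hb => k3_out (k.trans k'.symm) hc
        fun l e => hb (mem_image.2 ⟨l, mem_univ _, e.symm⟩)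
      rw [sum_image fun _ _ _ _ e => ht e, sum_image fun _ _ _ _ e => ht e] at this
      simpa only [(mem_Om.1 m).1 c, (mem_Om.1 m').1 c] using this
    by_cases h0 : c = t 0
    · have key : ∀ A : V → V → Bool, ∑ i, (y3 t A i (t 0)).toNat + (k3 t A).2 = 3 := by
        intro A
        simp only [k3, y3_zero, ← sum_add_distrib]
        rw [sum_congr rfl (g := fun _ => 1) fun i _ => by cases A (t (i + 1)) (t (i + 2)) <;> rfl]
        rfl
      have := (key A).trans (key A').symm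
      rw [k, k'] at this
      rw [h0]; exact Nat.add_right_cancel this
    simp only [y3_in hc h0]

/-- `Q u v = I - P_{uv}` -/
noncomputable def Q (d : V → ℕ) (u v : V) (F : (V → V → Bool) → ℝ) : (V → V → Bool) → ℝ :=
  F - cexp (Om d) (ky u v) F

lemma Q_comm (u v : V) : Q d u v = Q d v u := by
  funext F; rw [Q, Q, ky_comm]

theorem over_nonneg {a b c : V} (hab : a ≠ b) (hac : a ≠ c) (hbc : b ≠ c)
    (F : (V → V → Bool) → ℝ) :
    0 ≤ ip (Om d) (Q d a b F) (Q d a c F) + ip (Om d) (Q d a b F) (Q d b c F) +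
      ip (Om d) (Q d a c F) (Q d b c F) := by
  have ht : Function.Injective ![a, b, c] := by
    intro i j; fin_cases i <;> fin_cases j <;> simp [hab, hac, hbc, hab.symm, hac.symm, hbc.symm]
  simp only [ip, ← sum_add_distrib]
  refine sum_nonneg_of_fib (k3 ![a, b, c]) _ fun A0 _ => ?_
  have h := (trp (d := d) ht (A0 := A0)).ineq F
  have e : ∀ i j, ip (fib (Om d) (k3 ![a, b, c]) A0)
      (F - cexp (fib (Om d) (k3 ![a, b, c]) A0) (fun H => y3 ![a, b, c] H i) F)
      (F - cexp (fib (Om d) (k3 ![a, b, c]) A0) (fun H => y3 ![a, b, c] H j) F) =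
      ip (fib (Om d) (k3 ![a, b, c]) A0) (Q d (![a, b, c] (i + 1)) (![a, b, c] (i + 2)) F)
        (Q d (![a, b, c] (j + 1)) (![a, b, c] (j + 2)) F) := fun i j =>
    ip_congr (fun A hA => by simp only [Q, Pi.sub_apply, cexp_y3 ht i hA])
      (fun A hA => by simp only [Q, Pi.sub_apply, cexp_y3 ht j hA])
  simp only [e, Fin.sum_univ_three, Fin.reduceAdd, Matrix.cons_val, Q_comm c a] at h
  simp only [sum_add_distrib]
  rw [ip_comm _ (Q d b c F) (Q d a c F), ip_comm _ (Q d b c F) (Q d a b F),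
    ip_comm _ (Q d a c F) (Q d a b F)] at h
  simp only [ip] at h
  linarith

end Crest.Agent.SW
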