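import Crest.Agent.SW.BL2

set_option autoImplicit false
set_option linter.unusedSectionVars false
open Finset

namespace Crest.Agent.SW

variable {α C : Type*} [DecidableEq C] [Fintype C]

/-- column weight -/
def wt (M : Fin 3 → C → Bool) (c : C) : ℕ := ∑ i, (M i c).toNat

lemma sum3 {β : Type*} [AddCommMonoid β] (f : Fin 3 → β) {i j k : Fin 3} (hij : i ≠ j)
    (hik : i ≠ k) (hjk : j ≠ k) : ∑ l, f l = f i + f j + f k := by
  rw [Fin.sum_univ_three]
  fin_cases i <;> fin_cases j <;> fin_cases k <;> simp at hij hik hjk ⊢ <;> abel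

lemma cases3 : ∀ {i j k : Fin 3}, i ≠ j → i ≠ k → j ≠ k → ∀ l, l = i ∨ l = j ∨ l = k := by decide

lemma cases3' : ∀ {i j k : Fin 3}, i ≠ j → i ≠ k → j ≠ k →
    (j = i + 1 ∧ k = i + 2) ∨ (j = i + 2 ∧ k = i + 1) := by decide

lemma ne3 : ∀ i : Fin 3, i ≠ i + 1 ∧ i ≠ i + 2 ∧ i + 1 ≠ i + 2 := by decide

lemma cexp_le {K : Type*} [DecidableEq K] {Ω : Finset α} {κ : α → K} {F : α → ℝ} {x : α}
    (hx : x ∈ Ω) {m : ℝ} (h : ∀ y ∈ fib Ω κ x, F y ≤ m) : cexp Ω κ F x ≤ m := by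
  rw [cexp_apply, div_le_iff₀ (fib_card_pos hx), mul_comm, ← nsmul_eq_mul]
  exact sum_le_card_nsmul _ _ _ h

/-- presentation of a switch-closed family of three-row binary matrices with fixed margins -/
structure TRP (Ψ : Finset α) (y : α → Fin 3 → C → Bool) (s : Fin 3 → C → C → α → α) : Prop where
  mem : ∀ i w x, ∀ H ∈ Ψ, s i w x H ∈ Ψ
  val : ∀ i w x, ∀ H ∈ Ψ, y H (i + 1) w ≠ y H (i + 2) w → y H (i + 1) x ≠ y H (i + 2) x →
    ∀ l c, y (s i w x H) l c = if l = i then y H l c else y H l (Equiv.swap w x c)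
  inj : ∀ H ∈ Ψ, ∀ H' ∈ Ψ, y H = y H' → H = H'
  row : ∀ H ∈ Ψ, ∀ H' ∈ Ψ, ∀ i,
    #(univ.filter fun c => y H i c = true) = #(univ.filter fun c => y H' i c = true)
  col : ∀ H ∈ Ψ, ∀ H' ∈ Ψ, ∀ c, wt (y H) c = wt (y H') c

namespace TRP
variable {Ψ : Finset α} {y : α → Fin 3 → C → Bool} {s : Fin 3 → C → C → α → α}

lemma val' (h : TRP Ψ y s) {i j k : Fin 3} (hij : i ≠ j) (hik : i ≠ k) (hjk : j ≠ k) {w x : C}
    {H : α} (hH : H ∈ Ψ) (hw : y H j w ≠ y H k w) (hx : y H j x ≠ y H k x) :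
    y (s i w x H) i = y H i ∧ (y (s i w x H) j = fun c => y H j (Equiv.swap w x c)) ∧
      y (s i w x H) k = fun c => y H k (Equiv.swap w x c) := by
  have : ∀ l c, y (s i w x H) l c = if l = i then y H l c else y H l (Equiv.swap w x c) := by
    rcases cases3' hij hik hjk with ⟨rfl, rfl⟩ | ⟨rfl, rfl⟩
    · exact h.val i w x H hH hw hx
    · exact h.val i w x H hH hw.symm hx.symm
  refine ⟨funext fun c => ?_, funext fun c => ?_, funext fun c => ?_⟩
  · rw [this, if_pos rfl]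
  · rw [this, if_neg hij.symm]
  · rw [this, if_neg hik.symm]

lemma colsum (h : TRP Ψ y s) {i j k : Fin 3} (hij : i ≠ j) (hik : i ≠ k) (hjk : j ≠ k)
    {H H' : α} (hH : H ∈ Ψ) (hH' : H' ∈ Ψ) (c : C) :
    (y H i c).toNat + (y H j c).toNat + (y H k c).toNat = wt (y H') c := by
  rw [← h.col H hH H' hH' c, wt, sum3 _ hij hik hjk]

lemma blp (h : TRP Ψ y s) {i j k : Fin 3} (hij : i ≠ j) (hik : i ≠ k) (hjk : j ≠ k)
    {H0 : α} (hH0 : H0 ∈ Ψ) :
    (∀ H ∈ fib Ψ (fun H => y H i) H0, ∀ c, (y H j c ≠ y H k c ↔ y H0 j c ≠ y H0 k c)) ∧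
    BLP (fib Ψ (fun H => y H i) H0) (univ.filter fun c => y H0 j c ≠ y H0 k c)
      (fun H => y H j) (s i) := by
  have key : ∀ H ∈ fib Ψ (fun H => y H i) H0, ∀ c, (y H j c ≠ y H k c ↔ y H0 j c ≠ y H0 k c) ∧
      (y H0 j c = y H0 k c → y H j c = y H0 j c) := by
    intro H hH c
    obtain ⟨h1, h2⟩ := mem_fib.1 hH
    have e1 := h.colsum hij hik hjk h1 hH0 c
    have e2 := h.colsum hij hik hjk hH0 hH0 c
    rw [show y H i = y H0 i from h2, ← e2] at e1
    revert e1
    cases y H0 i c <;> cases y H0 j c <;> cases y H0 k c <;> cases y H j c <;> cases y H k c <;> simp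
  refine ⟨fun H hH c => (key H hH c).1, fun w hw x hx H hH => ?_, fun w hw x hx H hH c _ => ?_,
    fun H hH H' hH' e => ?_, fun H hH H' hH' => ?_⟩
  · exact mem_fib.2 ⟨h.mem _ _ _ _ (mem_fib.1 hH).1, (h.val' hij hik hjk (mem_fib.1 hH).1
      ((key H hH w).1.2 (mem_filter.1 hw).2) ((key H hH x).1.2 (mem_filter.1 hx).2)).1.trans
        (mem_fib.1 hH).2⟩
  · exact congrFun (h.val' hij hik hjk (mem_fib.1 hH).1
      ((key H hH w).1.2 (mem_filter.1 hw).2) ((key H hH x).1.2 (mem_filter.1 hx).2)).2.1 c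
  · have ej : ∀ c, y H j c = y H' j c := fun c => by
      by_cases hc : y H0 j c = y H0 k c
      · rw [(key H hH c).2 hc, (key H' hH' c).2 hc]
      · exact e c (mem_filter.2 ⟨mem_univ _, hc⟩)
    have ei : y H i = y H' i := (mem_fib.1 hH).2.trans (mem_fib.1 hH').2.symm
    refine h.inj H (mem_fib.1 hH).1 H' (mem_fib.1 hH').1 (funext fun l => ?_)
    rcases cases3 hij hik hjk l with rfl | rfl | rfl
    · exact ei
    · exact funext ej
    · funext c
      have e1 := h.colsum hij hik hjk (mem_fib.1 hH).1 hH0 c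
      have e2 := h.colsum hij hik hjk (mem_fib.1 hH').1 hH0 c
      rw [← e2, ei, ej] at e1
      revert e1; cases y H l c <;> cases y H' l c <;> simp
  · have split : ∀ H ∈ fib Ψ (fun H => y H i) H0, #(univ.filter fun c => y H j c = true) =
        #((univ.filter fun c => y H0 j c ≠ y H0 k c).filter fun c => y H j c = true) +
        #(univ.filter fun c => y H0 j c = y H0 k c ∧ y H0 j c = true) := by
      intro H hH
      rw [← card_filter_add_card_filter_not (s := univ.filter fun c => y H j c = true)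
        (fun c => y H0 j c ≠ y H0 k c), filter_comm]
      congr 2
      ext c
      simp only [mem_filter, mem_univ, true_and, not_not]
      rw [and_comm]
      exact and_congr_right fun e => by rw [(key H hH c).2 e]
    have := h.row H (mem_fib.1 hH).1 H' (mem_fib.1 hH').1 j
    rw [split H hH, split H' hH'] at this
    exact Nat.add_right_cancel this

lemma exists_swap (h : TRP Ψ y s) {c c' : C} {H : α} (hH : H ∈ Ψ) (e : wt (y H) c = wt (y H) c') :
    ∃ H' ∈ Ψ, ∀ l, y H' l = fun z => y H l (Equiv.swap c c' z) := by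
  have fixrow : ∀ l, y H l c = y H l c' → y H l = fun z => y H l (Equiv.swap c c' z) := by
    intro l e; funext z
    rw [Equiv.swap_apply_def]; split_ifs with h1 h2
    · rw [h1, e]
    · rw [h2, e]
    · rfl
  by_cases hi : ∃ i, y H (i + 1) c ≠ y H (i + 2) c ∧ y H (i + 1) c' ≠ y H (i + 2) c' ∧
      y H i c = y H i c'
  · obtain ⟨i, h1, h2, h3⟩ := hi
    refine ⟨_, h.mem i c c' H hH, fun l => funext fun z => ?_⟩
    rw [h.val i c c' H hH h1 h2]
    split_ifs with hl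
    · subst hl; exact congrFun (fixrow l h3) z
    · rfl
  · refine ⟨H, hH, fun l => fixrow l ?_⟩
    push Not at hi
    have h0 := hi 0
    have h1 := hi 1
    have h2 := hi 2
    simp only [wt, Fin.sum_univ_three] at e
    simp only [Fin.reduceAdd] at h0 h1 h2
    have : y H 0 c = y H 0 c' ∧ y H 1 c = y H 1 c' ∧ y H 2 c = y H 2 c' := by
      revert e h0 h1 h2
      cases y H 0 c <;> cases y H 1 c <;> cases y H 2 c <;> cases y H 0 c' <;>
        cases y H 1 c' <;> cases y H 2 c' <;> simp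
    fin_cases l
    exacts [this.1, this.2.1, this.2.2]

lemma eig (h : TRP Ψ y s) {v : α → ℝ} {lam : ℝ}
    (hv : ∀ H ∈ Ψ, ∑ l, cexp Ψ (fun H => y H l) v H = lam * v H) {i j k : Fin 3} (hij : i ≠ j)
    (hik : i ≠ k) (hjk : j ≠ k) {H : α} (hH : H ∈ Ψ) :
    (lam - 1) * cexp Ψ (fun H => y H i) v H =
      cexp Ψ (fun H => y H i) (cexp Ψ (fun H => y H j) v + cexp Ψ (fun H => y H k) v) H := by
  have e := cexp_local (Ω := Ψ) (fun H => y H i) (F := cexp Ψ (fun H => y H i) v +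
    (cexp Ψ (fun H => y H j) v + cexp Ψ (fun H => y H k) v)) (F' := lam • v) (fun H hH => by
      have := hv H hH
      rw [sum3 _ hij hik hjk] at this
      simp only [Pi.add_apply, Pi.smul_apply, smul_eq_mul]; linarith) H
  rw [map_add, map_smul, Pi.add_apply, cexp_of_meas (meas_cexp _ _ _) hH, Pi.smul_apply,
    smul_eq_mul] at e
  linarith

lemma stage1 (h : TRP Ψ y s) {v : α → ℝ} {lam : ℝ} (hl : 2 < lam)
    (hv : ∀ H ∈ Ψ, ∑ l, cexp Ψ (fun H => y H l) v H = lam * v H) {c c' : C} {H1 H2 : α}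
    (hH1 : H1 ∈ Ψ) (hH2 : H2 ∈ Ψ) (e : wt (y H1) c = wt (y H1) c') (l : Fin 3)
    (hr : y H2 l = fun z => y H1 l (Equiv.swap c c' z)) :
    cexp Ψ (fun H => y H l) v H2 = cexp Ψ (fun H => y H l) v H1 := by
  have ew : ∀ H ∈ Ψ, wt (y H) c = wt (y H) c' := fun H hH => by
    rw [h.col H hH H1 hH1, h.col H hH H1 hH1, e]
  choose! σ hσ hσv using fun H (hH : H ∈ Ψ) => h.exists_swap hH (ew H hH)
  have hσσ : ∀ H ∈ Ψ, σ (σ H) = H := fun H hH => h.inj _ (hσ _ (hσ H hH)) H hH (funext fun l => by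
    rw [hσv _ (hσ H hH), hσv H hH]; simp)
  set g : Fin 3 → α → ℝ := fun l => cexp Ψ (fun H => y H l) v with hg
  set δ : Fin 3 → α → ℝ := fun l H => g l H - g l (σ H) with hδ
  obtain ⟨⟨i, H0⟩, hH0, hmax⟩ := exists_max_image (univ ×ˢ Ψ) (fun p : Fin 3 × α => δ p.1 p.2)
    ⟨(l, H1), mem_product.2 ⟨mem_univ _, hH1⟩⟩
  have hH0' : H0 ∈ Ψ := (mem_product.1 hH0).2
  have hm : ∀ l, ∀ H ∈ Ψ, δ l H ≤ δ i H0 := fun l H hH =>
    hmax (l, H) (mem_product.2 ⟨mem_univ _, hH⟩)
  have hz : ∀ l, ∀ H ∈ Ψ, y H l c = y H l c' → δ l H = 0 := by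
    intro l H hH e
    refine sub_eq_zero.2 (meas_cexp Ψ _ v H hH _ (hσ H hH) ?_)
    show y H l = y (σ H) l
    rw [hσv H hH]; funext z
    rw [Equiv.swap_apply_def]; split_ifs with h1 h2
    · rw [h1, e]
    · rw [h2, e]
    · rfl
  have hle : δ i H0 ≤ 0 := by
    by_contra hpos
    push Not at hpos
    have hne : y H0 i c ≠ y H0 i c' := fun e => hpos.ne' (hz i H0 hH0' e)
    obtain ⟨hij, hik, hjk⟩ := ne3 i
    have e1 := h.eig hv hij hik hjk hH0'
    have e2 := h.eig hv hij hik hjk (hσ H0 hH0')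
    rw [← cexp_comp hσ hσσ (fun H hH H' hH' e => by
      show y (σ H) i = y (σ H') i
      rw [hσv H hH, hσv H' hH', show y H i = y H' i from e]) (g (i + 1) + g (i + 2)) hH0'] at e2
    have e3 : (lam - 1) * δ i H0 = cexp Ψ (fun H => y H i)
        ((g (i + 1) + g (i + 2)) - fun H => (g (i + 1) + g (i + 2)) (σ H)) H0 := by
      rw [map_sub, Pi.sub_apply, ← e1, ← e2]; simp only [hδ, hg]; ring
    have e4 := cexp_le (Ω := Ψ) (κ := fun H => y H i) (m := δ i H0)
      (F := (g (i + 1) + g (i + 2)) - fun H => (g (i + 1) + g (i + 2)) (σ H)) hH0' (fun H hH => by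
        obtain ⟨h1, h2⟩ := mem_fib.1 hH
        have c1 := h.colsum hij hik hjk h1 h1 c
        have c2 := h.colsum hij hik hjk h1 h1 c'
        rw [ew H h1, ← c2, show y H i = y H0 i from h2] at c1
        have : y H (i + 1) c = y H (i + 1) c' ∨ y H (i + 2) c = y H (i + 2) c' := by
          revert c1 hne
          cases y H0 i c <;> cases y H0 i c' <;> cases y H (i + 1) c <;> cases y H (i + 2) c <;>
            cases y H (i + 1) c' <;> cases y H (i + 2) c' <;> simp
        have m1 := hm (i + 1) H h1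
        have m2 := hm (i + 2) H h1
        show g (i + 1) H + g (i + 2) H - (g (i + 1) (σ H) + g (i + 2) (σ H)) ≤ _
        rcases this with e | e
        · have := hz _ H h1 e; simp only [hδ] at this m2 ⊢; linarith
        · have := hz _ H h1 e; simp only [hδ] at this m1 ⊢; linarith)
    nlinarith
  have a1 := hm l H1 hH1
  have a2 := hm l _ (hσ H1 hH1)
  have a3 : g l H2 = g l (σ H1) := meas_cexp Ψ _ v H2 hH2 _ (hσ H1 hH1) (by
    show y H2 l = y (σ H1) l
    rw [hr, hσv H1 hH1])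
  simp only [hδ, hσσ H1 hH1] at a1 a2 hle
  show g l H2 = g l H1
  linarith

end TRP
end Crest.Agent.SW
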