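import Crest.Agent.SW.Three

set_option autoImplicit false
set_option linter.unusedSectionVars false
open Finset

namespace Crest.Agent.SW

variable {α C : Type*} [DecidableEq C] [Fintype C]

namespace TRP
variable {Ψ : Finset α} {y : α → Fin 3 → C → Bool} {s : Fin 3 → C → C → α → α}

lemma half (h : TRP Ψ y s) {γ : Fin 3 → α → ℝ} {m : ℝ}
    (h1 : ∀ c c', ∀ H ∈ Ψ, ∀ H' ∈ Ψ, wt (y H) c = wt (y H) c' → ∀ l,
      (y H' l = fun z => y H l (Equiv.swap c c' z)) → γ l H' = γ l H)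
    (h2 : ∀ c c', ∀ H ∈ Ψ, ∀ H' ∈ Ψ, ∀ l,
      (y H' l = fun z => y H l (Equiv.swap c c' z)) → γ l H ≤ γ l H' + m)
    {i j k : Fin 3} (hij : i ≠ j) (hik : i ≠ k) (hjk : j ≠ k) {w x : C} {H0 H1 : α}
    (hH0 : H0 ∈ Ψ) (hH1 : H1 ∈ Ψ) (hw : y H0 i w = true) (hx : y H0 i x = false)
    (ww : wt (y H0) w = 1) (wx : wt (y H0) x = 2)
    (hr : y H1 i = fun z => y H0 i (Equiv.swap w x z)) :
    (#(fib Ψ (fun H => y H i) H0) : ℝ) *
        ∑ H ∈ (fib Ψ (fun H => y H i) H1).filter (fun H => y H j w = true), (γ j H + γ k H) ≤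
      #((fib Ψ (fun H => y H i) H1).filter fun H => y H j w = true) *
        ∑ H ∈ fib Ψ (fun H => y H i) H0, (γ j H + γ k H + m) := by
  set X := fib Ψ (fun H => y H i) H0 with hX
  set Y := fib Ψ (fun H => y H i) H1 with hY
  have hwx : w ≠ x := fun e => by rw [e, hx] at hw; exact absurd hw (by simp)
  have hmeas : ∀ l, ∀ H ∈ Ψ, ∀ H' ∈ Ψ, y H' l = y H l → γ l H' = γ l H := fun l H hH H' hH' e =>
    h1 w w H hH H' hH' rfl l (by simpa using e)
  have inX : ∀ H ∈ X, y H i w = true ∧ y H i x = false ∧ y H j w = false ∧ y H j x = true := by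
    intro H hH
    obtain ⟨a1, a2⟩ := mem_fib.1 hH
    have c1 := h.colsum hij hik hjk a1 hH0 w
    have c2 := h.colsum hij hik hjk a1 hH0 x
    rw [show y H i = y H0 i from a2] at c1 c2 ⊢
    rw [hw, ww] at c1; rw [hx, wx] at c2
    refine ⟨hw, hx, ?_, ?_⟩
    · revert c1; cases y H j w <;> cases y H k w <;> simp
    · revert c2; cases y H j x <;> cases y H k x <;> simp
  have inY : ∀ H ∈ Y, y H i w = false ∧ y H i x = true ∧ y H j w ≠ y H k w ∧ y H j x ≠ y H k x := by
    intro H hH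
    obtain ⟨a1, a2⟩ := mem_fib.1 hH
    have c1 := h.colsum hij hik hjk a1 hH0 w
    have c2 := h.colsum hij hik hjk a1 hH0 x
    have b1 : y H i w = false := by
      rw [show y H i = y H1 i from a2, hr]; simpa using hx
    have b2 : y H i x = true := by
      rw [show y H i = y H1 i from a2, hr]; simpa using hw
    rw [b1, ww] at c1; rw [b2, wx] at c2
    refine ⟨b1, b2, ?_, ?_⟩
    · revert c1; cases y H j w <;> cases y H k w <;> simp
    · revert c2; cases y H j x <;> cases y H k x <;> simp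
  have H1Y : H1 ∈ Y := mem_fib.2 ⟨hH1, rfl⟩
  obtain ⟨htr, hb⟩ := h.blp hij hik hjk hH1
  have hwT : w ∈ univ.filter fun c => y H1 j c ≠ y H1 k c :=
    mem_filter.2 ⟨mem_univ _, (inY H1 H1Y).2.2.1⟩
  have hxT : x ∈ univ.filter fun c => y H1 j c ≠ y H1 k c :=
    mem_filter.2 ⟨mem_univ _, (inY H1 H1Y).2.2.2⟩
  set B := Y.filter fun H => y H j w = true ∧ y H j x ≠ true with hB
  set A := Y.filter fun H => y H j w = true ∧ y H j x = true with hA
  have av : ∀ H ∈ Ψ, y H i w ≠ y H j w → y H i x ≠ y H j x →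
      y (s k w x H) k = y H k ∧ (y (s k w x H) i = fun c => y H i (Equiv.swap w x c)) ∧
        y (s k w x H) j = fun c => y H j (Equiv.swap w x c) := fun H hH a b =>
    h.val' hik.symm hjk.symm hij hH a b
  have aX : ∀ H ∈ X, y H i w ≠ y H j w ∧ y H i x ≠ y H j x := fun H hH => by
    obtain ⟨a, b, c, d⟩ := inX H hH; simp [a, b, c, d]
  have aB : ∀ H ∈ B, y H i w ≠ y H j w ∧ y H i x ≠ y H j x := fun H hH => by
    obtain ⟨e, c, d⟩ := mem_filter.1 hH
    obtain ⟨a, b, -⟩ := inY H e; simp [a, b, c, d]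
  have ainv : ∀ H ∈ Ψ, y H i w ≠ y H j w → y H i x ≠ y H j x → s k w x (s k w x H) = H := by
    intro H hH a b
    obtain ⟨a1, a2, a3⟩ := av H hH a b
    obtain ⟨b1, b2, b3⟩ := av _ (h.mem k w x H hH) (by rw [a2, a3]; simpa using b)
      (by rw [a2, a3]; simpa using a)
    refine h.inj _ (h.mem _ _ _ _ (h.mem k w x H hH)) H hH (funext fun l => ?_)
    rcases cases3 hij hik hjk l with rfl | rfl | rfl
    · rw [b2, a2]; simp
    · rw [b3, a3]; simp
    · rw [b1, a1]
  have mB : ∀ H ∈ B, H ∈ Ψ := fun H hH => (mem_fib.1 (mem_filter.1 hH).1).1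
  have BX : ∀ H ∈ B, s k w x H ∈ X := fun H hH => by
    refine mem_fib.2 ⟨h.mem _ _ _ _ (mB H hH), ?_⟩
    show y _ i = y H0 i
    rw [(av H (mB H hH) (aB H hH).1 (aB H hH).2).2.1,
      show y H i = y H1 i from (mem_fib.1 (mem_filter.1 hH).1).2, hr]
    simp
  have XB : ∀ H ∈ X, s k w x H ∈ B := fun H hH => by
    obtain ⟨a1, a2, a3⟩ := av H (mem_fib.1 hH).1 (aX H hH).1 (aX H hH).2
    refine mem_filter.2 ⟨mem_fib.2 ⟨h.mem _ _ _ _ (mem_fib.1 hH).1, ?_⟩, ?_⟩
    · show y _ i = y H1 i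
      rw [a2, hr, show y H i = y H0 i from (mem_fib.1 hH).2]
    · obtain ⟨-, -, c, d⟩ := inX H hH
      rw [a3]; simp [c, d]
  have bij : ∀ f : α → ℝ, ∑ H ∈ B, f (s k w x H) = ∑ H ∈ X, f H := fun f =>
    sum_nbij' (s k w x) (s k w x) BX XB (fun H hH => ainv H (mB H hH) (aB H hH).1 (aB H hH).2)
      (fun H hH => ainv H (mem_fib.1 hH).1 (aX H hH).1 (aX H hH).2) fun _ _ => rfl
  have cBX : (#B : ℝ) = #X := by simpa using bij fun _ => 1
  have sB : ∑ H ∈ B, (γ j H + γ k H) ≤ ∑ H ∈ X, (γ j H + γ k H + m) := by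
    rw [← bij]
    refine sum_le_sum fun H hH => ?_
    obtain ⟨a1, -, a3⟩ := av H (mB H hH) (aB H hH).1 (aB H hH).2
    have := h2 w x H (mB H hH) _ (h.mem k w x H (mB H hH)) j a3
    rw [hmeas k H (mB H hH) _ (h.mem k w x H (mB H hH)) a1]; linarith
  have sA := hb.avg_le hwT hxT hwx true (fun H => γ j H + γ k H)
    (fun H => γ j (s k w x H) + γ k (s k w x H)) m (fun H hH e1 e2 z hz e3 => by
      have hH' := (mem_fib.1 hH).1
      have tz := (htr H hH z).2 (mem_filter.1 hz).2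
      obtain ⟨y1, y2, y3, y4⟩ := inY H hH
      obtain ⟨a1, a2, a3⟩ := h.val' hij hik hjk hH' y4 tz
      have hzw : z ≠ w := fun e => e3 (e ▸ e1)
      have hzx : z ≠ x := fun e => e3 (e ▸ e2)
      have hH2 := h.mem i x z H hH'
      obtain ⟨b1, -, b3⟩ := av _ hH2
        (by rw [a1, a2]; simp [Equiv.swap_apply_of_ne_of_ne hwx hzw.symm, y1, e1])
        (by rw [a1, a2]; simp [y2, e3])
      have hH3 := h.mem k w x _ hH2
      have rk : y (s k w x (s i x z H)) k = fun c => y H k (Equiv.swap x z c) := b1.trans a3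
      have rj : y (s k w x (s i x z H)) j = fun c => y H j (Equiv.swap w z c) := by
        rw [b3, a2]; funext c
        by_cases c1 : c = w
        · subst c1; simp
        by_cases c2 : c = x
        · subst c2
          simp [Equiv.swap_apply_of_ne_of_ne hwx hzw.symm,
            Equiv.swap_apply_of_ne_of_ne hwx.symm hzx.symm, e1, e2]
        by_cases c3 : c = z
        · subst c3; simp [Equiv.swap_apply_of_ne_of_ne c1 c2, e1, e2]
        simp [Equiv.swap_apply_of_ne_of_ne c1 c2, Equiv.swap_apply_of_ne_of_ne c1 c3,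
          Equiv.swap_apply_of_ne_of_ne c2 c3]
      have cz := h.colsum hij hik hjk hH' hH' z
      have : wt (y H) z = 1 ∨ wt (y H) z = 2 := by
        rw [← cz]; revert tz; cases y H i z <;> cases y H j z <;> cases y H k z <;> simp
      show γ j H + γ k H ≤ γ j (s k w x (s i x z H)) + γ k (s k w x (s i x z H)) + m
      rcases this with e | e
      · have t1 := h1 w z H hH' _ hH3 (by rw [e, h.col H hH' H0 hH0, ww]) j rj
        have t2 := h2 x z H hH' _ hH3 k rk
        linarith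
      · have t1 := h1 x z H hH' _ hH3 (by rw [e, h.col H hH' H0 hH0, wx]) k rk
        have t2 := h2 w z H hH' _ hH3 j rj
        linarith)
  rw [bij fun H => γ j H + γ k H + m, cBX] at sA
  have sp : ∀ f : α → ℝ, ∑ H ∈ Y.filter (fun H => y H j w = true), f H =
      ∑ H ∈ A, f H + ∑ H ∈ B, f H := fun f => by
    rw [← sum_filter_add_sum_filter_not _ (fun H => y H j x = true), filter_filter, filter_filter]
  have sp1 := sp fun _ => 1
  simp only [sum_const, nsmul_eq_mul, mul_one] at sp1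
  rw [sp, sp1, cBX]
  have := mul_le_mul_of_nonneg_left sB (Nat.cast_nonneg (α := ℝ) #X)
  linarith

lemma couple (h : TRP Ψ y s) {γ : Fin 3 → α → ℝ} {m : ℝ}
    (h1 : ∀ c c', ∀ H ∈ Ψ, ∀ H' ∈ Ψ, wt (y H) c = wt (y H) c' → ∀ l,
      (y H' l = fun z => y H l (Equiv.swap c c' z)) → γ l H' = γ l H)
    (h2 : ∀ c c', ∀ H ∈ Ψ, ∀ H' ∈ Ψ, ∀ l,
      (y H' l = fun z => y H l (Equiv.swap c c' z)) → γ l H ≤ γ l H' + m)
    {i j k : Fin 3} (hij : i ≠ j) (hik : i ≠ k) (hjk : j ≠ k) {w x : C} {H0 H1 : α}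
    (hH0 : H0 ∈ Ψ) (hH1 : H1 ∈ Ψ) (hw : y H0 i w = true) (hx : y H0 i x = false)
    (ww : wt (y H0) w = 1) (wx : wt (y H0) x = 2)
    (hr : y H1 i = fun z => y H0 i (Equiv.swap w x z)) :
    cexp Ψ (fun H => y H i) (γ j + γ k) H1 ≤ cexp Ψ (fun H => y H i) (γ j + γ k) H0 + m := by
  have a := h.half h1 h2 hij hik hjk hH0 hH1 hw hx ww wx hr
  have b := h.half h1 h2 hik hij hjk.symm hH0 hH1 hw hx ww wx hr
  have e : (fib Ψ (fun H => y H i) H1).filter (fun H => y H k w = true) =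
      (fib Ψ (fun H => y H i) H1).filter (fun H => ¬ y H j w = true) := by
    refine filter_congr fun H hH => ?_
    obtain ⟨a1, a2⟩ := mem_fib.1 hH
    have c1 := h.colsum hij hik hjk a1 hH0 w
    have b1 : y H i w = false := by
      rw [show y H i = y H1 i from a2, hr]; simpa using hx
    rw [b1, ww] at c1
    revert c1; cases y H j w <;> cases y H k w <;> simp
  simp only [add_comm (γ k _) (γ j _), e] at b
  have c := add_le_add a b
  rw [← mul_add, ← add_mul, sum_filter_add_sum_filter_not, ← Nat.cast_add,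
    card_filter_add_card_filter_not, sum_add_distrib (g := fun _ => m), sum_const, nsmul_eq_mul]
    at c
  have p0 := fib_card_pos (κ := fun H => y H i) hH0
  have p1 := fib_card_pos (κ := fun H => y H i) hH1
  rw [cexp_apply, cexp_apply, div_add' _ _ _ p0.ne', div_le_div_iff₀ p1 p0]
  simp only [Pi.add_apply]
  linarith

lemma stage2 (h : TRP Ψ y s) {v : α → ℝ} {lam : ℝ} (hl : 2 < lam)
    (hv : ∀ H ∈ Ψ, ∑ l, cexp Ψ (fun H => y H l) v H = lam * v H) {c c' : C} {H1 H2 : α}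
    (hH1 : H1 ∈ Ψ) (hH2 : H2 ∈ Ψ) (l : Fin 3)
    (hr : y H2 l = fun z => y H1 l (Equiv.swap c c' z)) :
    cexp Ψ (fun H => y H l) v H2 = cexp Ψ (fun H => y H l) v H1 := by
  classical
  set g : Fin 3 → α → ℝ := fun l => cexp Ψ (fun H => y H l) v with hg
  have rsym : ∀ {l : Fin 3} {H H' : α} {c c' : C}, (y H' l = fun z => y H l (Equiv.swap c c' z)) →
      y H l = fun z => y H' l (Equiv.swap c c' z) := fun e => by rw [e]; simp
  obtain ⟨⟨i, Ha, Hb⟩, hmem, hmax⟩ := exists_max_image ((univ ×ˢ Ψ ×ˢ Ψ).filter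
    fun p : Fin 3 × α × α => ∃ c c', y p.2.2 p.1 = fun z => y p.2.1 p.1 (Equiv.swap c c' z))
    (fun p => g p.1 p.2.1 - g p.1 p.2.2) ⟨(l, H1, H2), by
      simp only [mem_filter, mem_product, mem_univ, hH1, hH2, true_and]; exact ⟨c, c', hr⟩⟩
  simp only [mem_filter, mem_product, mem_univ, true_and] at hmem hmax
  obtain ⟨⟨ha, hb⟩, w, x, hwx⟩ := hmem
  set m := g i Ha - g i Hb with hm
  have h1 : ∀ c c', ∀ H ∈ Ψ, ∀ H' ∈ Ψ, wt (y H) c = wt (y H) c' → ∀ l,
      (y H' l = fun z => y H l (Equiv.swap c c' z)) → g l H' = g l H :=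
    fun c c' H hH H' hH' e l hr => h.stage1 hl hv hH hH' e l hr
  have h2 : ∀ c c', ∀ H ∈ Ψ, ∀ H' ∈ Ψ, ∀ l,
      (y H' l = fun z => y H l (Equiv.swap c c' z)) → g l H ≤ g l H' + m :=
    fun c c' H hH H' hH' l hr => by have := hmax (l, H, H') ⟨⟨hH, hH'⟩, c, c', hr⟩; linarith
  obtain ⟨hij, hik, hjk⟩ := ne3 i
  have core : ∀ w x, ∀ H0 ∈ Ψ, ∀ H1 ∈ Ψ, y H0 i w = true → y H0 i x = false →
      wt (y H0) w = 1 → wt (y H0) x = 2 → (y H1 i = fun z => y H0 i (Equiv.swap w x z)) →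
      (lam - 1) * (g i H1 - g i H0) ≤ m ∧ (lam - 1) * (g i H0 - g i H1) ≤ m := by
    intro w x H0 hH0 H1 hH1 hw hx ww wx hr
    have a := h.couple h1 h2 hij hik hjk hH0 hH1 hw hx ww wx hr
    have b := h.couple (γ := fun l => -g l) (m := m)
      (fun c c' H hH H' hH' e l hr => by simp [h1 c c' H hH H' hH' e l hr])
      (fun c c' H hH H' hH' l hr => by
        have := h2 c c' H' hH' H hH l (rsym hr); simp only [Pi.neg_apply]; linarith)
      hij hik hjk hH0 hH1 hw hx ww wx hr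
    rw [← neg_add, map_neg, Pi.neg_apply, Pi.neg_apply] at b
    have e0 := h.eig hv hij hik hjk hH0
    have e1 := h.eig hv hij hik hjk hH1
    simp only [hg] at a b ⊢
    constructor <;> linarith
  have core2 : ∀ w x, y Ha i w = true → y Ha i x = false →
      (y Hb i = fun z => y Ha i (Equiv.swap w x z)) → m ≤ 0 := by
    intro w x hw hx hr
    have bw : y Hb i w = false := by rw [hr]; simpa using hx
    have bx : y Hb i x = true := by rw [hr]; simpa using hw
    have c1 := h.colsum hij hik hjk ha ha w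
    have c2 := h.colsum hij hik hjk hb ha w
    have c3 := h.colsum hij hik hjk ha ha x
    have c4 := h.colsum hij hik hjk hb ha x
    rw [hw] at c1; rw [bw] at c2; rw [hx] at c3; rw [bx] at c4
    have t := fun b : Bool => Bool.toNat_le b
    have t1 := t (y Hb (i + 1) w); have t2 := t (y Hb (i + 2) w)
    have t3 := t (y Ha (i + 1) x); have t4 := t (y Ha (i + 2) x)
    simp only [Bool.toNat_true, Bool.toNat_false] at c1 c2 c3 c4
    by_cases e : wt (y Ha) w = wt (y Ha) x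
    · rw [hm, h1 w x Ha ha Hb hb e i hr, sub_self]
    rcases (by omega : (wt (y Ha) w = 1 ∧ wt (y Ha) x = 2) ∨ (wt (y Ha) w = 2 ∧ wt (y Ha) x = 1))
      with ⟨e1, e2⟩ | ⟨e1, e2⟩
    · have := (core w x Ha ha Hb hb hw hx e1 e2 hr).2
      nlinarith
    · have := (core x w Hb hb Ha ha bx bw (by rw [h.col Hb hb Ha ha, e2])
        (by rw [h.col Hb hb Ha ha, e1]) (by rw [Equiv.swap_comm]; exact rsym hr)).1
      nlinarith
  have hle : m ≤ 0 := by
    by_cases e : y Ha i w = y Ha i x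
    · have : g i Ha = g i Hb := meas_cexp Ψ _ v Ha ha Hb hb (by
        show y Ha i = y Hb i
        rw [hwx]; funext z
        rw [Equiv.swap_apply_def]; split_ifs with h1 h2
        · rw [h1, e]
        · rw [h2, e]
        · rfl)
      rw [hm, this, sub_self]
    · cases hw : y Ha i w
      · exact core2 x w (by rw [hw] at e; simpa using e) hw (by rw [Equiv.swap_comm]; exact hwx)
      · exact core2 w x hw (by rw [hw] at e; simpa using e) hwx
  have a1 := h2 c c' H1 hH1 H2 hH2 l hr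
  have a2 := h2 c c' H2 hH2 H1 hH1 l (rsym hr)
  show g l H2 = g l H1
  linarith

lemma eig_three (h : TRP Ψ y s) {v : α → ℝ} {lam : ℝ} (hl : 2 < lam)
    (hv : ∀ H ∈ Ψ, ∑ l, cexp Ψ (fun H => y H l) v H = lam * v H) {H : α} (hH : H ∈ Ψ) :
    lam * v H = 3 * v H := by
  have : ∀ i, cexp Ψ (fun H => y H i) v H = v H := by
    intro i
    refine cexp_of_meas (fun H1 h1 H2 h2 e => ?_) hH
    obtain ⟨hij, hik, hjk⟩ := ne3 i
    obtain ⟨htr, hb⟩ := h.blp hij hik hjk h2
    refine hb.conn v (fun w hw x hx H hH => ?_) (mem_fib.2 ⟨h1, e⟩) (mem_fib.2 ⟨h2, rfl⟩)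
    have hH' := (mem_fib.1 hH).1
    have hs := h.mem i w x H hH'
    obtain ⟨a1, a2, a3⟩ := h.val' hij hik hjk hH' ((htr H hH w).2 (mem_filter.1 hw).2)
      ((htr H hH x).2 (mem_filter.1 hx).2)
    have e1 := hv _ hs
    have e2 := hv H hH'
    rw [sum3 _ hij hik hjk] at e1 e2
    rw [h.stage2 hl hv hH' hs _ a2, h.stage2 hl hv hH' hs _ a3, meas_cexp Ψ _ v _ hs H hH' a1,
      e2] at e1
    exact (mul_left_cancel₀ (by linarith) e1).symm
  rw [← hv H hH]; simp [this]

/-- the three-row inequality -/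
theorem ineq (h : TRP Ψ y s) (F : α → ℝ) :
    ∑ i, ip Ψ (F - cexp Ψ (fun H => y H i) F) (F - cexp Ψ (fun H => y H i) F) ≤
      ∑ i, ∑ j, ip Ψ (F - cexp Ψ (fun H => y H i) F) (F - cexp Ψ (fun H => y H j) F) := by
  let L : (α → ℝ) →ₗ[ℝ] (α → ℝ) := ∑ i, (LinearMap.id - cexp Ψ (fun H => y H i))
  have hL : ∀ F, L F = ∑ i, (F - cexp Ψ (fun H => y H i) F) := fun F => by
    simp only [L, LinearMap.sum_apply, LinearMap.sub_apply, LinearMap.id_apply]
  have key := sq_ge_of_eigen Ψ L (fun F F' e x hx => by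
      simp only [hL, Finset.sum_apply, Pi.sub_apply, e x hx, cexp_local _ e x])
    (fun F G => by
      simp only [hL, ip_sum_left, ip_sum_right, ip_sub_left, ip_sub_right, ip_cexp]) 1
    (fun μ v hv => by
      by_cases h0 : μ = 0
      · left; simp [h0]
      by_cases h1 : 1 ≤ μ ∨ μ ≤ 0
      · left; rcases h1 with h1 | h1 <;> nlinarith
      push Not at h1
      right
      intro H hH
      have := h.eig_three (v := v) (lam := 3 - μ) (by linarith) (fun H hH => by
        have := hv H hH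
        simp only [hL, Finset.sum_apply, Pi.sub_apply, sum_sub_distrib, sum_const, card_univ,
          Fintype.card_fin, nsmul_eq_mul] at this
        push_cast at this
        linarith) hH
      exact (mul_eq_zero.1 (by linarith : μ * v H = 0)).resolve_left h0) F
  rw [one_mul, hL, ip_sum_right, ip_sum_left] at key
  simp only [ip_sub_cexp_self, ip_sum_right] at key
  exact key

end TRP
end Crest.Agent.SW
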